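import Crest.Agent.R278.Ctx

/-!
# A reflective test for identities in the function field of the surface `F = 0`

An expression in `A, u, w, W₁, …, W₄` is evaluated to a quadruple of polynomials in `A, u` (the
coefficients of `1, w, w², w³` of its numerator) over a power of the denominators `lI`, `lJ`.
The evaluation is generic in the coefficient arithmetic; it is run on values at the points
`(a, B)`, on bounds for the sum of the absolute values of the coefficients, and on degree bounds.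
-/

set_option autoImplicit false

namespace Crest.Agent.R278

open E hiding x c add mul hor
open Polynomial

structure Ops (α : Type) where
  add : α → α → α
  mul : α → α → α
  cst : ℤ → α

structure Qd (α : Type) where
  p0 : α
  p1 : α
  p2 : α
  p3 : α

inductive RV (α : Type) : Type
  | s (x : α) : RV α
  | v (q : Qd α) (i j : ℕ) : RV α

structure Cx (α : Type) where
  A : α
  u : α
  c2 : α
  c0 : α
  lI : Qd α
  lJ : Qd α
  m1 : Qd α
  m2 : Qd α
  m3 : Qd α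
  m4 : Qd α

section defs
variable {α : Type} (o : Ops α)

def sel (A u : α) : ℕ → α
  | 0 => A
  | _ => u

def sev (A u : α) : E → α
  | .c n => o.cst n
  | .x i => sel A u i
  | .add a b => o.add (sev A u a) (sev A u b)
  | .mul a b => o.mul (sev A u a) (sev A u b)
  | .hor a i b => o.add (sev A u a) (o.mul (sel A u i) (sev A u b))

def mkCx (A u : α) : Cx α where
  A := A
  u := u
  c2 := sev o A u (neg k2E)
  c0 := sev o A u (neg k0E)
  lI := ⟨sev o A u l0E, o.cst 319, o.cst 0, o.cst 0⟩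
  lJ := ⟨sev o A u (neg l0E), o.cst 319, o.cst 0, o.cst 0⟩
  m1 := ⟨sev o A u m10E, sev o A u m11E, sev o A u m12E, sev o A u m13E⟩
  m2 := ⟨sev o A u m20E, sev o A u m21E, sev o A u m22E, sev o A u m23E⟩
  m3 := ⟨sev o A u (neg m10E), sev o A u m11E, sev o A u (neg m12E), sev o A u m13E⟩
  m4 := ⟨sev o A u (neg m20E), sev o A u m21E, sev o A u (neg m22E), sev o A u m23E⟩

def Qd.add : Qd α → Qd α → Qd α
  | ⟨a0, a1, a2, a3⟩, ⟨b0, b1, b2, b3⟩ => ⟨o.add a0 b0, o.add a1 b1, o.add a2 b2, o.add a3 b3⟩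

def Qd.smul (x : α) : Qd α → Qd α
  | ⟨b0, b1, b2, b3⟩ => ⟨o.mul x b0, o.mul x b1, o.mul x b2, o.mul x b3⟩

/-- Reduction of a polynomial of degree six with `w⁴ = c2 w² + c0`. -/
def Qd.red (c2 c0 q0 q1 q2 q3 q4 q5 q6 : α) : Qd α :=
  ⟨o.add q0 (o.mul (o.add q4 (o.mul q6 c2)) c0), o.add q1 (o.mul q5 c0),
    o.add (o.add q2 (o.mul q6 c0)) (o.mul (o.add q4 (o.mul q6 c2)) c2), o.add q3 (o.mul q5 c2)⟩

def Qd.mul (c2 c0 : α) : Qd α → Qd α → Qd α
  | ⟨a0, a1, a2, a3⟩, ⟨b0, b1, b2, b3⟩ =>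
    Qd.red o c2 c0 (o.mul a0 b0) (o.add (o.mul a0 b1) (o.mul a1 b0))
      (o.add (o.mul a0 b2) (o.add (o.mul a1 b1) (o.mul a2 b0)))
      (o.add (o.add (o.mul a0 b3) (o.mul a1 b2)) (o.add (o.mul a2 b1) (o.mul a3 b0)))
      (o.add (o.mul a1 b3) (o.add (o.mul a2 b2) (o.mul a3 b1)))
      (o.add (o.mul a2 b3) (o.mul a3 b2)) (o.mul a3 b3)

def Qd.up (c2 c0 : α) (l : Qd α) : ℕ → Qd α → Qd α
  | 0, a => a
  | k + 1, a => Qd.mul o c2 c0 l (Qd.up c2 c0 l k a)

def Qd.vadd (cx : Cx α) (p : Qd α) (i j : ℕ) (q : Qd α) (i' j' : ℕ) : RV α :=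
  .v (Qd.add o (Qd.up o cx.c2 cx.c0 cx.lI (i' - i) (Qd.up o cx.c2 cx.c0 cx.lJ (j' - j) p))
    (Qd.up o cx.c2 cx.c0 cx.lI (i - i') (Qd.up o cx.c2 cx.c0 cx.lJ (j - j') q)))
    (i + (i' - i)) (j + (j' - j))

def Qd.ofS (x : α) : Qd α := ⟨x, o.cst 0, o.cst 0, o.cst 0⟩

def RV.add (cx : Cx α) : RV α → RV α → RV α
  | .s x, .s y => .s (o.add x y)
  | .s x, .v q i j => Qd.vadd o cx (Qd.ofS o x) 0 0 q i j
  | .v q i j, .s y => Qd.vadd o cx q i j (Qd.ofS o y) 0 0
  | .v p i j, .v q i' j' => Qd.vadd o cx p i j q i' j'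

def RV.mul (cx : Cx α) : RV α → RV α → RV α
  | .s x, .s y => .s (o.mul x y)
  | .s x, .v q i j => .v (Qd.smul o x q) i j
  | .v q i j, .s y => .v (Qd.smul o y q) i j
  | .v p i j, .v q i' j' => .v (Qd.mul o cx.c2 cx.c0 p q) (i + i') (j + j')

def envR (cx : Cx α) : ℕ → RV α
  | 0 => .s cx.A
  | 1 => .s cx.u
  | 2 => .v ⟨o.cst 0, o.cst 1, o.cst 0, o.cst 0⟩ 0 0
  | 3 => .v cx.m1 1 0
  | 4 => .v cx.m2 1 0
  | 5 => .v cx.m3 0 1
  | 6 => .v cx.m4 0 1
  | _ => .s (o.cst 0)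

def rev (cx : Cx α) : E → RV α
  | .c n => .s (o.cst n)
  | .x i => envR o cx i
  | .add a b => RV.add o cx (rev cx a) (rev cx b)
  | .mul a b => RV.mul o cx (rev cx a) (rev cx b)
  | .hor a i b => RV.add o cx (rev cx a) (RV.mul o cx (envR o cx i) (rev cx b))

def RV.all (p : α → Bool) : RV α → Bool
  | .s x => p x
  | .v ⟨a0, a1, a2, a3⟩ _ _ => p a0 && p a1 && p a2 && p a3

end defs

/-! ### Relations preserved by the arithmetic are preserved by the evaluation -/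

section rel
variable {α β : Type} {o : Ops α} {o' : Ops β} {ρ : α → β → Prop}

structure Hom (o : Ops α) (o' : Ops β) (ρ : α → β → Prop) : Prop where
  add : ∀ {a a' b b'}, ρ a a' → ρ b b' → ρ (o.add a b) (o'.add a' b')
  mul : ∀ {a a' b b'}, ρ a a' → ρ b b' → ρ (o.mul a b) (o'.mul a' b')
  cst : ∀ n, ρ (o.cst n) (o'.cst n)

def QR (ρ : α → β → Prop) (a : Qd α) (b : Qd β) : Prop :=
  ρ a.p0 b.p0 ∧ ρ a.p1 b.p1 ∧ ρ a.p2 b.p2 ∧ ρ a.p3 b.p3

def RR (ρ : α → β → Prop) : RV α → RV β → Prop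
  | .s x, .s y => ρ x y
  | .v q i j, .v q' i' j' => QR ρ q q' ∧ i = i' ∧ j = j'
  | _, _ => False

structure CR (ρ : α → β → Prop) (cx : Cx α) (cx' : Cx β) : Prop where
  A : ρ cx.A cx'.A
  u : ρ cx.u cx'.u
  c2 : ρ cx.c2 cx'.c2
  c0 : ρ cx.c0 cx'.c0
  lI : QR ρ cx.lI cx'.lI
  lJ : QR ρ cx.lJ cx'.lJ
  m1 : QR ρ cx.m1 cx'.m1
  m2 : QR ρ cx.m2 cx'.m2
  m3 : QR ρ cx.m3 cx'.m3
  m4 : QR ρ cx.m4 cx'.m4

theorem rel_sev (h : Hom o o' ρ) {A u : α} {A' u' : β} (hA : ρ A A') (hu : ρ u u') (e : E) :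
    ρ (sev o A u e) (sev o' A' u' e) := by
  have hs : ∀ i, ρ (sel A u i) (sel A' u' i) := by
    intro i; cases i
    · exact hA
    · exact hu
  induction e with
  | c n => exact h.cst n
  | x i => exact hs i
  | add a b ha hb => exact h.add ha hb
  | mul a b ha hb => exact h.mul ha hb
  | hor a i b ha hb => exact h.add ha (h.mul (hs i) hb)

theorem rel_mkCx (h : Hom o o' ρ) {A u : α} {A' u' : β} (hA : ρ A A') (hu : ρ u u') :
    CR ρ (mkCx o A u) (mkCx o' A' u') := by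
  have k := rel_sev h hA hu
  exact ⟨hA, hu, k _, k _, ⟨k _, h.cst _, h.cst _, h.cst _⟩, ⟨k _, h.cst _, h.cst _, h.cst _⟩,
    ⟨k _, k _, k _, k _⟩, ⟨k _, k _, k _, k _⟩, ⟨k _, k _, k _, k _⟩, ⟨k _, k _, k _, k _⟩⟩

theorem rel_add (h : Hom o o' ρ) {a b : Qd α} {a' b' : Qd β} (ha : QR ρ a a') (hb : QR ρ b b') :
    QR ρ (Qd.add o a b) (Qd.add o' a' b') :=
  ⟨h.add ha.1 hb.1, h.add ha.2.1 hb.2.1, h.add ha.2.2.1 hb.2.2.1, h.add ha.2.2.2 hb.2.2.2⟩

theorem rel_smul (h : Hom o o' ρ) {x : α} {x' : β} {b : Qd α} {b' : Qd β} (hx : ρ x x')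
    (hb : QR ρ b b') : QR ρ (Qd.smul o x b) (Qd.smul o' x' b') :=
  ⟨h.mul hx hb.1, h.mul hx hb.2.1, h.mul hx hb.2.2.1, h.mul hx hb.2.2.2⟩

theorem rel_mul (h : Hom o o' ρ) {c2 c0 : α} {c2' c0' : β} (h2 : ρ c2 c2') (h0 : ρ c0 c0')
    {a b : Qd α} {a' b' : Qd β} (ha : QR ρ a a') (hb : QR ρ b b') :
    QR ρ (Qd.mul o c2 c0 a b) (Qd.mul o' c2' c0' a' b') := by
  obtain ⟨a0, a1, a2, a3⟩ := ha
  obtain ⟨b0, b1, b2, b3⟩ := hb
  have q4 := h.add (h.mul a1 b3) (h.add (h.mul a2 b2) (h.mul a3 b1))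
  have q5 := h.add (h.mul a2 b3) (h.mul a3 b2)
  have q6 := h.mul a3 b3
  have q4' := h.add q4 (h.mul q6 h2)
  exact ⟨h.add (h.mul a0 b0) (h.mul q4' h0),
    h.add (h.add (h.mul a0 b1) (h.mul a1 b0)) (h.mul q5 h0),
    h.add (h.add (h.add (h.mul a0 b2) (h.add (h.mul a1 b1) (h.mul a2 b0))) (h.mul q6 h0))
      (h.mul q4' h2),
    h.add (h.add (h.add (h.mul a0 b3) (h.mul a1 b2)) (h.add (h.mul a2 b1) (h.mul a3 b0)))
      (h.mul q5 h2)⟩

theorem rel_up (h : Hom o o' ρ) {c2 c0 : α} {c2' c0' : β} (h2 : ρ c2 c2') (h0 : ρ c0 c0')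
    {l a : Qd α} {l' a' : Qd β} (hl : QR ρ l l') (ha : QR ρ a a') (k : ℕ) :
    QR ρ (Qd.up o c2 c0 l k a) (Qd.up o' c2' c0' l' k a') := by
  induction k with
  | zero => exact ha
  | succ k ih => exact rel_mul h h2 h0 hl ih

theorem rel_vadd (h : Hom o o' ρ) {cx : Cx α} {cx' : Cx β} (hc : CR ρ cx cx') {p q : Qd α}
    {p' q' : Qd β} (hp : QR ρ p p') (hq : QR ρ q q') (i j i' j' : ℕ) :
    RR ρ (Qd.vadd o cx p i j q i' j') (Qd.vadd o' cx' p' i j q' i' j') :=
  ⟨rel_add h (rel_up h hc.c2 hc.c0 hc.lI (rel_up h hc.c2 hc.c0 hc.lJ hp _) _)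
    (rel_up h hc.c2 hc.c0 hc.lI (rel_up h hc.c2 hc.c0 hc.lJ hq _) _), rfl, rfl⟩

theorem rel_ofS (h : Hom o o' ρ) {x : α} {x' : β} (hx : ρ x x') :
    QR ρ (Qd.ofS o x) (Qd.ofS o' x') := ⟨hx, h.cst _, h.cst _, h.cst _⟩

theorem rel_radd (h : Hom o o' ρ) {cx : Cx α} {cx' : Cx β} (hc : CR ρ cx cx') {a b : RV α}
    {a' b' : RV β} (ha : RR ρ a a') (hb : RR ρ b b') :
    RR ρ (RV.add o cx a b) (RV.add o' cx' a' b') := by
  cases a <;> cases a' <;> cases b <;> cases b' <;> simp only [RR] at ha hb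
  · exact h.add ha hb
  · obtain ⟨hq, rfl, rfl⟩ := hb
    exact rel_vadd h hc (rel_ofS h ha) hq _ _ _ _
  · obtain ⟨hq, rfl, rfl⟩ := ha
    exact rel_vadd h hc hq (rel_ofS h hb) _ _ _ _
  · obtain ⟨hp, rfl, rfl⟩ := ha
    obtain ⟨hq, rfl, rfl⟩ := hb
    exact rel_vadd h hc hp hq _ _ _ _

theorem rel_rmul (h : Hom o o' ρ) {cx : Cx α} {cx' : Cx β} (hc : CR ρ cx cx') {a b : RV α}
    {a' b' : RV β} (ha : RR ρ a a') (hb : RR ρ b b') :
    RR ρ (RV.mul o cx a b) (RV.mul o' cx' a' b') := by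
  cases a <;> cases a' <;> cases b <;> cases b' <;> simp only [RR] at ha hb
  · exact h.mul ha hb
  · obtain ⟨hq, rfl, rfl⟩ := hb
    exact ⟨rel_smul h ha hq, rfl, rfl⟩
  · obtain ⟨hq, rfl, rfl⟩ := ha
    exact ⟨rel_smul h hb hq, rfl, rfl⟩
  · obtain ⟨hp, rfl, rfl⟩ := ha
    obtain ⟨hq, rfl, rfl⟩ := hb
    exact ⟨rel_mul h hc.c2 hc.c0 hp hq, rfl, rfl⟩

theorem rel_envR (h : Hom o o' ρ) {cx : Cx α} {cx' : Cx β} (hc : CR ρ cx cx') (i : ℕ) :
    RR ρ (envR o cx i) (envR o' cx' i) := by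
  rcases i with _ | _ | _ | _ | _ | _ | _ | i
  · exact hc.A
  · exact hc.u
  · exact ⟨⟨h.cst _, h.cst _, h.cst _, h.cst _⟩, rfl, rfl⟩
  · exact ⟨hc.m1, rfl, rfl⟩
  · exact ⟨hc.m2, rfl, rfl⟩
  · exact ⟨hc.m3, rfl, rfl⟩
  · exact ⟨hc.m4, rfl, rfl⟩
  · exact h.cst 0

theorem rel_rev (h : Hom o o' ρ) {cx : Cx α} {cx' : Cx β} (hc : CR ρ cx cx') (e : E) :
    RR ρ (rev o cx e) (rev o' cx' e) := by
  induction e with
  | c n => exact h.cst n
  | x i => exact rel_envR h hc i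
  | add a b ha hb => exact rel_radd h hc ha hb
  | mul a b ha hb => exact rel_rmul h hc ha hb
  | hor a i b ha hb => exact rel_radd h hc ha (rel_rmul h hc (rel_envR h hc i) hb)

end rel

/-! ### Meaning of the evaluation in the function field -/

def ringOps (R : Type) [CommRing R] : Ops R := ⟨(· + ·), (· * ·), fun n => (n : R)⟩

theorem hom_graph {R R' : Type} [CommRing R] [CommRing R'] (f : R →+* R') :
    Hom (ringOps R) (ringOps R') (fun a b => f a = b) where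
  add := by rintro a _ b _ rfl rfl; exact map_add f a b
  mul := by rintro a _ b _ rfl rfl; exact map_mul f a b
  cst := fun n => map_intCast f n

section sem
variable {L : Type} [Field L]

theorem sev_eq (v : ℕ → L) (e : E) (h : E.two e = true) :
    sev (ringOps L) (v 0) (v 1) e = ev v e := by
  induction e with
  | c n => rfl
  | x i =>
    simp only [E.two, decide_eq_true_eq] at h
    interval_cases i <;> rfl
  | add a b ha hb =>
    simp only [E.two, Bool.and_eq_true] at h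
    rw [ev_add, ← ha h.1, ← hb h.2]; rfl
  | mul a b ha hb =>
    simp only [E.two, Bool.and_eq_true] at h
    rw [ev_mul, ← ha h.1, ← hb h.2]; rfl
  | hor a i b ha hb =>
    simp only [E.two, Bool.and_eq_true, decide_eq_true_eq] at h
    obtain ⟨⟨h1, h2⟩, h3⟩ := h
    rw [ev_hor, ← ha h1, ← hb h3]
    interval_cases i <;> rfl

def Qd.val (w : L) (q : Qd L) : L := q.p0 + w * (q.p1 + w * (q.p2 + w * q.p3))

theorem val_add (w : L) (a b : Qd L) : (Qd.add (ringOps L) a b).val w = a.val w + b.val w := by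
  cases a; cases b; simp only [Qd.add, Qd.val, ringOps]; ring

theorem val_smul (w x : L) (b : Qd L) : (Qd.smul (ringOps L) x b).val w = x * b.val w := by
  cases b; simp only [Qd.smul, Qd.val, ringOps]; ring

theorem val_mul {w c2 c0 : L} (hw : w ^ 4 = c2 * w ^ 2 + c0) (a b : Qd L) :
    (Qd.mul (ringOps L) c2 c0 a b).val w = a.val w * b.val w := by
  obtain ⟨a0, a1, a2, a3⟩ := a
  obtain ⟨b0, b1, b2, b3⟩ := b
  simp only [Qd.mul, Qd.red, Qd.val, ringOps]
  linear_combination (-(a1 * b3 + a2 * b2 + a3 * b1 + a3 * b3 * c2) - w * (a2 * b3 + a3 * b2)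
    - w ^ 2 * (a3 * b3)) * hw

theorem val_up {w c2 c0 : L} (hw : w ^ 4 = c2 * w ^ 2 + c0) (l a : Qd L) (k : ℕ) :
    (Qd.up (ringOps L) c2 c0 l k a).val w = l.val w ^ k * a.val w := by
  induction k with
  | zero => simp [Qd.up]
  | succ k ih => rw [Qd.up, val_mul hw, ih]; ring

theorem val_ofS (w x : L) : (Qd.ofS (ringOps L) x).val w = x := by
  simp [Qd.ofS, Qd.val, ringOps]

def Sem (w I J : L) : RV L → L → Prop
  | .s x, z => z = x
  | .v q i j, z => z * I ^ i * J ^ j = q.val w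

theorem sem_vadd {w : L} {cx : Cx L} (hw : w ^ 4 = cx.c2 * w ^ 2 + cx.c0) {p q : Qd L}
    {i j i' j' : ℕ} {y z : L} (hp : y * cx.lI.val w ^ i * cx.lJ.val w ^ j = p.val w)
    (hq : z * cx.lI.val w ^ i' * cx.lJ.val w ^ j' = q.val w) :
    Sem w (cx.lI.val w) (cx.lJ.val w) (Qd.vadd (ringOps L) cx p i j q i' j') (y + z) := by
  simp only [Qd.vadd, Sem, val_add, val_up hw, ← hp, ← hq]
  have e1 : i + (i' - i) = i' + (i - i') := by omega
  have e2 : j + (j' - j) = j' + (j - j') := by omega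
  rw [add_mul, add_mul]
  congr 1
  · rw [pow_add, pow_add]; ring
  · rw [e1, e2, pow_add, pow_add]; ring

theorem sem_radd {w : L} {cx : Cx L} (hw : w ^ 4 = cx.c2 * w ^ 2 + cx.c0) {a b : RV L} {y z : L}
    (ha : Sem w (cx.lI.val w) (cx.lJ.val w) a y) (hb : Sem w (cx.lI.val w) (cx.lJ.val w) b z) :
    Sem w (cx.lI.val w) (cx.lJ.val w) (RV.add (ringOps L) cx a b) (y + z) := by
  cases a <;> cases b <;> simp only [Sem] at ha hb
  · subst ha hb; rfl
  · exact sem_vadd hw (by rw [val_ofS, ha]; simp) hb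
  · exact sem_vadd hw ha (by rw [val_ofS, hb]; simp)
  · exact sem_vadd hw ha hb

theorem sem_rmul {w : L} {cx : Cx L} (hw : w ^ 4 = cx.c2 * w ^ 2 + cx.c0) {a b : RV L} {y z : L}
    (ha : Sem w (cx.lI.val w) (cx.lJ.val w) a y) (hb : Sem w (cx.lI.val w) (cx.lJ.val w) b z) :
    Sem w (cx.lI.val w) (cx.lJ.val w) (RV.mul (ringOps L) cx a b) (y * z) := by
  cases a <;> cases b <;> simp only [Sem] at ha hb
  · subst ha hb; rfl
  · simp only [RV.mul, Sem, val_smul, ← hb, ha]; ring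
  · simp only [RV.mul, Sem, val_smul, ← ha, hb]; ring
  · simp only [RV.mul, Sem, val_mul hw, ← ha, ← hb, pow_add]; ring

theorem sem_rev {v : ℕ → L} (hc : Ctx v) (e : E) :
    Sem (v 2) (ev v lIE) (ev v lJE) (rev (ringOps L) (mkCx (ringOps L) (v 0) (v 1)) e) (ev v e) := by
  set cx := mkCx (ringOps L) (v 0) (v 1) with hcx
  have hI : cx.lI.val (v 2) = ev v lIE := by
    simp only [hcx, mkCx, Qd.val, sev_eq v l0E (by decide), lIE, ev_quad, ev_c]; rfl
  have hJ : cx.lJ.val (v 2) = ev v lJE := by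
    simp only [hcx, mkCx, Qd.val, sev_eq v (neg l0E) (by decide), lJE, ev_quad, ev_c]; rfl
  have h1 : cx.m1.val (v 2) = ev v M1E := by
    simp only [hcx, mkCx, Qd.val, sev_eq v m10E (by decide), sev_eq v m11E (by decide),
      sev_eq v m12E (by decide), sev_eq v m13E (by decide), M1E, ev_quad]
  have h2 : cx.m2.val (v 2) = ev v M2E := by
    simp only [hcx, mkCx, Qd.val, sev_eq v m20E (by decide), sev_eq v m21E (by decide),
      sev_eq v m22E (by decide), sev_eq v m23E (by decide), M2E, ev_quad]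
  have h3 : cx.m3.val (v 2) = ev v M3E := by
    simp only [hcx, mkCx, Qd.val, sev_eq v (neg m10E) (by decide), sev_eq v m11E (by decide),
      sev_eq v (neg m12E) (by decide), sev_eq v m13E (by decide), M3E, ev_quad]
  have h4 : cx.m4.val (v 2) = ev v M4E := by
    simp only [hcx, mkCx, Qd.val, sev_eq v (neg m20E) (by decide), sev_eq v m21E (by decide),
      sev_eq v (neg m22E) (by decide), sev_eq v m23E (by decide), M4E, ev_quad]
  have hw : v 2 ^ 4 = cx.c2 * v 2 ^ 2 + cx.c0 := by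
    have := hc.hF
    simp only [FE, ev_hor, ev_c] at this
    simp only [hcx, mkCx, sev_eq v (neg k2E) (by decide), sev_eq v (neg k0E) (by decide), ev_neg]
    push_cast at this
    linear_combination this
  have henv : ∀ i, Sem (v 2) (cx.lI.val (v 2)) (cx.lJ.val (v 2)) (envR (ringOps L) cx i) (v i) := by
    intro i
    rcases i with _ | _ | _ | _ | _ | _ | _ | i
    · rfl
    · rfl
    · simp [envR, Sem, Qd.val, ringOps]
    · simp only [envR, Sem, hI, h1, ← hc.h1]; ring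
    · simp only [envR, Sem, hI, h2, ← hc.h2]; ring
    · simp only [envR, Sem, hJ, h3, ← hc.h3]; ring
    · simp only [envR, Sem, hJ, h4, ← hc.h4]; ring
    · simp only [envR, Sem, ringOps, Int.cast_zero]; exact hc.h7 i
  rw [← hI, ← hJ]
  induction e with
  | c n => rfl
  | x i => exact henv i
  | add a b ha hb => exact sem_radd hw ha hb
  | mul a b ha hb => exact sem_rmul hw ha hb
  | hor a i b ha hb => exact sem_radd hw ha (sem_rmul hw (henv i) hb)

end sem

/-! ### Norm and degree bounds -/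

/-- The sum of the absolute values of the coefficients is at most `n`. -/
def Bd (Q : ℤ[X]) (n : ℕ) : Prop :=
  ∃ P M : ℕ[X], Q = P.map (Nat.castRingHom ℤ) - M.map (Nat.castRingHom ℤ) ∧
    P.eval 1 + M.eval 1 ≤ n

theorem Bd.add {Q R : ℤ[X]} {m n : ℕ} (hQ : Bd Q m) (hR : Bd R n) : Bd (Q + R) (m + n) := by
  obtain ⟨P, M, rfl, h⟩ := hQ
  obtain ⟨P', M', rfl, h'⟩ := hR
  refine ⟨P + P', M + M', by simp only [Polynomial.map_add]; ring, ?_⟩
  simp only [eval_add]; omega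

theorem Bd.mul {Q R : ℤ[X]} {m n : ℕ} (hQ : Bd Q m) (hR : Bd R n) : Bd (Q * R) (m * n) := by
  obtain ⟨P, M, rfl, h⟩ := hQ
  obtain ⟨P', M', rfl, h'⟩ := hR
  refine ⟨P * P' + M * M', P * M' + M * P',
    by simp only [Polynomial.map_add, Polynomial.map_mul]; ring, ?_⟩
  simp only [eval_add, eval_mul]
  calc _ = (eval 1 P + eval 1 M) * (eval 1 P' + eval 1 M') := by ring
    _ ≤ m * n := Nat.mul_le_mul h h'

theorem Bd.cst (n : ℤ) : Bd (C n) n.natAbs := by
  refine ⟨C n.toNat, C (-n).toNat, ?_, ?_⟩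
  · rw [map_C, map_C, ← C_sub]; congr 1; simp only [eq_natCast]; omega
  · simp only [eval_C]; omega

theorem Bd.mono {Q : ℤ[X]} {m n : ℕ} (hQ : Bd Q m) (h : m ≤ n) : Bd Q n := by
  obtain ⟨P, M, e, h'⟩ := hQ
  exact ⟨P, M, e, h'.trans h⟩

theorem coeff_le_eval_one (P : ℕ[X]) (i : ℕ) : P.coeff i ≤ P.eval 1 := by
  rw [eval_eq_sum, Polynomial.sum]
  by_cases hi : i ∈ P.support
  · simpa using Finset.single_le_sum (f := fun j => P.coeff j * 1 ^ j) (fun _ _ => Nat.zero_le _) hi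
  · rw [notMem_support_iff.1 hi]; exact Nat.zero_le _

theorem Bd.coeff {Q : ℤ[X]} {n : ℕ} (hQ : Bd Q n) (i : ℕ) : (Q.coeff i).natAbs ≤ n := by
  obtain ⟨P, M, rfl, h⟩ := hQ
  have h1 := coeff_le_eval_one P i
  have h2 := coeff_le_eval_one M i
  simp only [coeff_sub, coeff_map, eq_natCast]
  omega

theorem eq_zero_of_eval_big {B : ℕ} : ∀ (d : ℕ) (Q : ℤ[X]), Q.natDegree ≤ d →
    (∀ i, (Q.coeff i).natAbs < B) → Q.eval (B : ℤ) = 0 → Q = 0 := by
  intro d
  induction d with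
  | zero =>
    intro Q hd _ h0
    rw [eq_C_of_natDegree_le_zero hd] at h0 ⊢
    rw [eval_C] at h0
    rw [h0, C_0]
  | succ d ih =>
    intro Q hd hB h0
    have e := (divX_mul_X_add Q).symm
    have h1 : Q.divX.eval (B : ℤ) * B + Q.coeff 0 = 0 := by
      rw [e] at h0; simpa using h0
    have hc : Q.coeff 0 = 0 := by
      have hdvd : (B : ℤ) ∣ Q.coeff 0 := ⟨-Q.divX.eval (B : ℤ), by linear_combination h1⟩
      exact Int.eq_zero_of_dvd_of_natAbs_lt_natAbs hdvd (by simpa using hB 0)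
    have hB0 : (B : ℤ) ≠ 0 := by have := hB 0; omega
    have h2 : Q.divX = 0 := by
      refine ih _ ?_ (fun i => by rw [coeff_divX]; exact hB _) ?_
      · rw [natDegree_divX_eq_natDegree_tsub_one]; omega
      · rw [hc, add_zero] at h1
        exact (mul_eq_zero.1 h1).resolve_right hB0
    rw [e, h2, hc]; simp

def intOps : Ops ℤ := ⟨Int.add, Int.mul, fun n => n⟩
def nrmOps : Ops ℕ := ⟨Nat.add, Nat.mul, Int.natAbs⟩
def dmul : ℕ → ℕ → ℕ
  | 0, _ => 0
  | _, 0 => 0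
  | a + 1, b + 1 => a + b + 1
def dmax (a b : ℕ) : ℕ := a + (b - a)
def dcst : ℤ → ℕ
  | .ofNat 0 => 0
  | _ => 1
def degOps : Ops ℕ := ⟨dmax, dmul, dcst⟩

theorem hom_nrm (D : ℕ) : Hom (ringOps ℤ[X][X]) nrmOps
    (fun P n => ∀ a : ℕ, a ≤ D → Bd (P.eval (C (a : ℤ))) n) where
  add := fun h h' a ha => by
    simp only [ringOps, eval_add]; exact (h a ha).add (h' a ha)
  mul := fun h h' a ha => by
    simp only [ringOps, eval_mul]; exact (h a ha).mul (h' a ha)
  cst := fun n a _ => by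
    simp only [ringOps, eval_intCast]; exact Bd.cst n

theorem hom_deg : Hom (ringOps ℤ[X][X]) degOps (fun P d => P = 0 ∨ P.natDegree < d) where
  add := by
    intro P d Q d' h h'
    simp only [ringOps, degOps, dmax]
    rcases h with rfl | h
    · rcases h' with rfl | h'
      · left; simp
      · right; rw [zero_add]; omega
    · rcases h' with rfl | h'
      · right; rw [add_zero]; omega
      · right; have := natDegree_add_le P Q; omega
  mul := by
    intro P d Q d' h h'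
    simp only [ringOps, degOps]
    rcases h with rfl | h
    · left; simp
    rcases h' with rfl | h'
    · left; simp
    right
    obtain ⟨d, rfl⟩ : ∃ k, d = k + 1 := ⟨d - 1, by omega⟩
    obtain ⟨d', rfl⟩ : ∃ k, d' = k + 1 := ⟨d' - 1, by omega⟩
    have := natDegree_mul_le (p := P) (q := Q)
    simp only [dmul]; omega
  cst := by
    intro n
    simp only [ringOps, degOps]
    by_cases hn : n = 0
    · left; simp [hn]
    · right
      have : dcst n = 1 := by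
        rcases n with (_ | n) | n
        · exact absurd rfl hn
        · rfl
        · rfl
      rw [this, natDegree_intCast]; exact Nat.one_pos

/-- The bounds: degree in `A` at most `D`, coefficient sums below `2 ^ k`. -/
def chkB (e : E) (D k : ℕ) : Bool :=
  RV.all (fun n => Nat.ble n (D + 1)) (rev degOps (mkCx degOps 2 1) e) &&
    RV.all (fun n => Nat.blt n (2 ^ k)) (rev nrmOps (mkCx nrmOps D 1) e)

/-- The values at `A = a`, `u = 2 ^ k`. -/
def chkV (e : E) (k a : ℕ) : Bool :=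
  RV.all (fun n => Nat.beq n.natAbs 0)
    (rev intOps (mkCx intOps (Int.ofNat a) (Int.ofNat (2 ^ k))) e)

/-- The values at `A = a, …, a + n - 1`. -/
def chkR (e : E) (k a : ℕ) : ℕ → Bool
  | 0 => true
  | n + 1 => chkV e k (a + n) && chkR e k a n

theorem chkR_spec {e : E} {k a n : ℕ} (h : chkR e k a n = true) (b : ℕ) (h1 : a ≤ b)
    (h2 : b < a + n) : chkV e k b = true := by
  induction n with
  | zero => omega
  | succ n ih =>
    simp only [chkR, Bool.and_eq_true] at h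
    by_cases hb : b = a + n
    · rw [hb]; exact h.1
    · exact ih h.2 (by omega)

theorem chkR_append {e : E} {k a m n : ℕ} (h1 : chkR e k a m = true)
    (h2 : chkR e k (a + m) n = true) : chkR e k a (m + n) = true := by
  induction n with
  | zero => exact h1
  | succ n ih =>
    simp only [chkR, Bool.and_eq_true] at h2
    rw [← Nat.add_assoc]
    simp only [chkR, Bool.and_eq_true]
    exact ⟨by rw [← Nat.add_assoc]; exact h2.1, ih h2.2⟩

/-- All entries satisfy a predicate. -/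
def RV.All {α : Type} (p : α → Prop) : RV α → Prop
  | .s x => p x
  | .v q _ _ => p q.p0 ∧ p q.p1 ∧ p q.p2 ∧ p q.p3

theorem all_of_rel {α β : Type} {ρ : α → β → Prop} {r : RV α} {r' : RV β} (h : RR ρ r r')
    {p : β → Bool} (hp : RV.all p r' = true) : RV.All (fun x => ∃ y, ρ x y ∧ p y = true) r := by
  cases r <;> cases r' <;> simp only [RR] at h
  · exact ⟨_, h, hp⟩
  · rename_i q _ _ q' _ _
    obtain ⟨a0, a1, a2, a3⟩ := q'
    simp only [RV.all, Bool.and_eq_true] at hp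
    obtain ⟨⟨h0, h1, h2, h3⟩, -⟩ := h
    exact ⟨⟨_, h0, hp.1.1.1⟩, ⟨_, h1, hp.1.1.2⟩, ⟨_, h2, hp.1.2⟩, ⟨_, h3, hp.2⟩⟩

theorem poly_eq_zero {D k : ℕ} {P : ℤ[X][X]}
    (h1 : ∃ d, (P = 0 ∨ P.natDegree < d) ∧ Nat.ble d (D + 1) = true)
    (h2 : ∃ n, (∀ a : ℕ, a ≤ D → Bd (P.eval (C (a : ℤ))) n) ∧ Nat.blt n (2 ^ k) = true)
    (h3 : ∀ a : ℕ, a ≤ D → ∃ y : ℤ, (P.eval (C (a : ℤ))).eval ((2 ^ k : ℕ) : ℤ) = y ∧
      Nat.beq y.natAbs 0 = true) : P = 0 := by
  obtain ⟨d, hd, hdD⟩ := h1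
  obtain ⟨n, hn, hnk⟩ := h2
  rcases hd with hd | hd
  · exact hd
  rw [Nat.ble_eq] at hdD
  rw [Nat.blt_eq] at hnk
  refine eq_zero_of_natDegree_lt_card_of_eval_eq_zero P (ι := Fin (D + 1))
    (f := fun i => C ((i : ℕ) : ℤ)) ?_ ?_ (by simp; omega)
  · intro i j hij
    have := C_injective hij
    exact Fin.ext (by exact_mod_cast this)
  · intro i
    have hi : (i : ℕ) ≤ D := by have := i.2; omega
    obtain ⟨y, hy, hy0⟩ := h3 i hi
    rw [Nat.beq_eq, Int.natAbs_eq_zero] at hy0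
    exact eq_zero_of_eval_big _ _ le_rfl (fun j => ((hn i hi).coeff j).trans_lt hnk)
      (hy.trans hy0)

/-- **Soundness of the test.** -/
theorem check_sound {L : Type} [Field L] {v : ℕ → L} (hc : Ctx v) (e : E) (D k : ℕ)
    (hB : chkB e D k = true) (hV : chkR e k 0 (D + 1) = true) : ev v e = 0 := by
  simp only [chkB, Bool.and_eq_true] at hB
  set r := rev (ringOps ℤ[X][X]) (mkCx (ringOps ℤ[X][X]) X (C X)) e with hr
  have h1 := all_of_rel (rel_rev hom_deg (rel_mkCx hom_deg (A := X) (u := C X) (A' := 2) (u' := 1)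
    (Or.inr (by simp)) (Or.inr (by simp))) e) hB.1
  have h2 := all_of_rel (rel_rev (hom_nrm D) (rel_mkCx (hom_nrm D) (A := X) (u := C X) (A' := D)
    (u' := 1) (fun a ha => by simpa using (Bd.cst (a : ℤ)).mono (by simpa using ha))
    (fun a _ => ⟨X, 0, by simp, by simp⟩)) e) hB.2
  have h3 : ∀ a : ℕ, a ≤ D → RV.All (fun P : ℤ[X][X] => ∃ y : ℤ,
      (P.eval (C (a : ℤ))).eval ((2 ^ k : ℕ) : ℤ) = y ∧ Nat.beq y.natAbs 0 = true) r := by
    intro a ha
    have hf := hom_graph ((evalRingHom ((2 ^ k : ℕ) : ℤ)).comp (evalRingHom (C (a : ℤ))))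
    exact all_of_rel (rel_rev hf (rel_mkCx hf (A := X) (u := C X) (A' := Int.ofNat a)
      (u' := Int.ofNat (2 ^ k)) (by simp) (by simp)) e) (chkR_spec hV a (Nat.zero_le _) (by omega))
  have hf := hom_graph (eval₂RingHom (eval₂RingHom (Int.castRingHom L) (v 1)) (v 0))
  have h4 := rel_rev hf (rel_mkCx hf (A := X) (u := C X) (A' := v 0) (u' := v 1) (by simp)
    (by simp)) e
  have h5 := sem_rev hc e
  rw [← hr] at h1 h2 h4
  clear_value r
  generalize rev (ringOps L) (mkCx (ringOps L) (v 0) (v 1)) e = r' at h4 h5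
  cases r <;> cases r' <;> simp only [RR] at h4
  · have := poly_eq_zero h1 h2 h3
    simp only [Sem] at h5
    rw [h5, ← h4, this, map_zero]
  · obtain ⟨⟨e0, e1, e2, e3⟩, -⟩ := h4
    have z0 := poly_eq_zero h1.1 h2.1 (fun a ha => (h3 a ha).1)
    have z1 := poly_eq_zero h1.2.1 h2.2.1 (fun a ha => (h3 a ha).2.1)
    have z2 := poly_eq_zero h1.2.2.1 h2.2.2.1 (fun a ha => (h3 a ha).2.2.1)
    have z3 := poly_eq_zero h1.2.2.2 h2.2.2.2 (fun a ha => (h3 a ha).2.2.2)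
    simp only [Sem, Qd.val, ← e0, ← e1, ← e2, ← e3, z0, z1, z2, z3, map_zero, mul_zero,
      add_zero] at h5
    rcases mul_eq_zero.1 h5 with h | h
    · rcases mul_eq_zero.1 h with h | h
      · exact h
      · exact absurd h (pow_ne_zero _ hc.hI)
    · exact absurd h (pow_ne_zero _ hc.hJ)

end Crest.Agent.R278
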