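import Crest.Agent.R278.Defs

/-!
# Construction of the function field, its derivations and a place
-/

set_option autoImplicit false

namespace Crest.Agent.R278

open Algebra MvPolynomial

theorem fld_range_pair {L : Type} (x t : L) : Set.range ![x, t] = ({x, t} : Set L) := by
  ext z; simp [Matrix.range_cons, Matrix.range_empty, or_comm]

/-- If the generators `S` are algebraic over `A` and `L = Frac ℂ[S]`, then `L` is algebraic
over `A`. -/
theorem fld_isAlgebraic_of_isFrac {L : Type} [Field L] [Algebra ℂ L] {S : Set L} (hS : IsFrac S)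
    (A : Subalgebra ℂ L) (h : ∀ s ∈ S, IsAlgebraic A s) (z : L) : IsAlgebraic A z := by
  have hadj : ∀ p ∈ adjoin ℂ S, IsAlgebraic A p := by
    intro p hp
    induction hp using Algebra.adjoin_induction with
    | mem x hx => exact h x hx
    | algebraMap c => exact isAlgebraic_algebraMap (⟨algebraMap ℂ L c, A.algebraMap_mem c⟩ : A)
    | add x y _ _ hx hy => exact hx.add hy
    | mul x y _ _ hx hy => exact hx.mul hy
  obtain ⟨p, hp, q, hq, hq0, hz⟩ := hS z
  have : z = p * q⁻¹ := by rw [← hz]; field_simp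
  rw [this]
  exact (hadj p hp).mul (hadj q hq).inv

/-- A prime factor of `P` through `pt`. -/
theorem fld_exists_prime_factor {n : ℕ} (P : MvPolynomial (Fin n) ℂ) (hP : P ≠ 0) (pt : Fin n → ℂ)
    (h0 : eval pt P = 0) : ∃ P₁ : MvPolynomial (Fin n) ℂ, Prime P₁ ∧ P₁ ∣ P ∧ eval pt P₁ = 0 := by
  obtain ⟨f, hf, u, hu⟩ := UniqueFactorizationMonoid.exists_prime_factors P hP
  have hprime : (RingHom.ker (eval pt : MvPolynomial (Fin n) ℂ →+* ℂ)).IsPrime :=
    RingHom.ker_isPrime _
  have hmem : f.prod ∈ RingHom.ker (eval pt : MvPolynomial (Fin n) ℂ →+* ℂ) := by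
    rw [RingHom.mem_ker]
    rw [← hu, map_mul] at h0
    exact (mul_eq_zero.1 h0).resolve_right (u.isUnit.map (eval pt)).ne_zero
  obtain ⟨P₁, hP₁, hP₁'⟩ := (hprime.multiset_prod_mem_iff_exists_mem f).1 hmem
  exact ⟨P₁, hf _ hP₁, (Multiset.dvd_prod hP₁).trans ⟨u, hu.symm⟩, hP₁'⟩

/-- The function field of the branch of the surface `P = 0` through a point `pt` at which
`∂P/∂X₂ ≠ 0`.

Proof.  Factor `P` into primes in the UFD `MvPolynomial (Fin 3) ℂ` (`P ≠ 0`, and `P` is not a unit
since `P(pt) = 0`); some prime factor `P₁` has `P₁(pt) = 0`; write `P = P₁ * G`.  Let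
`K = FractionRing (MvPolynomial (Fin 3) ℂ ⧸ span {P₁})`, `ξ i` the class of `X i`.  If
`aeval ξ G' = 0` then `P₁ ∣ G'`, so `G'(pt) = 0`.  From `∂₂P(pt) = ∂₂P₁(pt) G(pt) ≠ 0` we get
`∂₂ P₁ ≠ 0`, so `P₁` has positive degree in `X₂` and divides no nonzero polynomial in `X₀, X₁`
(`degreeOf` is additive on products in a domain): `ξ 0, ξ 1` are algebraically independent.
`ξ 2` is a root of the nonzero polynomial `P₁(ξ 0, ξ 1, ·)`, so `K` is algebraic over
`ℂ[ξ 0, ξ 1]`. -/
theorem exists_field (P : MvPolynomial (Fin 3) ℂ) (pt : Fin 3 → ℂ) (h0 : eval pt P = 0)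
    (h1 : eval pt (pderiv 2 P) ≠ 0) :
    ∃ (K : Type) (_ : Field K) (_ : Algebra ℂ K) (ξ : Fin 3 → K),
      aeval ξ P = 0 ∧ Tr2 (ξ 0) (ξ 1) ∧ IsFrac (Set.range ξ) ∧
      ∀ G : MvPolynomial (Fin 3) ℂ, aeval ξ G = 0 → eval pt G = 0 := by
  have hP : P ≠ 0 := by
    rintro rfl
    simp at h1
  obtain ⟨P₁, hprime, ⟨G, hG⟩, hP₁⟩ := fld_exists_prime_factor P hP pt h0
  have hd : pderiv 2 P₁ ≠ 0 := by
    intro h
    apply h1
    rw [hG, Derivation.leibniz, h]
    simp [hP₁]
  have hdeg : degreeOf 2 P₁ ≠ 0 := by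
    intro h
    apply hd
    apply pderiv_eq_zero_of_notMem_vars
    rw [mem_vars_iff_degreeOf_ne_zero]
    exact fun h' => h' h
  let I : Ideal (MvPolynomial (Fin 3) ℂ) := Ideal.span {P₁}
  have hI : I.IsPrime := (Ideal.span_singleton_prime hprime.ne_zero).2 hprime
  let B := MvPolynomial (Fin 3) ℂ ⧸ I
  let K := FractionRing B
  let φ : MvPolynomial (Fin 3) ℂ →ₐ[ℂ] K := (IsScalarTower.toAlgHom ℂ B K).comp (Ideal.Quotient.mkₐ ℂ I)
  let ξ : Fin 3 → K := fun i => φ (X i)
  have hφ : ∀ Q, aeval ξ Q = φ Q := by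
    intro Q
    have : (aeval ξ : MvPolynomial (Fin 3) ℂ →ₐ[ℂ] K) = φ := by
      apply MvPolynomial.algHom_ext
      intro i
      simp [ξ]
    rw [this]
  have hφ' : ∀ Q, φ Q = algebraMap B K (Ideal.Quotient.mk I Q) := fun Q => rfl
  have hker : ∀ Q, aeval ξ Q = 0 ↔ P₁ ∣ Q := by
    intro Q
    rw [hφ, hφ', ← Ideal.mem_span_singleton, ← Ideal.Quotient.eq_zero_iff_mem]
    exact map_eq_zero_iff _ (IsFractionRing.injective B K)
  have hfrac : IsFrac (Set.range ξ) := by
    intro z
    obtain ⟨a, b, hb, rfl⟩ := IsFractionRing.div_surjective (A := B) z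
    obtain ⟨a, rfl⟩ := Ideal.Quotient.mk_surjective a
    obtain ⟨b, rfl⟩ := Ideal.Quotient.mk_surjective b
    have hb0 : algebraMap B K (Ideal.Quotient.mk I b) ≠ 0 :=
      IsFractionRing.to_map_ne_zero_of_mem_nonZeroDivisors hb
    rw [Algebra.adjoin_range_eq_range_aeval]
    refine ⟨_, ⟨a, rfl⟩, _, ⟨b, rfl⟩, ?_, ?_⟩
    · change aeval ξ b ≠ 0
      rw [hφ, hφ']
      exact hb0
    · change aeval ξ b * _ = aeval ξ a
      rw [hφ, hφ, hφ', hφ']
      exact mul_div_cancel₀ _ hb0
  have hind : AlgebraicIndependent ℂ ![ξ 0, ξ 1] := by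
    rw [algebraicIndependent_iff]
    intro Q hQ
    have e : (![ξ 0, ξ 1] : Fin 2 → K) = ξ ∘ Fin.castSucc := by
      funext i; fin_cases i <;> rfl
    rw [e, ← aeval_rename, hker] at hQ
    obtain ⟨H, hH⟩ := hQ
    by_contra hQ0
    have hr : rename (Fin.castSucc : Fin 2 → Fin 3) Q ≠ 0 := fun h =>
      hQ0 (rename_injective _ (Fin.castSucc_injective 2) (by rw [h, map_zero]))
    have hH0 : H ≠ 0 := by
      rintro rfl
      exact hr (by rw [hH, mul_zero])
    have h2 : degreeOf 2 (rename (Fin.castSucc : Fin 2 → Fin 3) Q) = 0 := by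
      by_contra h
      rw [← Ne, ← mem_vars_iff_degreeOf_ne_zero] at h
      obtain ⟨i, -, hi⟩ := mem_vars_rename _ _ h
      fin_cases i <;> simp at hi
    rw [hH, degreeOf_mul_eq hprime.ne_zero hH0] at h2
    omega
  refine ⟨K, inferInstance, inferInstance, ξ, ?_, ⟨hind, ?_⟩, hfrac, ?_⟩
  · rw [hker]; exact ⟨G, hG⟩
  · refine fld_isAlgebraic_of_isFrac hfrac _ ?_
    rintro _ ⟨i, rfl⟩
    fin_cases i
    · exact isAlgebraic_algebraMap
        (⟨ξ 0, subset_adjoin (by simp)⟩ : adjoin ℂ ({ξ 0, ξ 1} : Set K))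
    · exact isAlgebraic_algebraMap
        (⟨ξ 1, subset_adjoin (by simp)⟩ : adjoin ℂ ({ξ 0, ξ 1} : Set K))
    · by_contra htr
      rw [← fld_range_pair] at htr
      have h3 := (hind.option_iff_transcendental (ξ 2)).2 htr
      have h4 : AlgebraicIndependent ℂ ξ := by
        have := h3.comp (![some 0, some 1, none] : Fin 3 → Option (Fin 2)) (by decide)
        convert this using 1
        funext i; fin_cases i <;> rfl
      rw [algebraicIndependent_iff] at h4
      exact hprime.ne_zero (h4 P₁ ((hker _).2 dvd_rfl))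
  · intro Q hQ
    obtain ⟨H, rfl⟩ := (hker Q).1 hQ
    rw [map_mul, hP₁, zero_mul]

/-- Adjoining an `n`-th root (`L = AdjoinRoot (X ^ n - C γ).factor`): the transcendence basis
survives and `L` is the fraction field of `ℂ[S, s]`. -/
theorem exists_root {K : Type} [Field K] [Algebra ℂ K] (γ : K) (n : ℕ) (hn : 0 < n)
    (S : Set K) (hfrac : IsFrac S) {x t : K} (h2 : Tr2 x t) :
    ∃ (L : Type) (_ : Field L) (_ : Algebra ℂ L) (ι : K →ₐ[ℂ] L) (s : L),
      s ^ n = ι γ ∧ Tr2 (ι x) (ι t) ∧ IsFrac (insert s (ι '' S)) := by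
  let f : Polynomial K := Polynomial.X ^ n - Polynomial.C γ
  have : Fact (Irreducible f.factor) := Polynomial.fact_irreducible_factor f
  let L := AdjoinRoot f.factor
  let ι : K →ₐ[ℂ] L := IsScalarTower.toAlgHom ℂ K L
  have hι : ∀ z, ι z = algebraMap K L z := fun z => rfl
  have hinj : Function.Injective ι := ι.toRingHom.injective
  have hroot : (AdjoinRoot.root f.factor : L) ^ n = ι γ := by
    obtain ⟨g, hg⟩ := Polynomial.factor_dvd_of_natDegree_ne_zero (f := f)
      (by rw [Polynomial.natDegree_X_pow_sub_C]; exact hn.ne')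
    have h : Polynomial.aeval (AdjoinRoot.root f.factor : L) f = 0 := by
      have h := congrArg (Polynomial.aeval (AdjoinRoot.root f.factor : L)) hg
      rw [h, map_mul, AdjoinRoot.aeval_eq, AdjoinRoot.mk_self, zero_mul]
    simp only [f, map_sub, map_pow, Polynomial.aeval_X, Polynomial.aeval_C] at h
    exact sub_eq_zero.1 h
  refine ⟨L, inferInstance, inferInstance, ι, AdjoinRoot.root f.factor, hroot, ⟨?_, ?_⟩, ?_⟩
  · have := h2.1.map' hinj
    have e : (![ι x, ι t] : Fin 2 → L) = ι ∘ ![x, t] := by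
      funext i; fin_cases i <;> rfl
    rw [e]
    exact this
  · intro z
    have hfin : FiniteDimensional K L :=
      (AdjoinRoot.powerBasis (Polynomial.irreducible_factor f).ne_zero).finite
    have hz : IsAlgebraic K z := Algebra.IsAlgebraic.isAlgebraic z
    have : Algebra.IsAlgebraic (adjoin ℂ ({x, t} : Set K)) K := ⟨h2.2⟩
    have hz' : IsAlgebraic (adjoin ℂ ({x, t} : Set K)) z := hz.restrictScalars _
    have hmap : ∀ w ∈ adjoin ℂ ({x, t} : Set K), ι w ∈ adjoin ℂ ({ι x, ι t} : Set L) := by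
      intro w hw
      have : (adjoin ℂ ({x, t} : Set K)).map ι = adjoin ℂ ({ι x, ι t} : Set L) := by
        rw [AlgHom.map_adjoin, Set.image_pair]
      rw [← this]
      exact ⟨w, hw, rfl⟩
    let e : adjoin ℂ ({x, t} : Set K) →+* adjoin ℂ ({ι x, ι t} : Set L) :=
      (ι.toRingHom.comp (adjoin ℂ ({x, t} : Set K)).val.toRingHom).codRestrict
        (adjoin ℂ ({ι x, ι t} : Set L)) fun w => hmap w w.2
    refine hz'.ringHom_of_comp_eq e (RingHom.id L) ?_ ?_
    · intro a b hab
      exact Subtype.ext (hinj (congrArg Subtype.val hab))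
    · ext w
      rfl
  · set A := adjoin ℂ (insert (AdjoinRoot.root f.factor : L) (ι '' S)) with hA
    have hmap : ∀ w ∈ adjoin ℂ S, ι w ∈ A := by
      intro w hw
      have h1 : ι w ∈ (adjoin ℂ S).map ι := ⟨w, hw, rfl⟩
      rw [AlgHom.map_adjoin] at h1
      exact adjoin_mono (Set.subset_insert _ _) h1
    have hs : (AdjoinRoot.root f.factor : L) ∈ A := subset_adjoin (Set.mem_insert _ _)
    intro z
    induction z using AdjoinRoot.induction_on with
    | ih p =>
      induction p using Polynomial.induction_on' with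
      | add p q hp hq =>
        obtain ⟨a, ha, b, hb, hb0, hab⟩ := hp
        obtain ⟨c, hc, d, hd, hd0, hcd⟩ := hq
        refine ⟨a * d + c * b, add_mem (mul_mem ha hd) (mul_mem hc hb), b * d, mul_mem hb hd,
          mul_ne_zero hb0 hd0, ?_⟩
        rw [← hab, ← hcd, map_add]; ring
      | monomial k c =>
        obtain ⟨a, ha, b, hb, hb0, hab⟩ := hfrac c
        refine ⟨ι a * AdjoinRoot.root f.factor ^ k, mul_mem (hmap a ha) (pow_mem hs k), ι b,
          hmap b hb, fun h => hb0 (hinj (by rw [h, map_zero])), ?_⟩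
        rw [← hab, map_mul, ← Polynomial.C_mul_X_pow_eq_monomial, map_mul, map_pow,
          AdjoinRoot.mk_X, AdjoinRoot.mk_C, mul_assoc]
        rfl

variable {L : Type} [Field L] [Algebra ℂ L]

/-- `L` is formally étale over `ℂ[X₀, X₁]`. -/
theorem fld_formallyEtale_of_tr2 {x t : L} (h2 : Tr2 x t) :
    letI : Algebra (MvPolynomial (Fin 2) ℂ) L := (aeval (R := ℂ) ![x, t]).toRingHom.toAlgebra
    Algebra.FormallyEtale (MvPolynomial (Fin 2) ℂ) L := by
  let _ : Algebra (MvPolynomial (Fin 2) ℂ) L := (aeval (R := ℂ) ![x, t]).toRingHom.toAlgebra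
  have hinj : Function.Injective (algebraMap (MvPolynomial (Fin 2) ℂ) L) := h2.1
  have : FaithfulSMul (MvPolynomial (Fin 2) ℂ) L :=
    (faithfulSMul_iff_algebraMap_injective _ _).2 hinj
  have halg : Algebra.IsAlgebraic (MvPolynomial (Fin 2) ℂ) L := by
    refine ⟨fun z => ?_⟩
    have hz := h2.2 z
    rw [← fld_range_pair] at hz
    let e := h2.1.aevalEquiv
    refine hz.ringHom_of_comp_eq e.symm (RingHom.id L) e.symm.injective ?_
    ext w
    obtain ⟨p, rfl⟩ := e.surjective w
    change algebraMap (MvPolynomial (Fin 2) ℂ) L (e.symm (e p)) = _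
    rw [e.symm_apply_apply]
    exact (h2.1.algebraMap_aevalEquiv p).symm
  let _ : Algebra (FractionRing (MvPolynomial (Fin 2) ℂ)) L := FractionRing.liftAlgebra _ _
  have : IsScalarTower (MvPolynomial (Fin 2) ℂ) (FractionRing (MvPolynomial (Fin 2) ℂ)) L :=
    FractionRing.isScalarTower_liftAlgebra _ _
  have : Algebra.IsAlgebraic (FractionRing (MvPolynomial (Fin 2) ℂ)) L :=
    IsFractionRing.comap_isAlgebraic_iff.1 halg
  have : Algebra.FormallyEtale (MvPolynomial (Fin 2) ℂ) (FractionRing (MvPolynomial (Fin 2) ℂ)) :=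
    Algebra.FormallyEtale.of_isLocalization (nonZeroDivisors _)
  have : Algebra.FormallyEtale (FractionRing (MvPolynomial (Fin 2) ℂ)) L :=
    Algebra.FormallyEtale.of_isSeparable _ _
  exact Algebra.FormallyEtale.comp _ (FractionRing (MvPolynomial (Fin 2) ℂ)) _

/-- Derivations with prescribed values on a transcendence basis: `ℂ[X₀, X₁] → L` is formally étale
(a localisation followed by a separable algebraic extension), so `MvPolynomial.mkDerivation`
extends (e.g. through `KaehlerDifferential.isBaseChange_of_formallyEtale` /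
`KaehlerDifferential.tensorKaehlerEquivOfFormallyEtale`). -/
theorem exists_derivation {x t : L} (h2 : Tr2 x t) (a b : L) :
    ∃ D : Derivation ℂ L L, D x = a ∧ D t = b := by
  let _ : Algebra (MvPolynomial (Fin 2) ℂ) L := (aeval (R := ℂ) ![x, t]).toRingHom.toAlgebra
  have : IsScalarTower ℂ (MvPolynomial (Fin 2) ℂ) L :=
    IsScalarTower.of_algebraMap_eq fun c => ((aeval (R := ℂ) ![x, t]).commutes c).symm
  have := fld_formallyEtale_of_tr2 h2
  have hb := KaehlerDifferential.isBaseChange_of_formallyEtale ℂ (MvPolynomial (Fin 2) ℂ) L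
  let D₀ : Derivation ℂ (MvPolynomial (Fin 2) ℂ) L := MvPolynomial.mkDerivation ℂ ![a, b]
  let φ : Ω[L⁄ℂ] →ₗ[L] L := hb.lift D₀.liftKaehlerDifferential
  have key : ∀ r : MvPolynomial (Fin 2) ℂ,
      φ (KaehlerDifferential.D ℂ L (algebraMap _ L r)) = D₀ r := by
    intro r
    rw [← KaehlerDifferential.map_D ℂ ℂ (MvPolynomial (Fin 2) ℂ) L r]
    simp only [φ]
    rw [hb.lift_eq]
    simp
  refine ⟨φ.compDer (KaehlerDifferential.D ℂ L), ?_, ?_⟩
  · have := key (X 0)
    have e : algebraMap (MvPolynomial (Fin 2) ℂ) L (X 0) = x := by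
      change aeval ![x, t] (X 0) = x
      simp
    rw [e] at this
    simpa [D₀] using this
  · have := key (X 1)
    have e : algebraMap (MvPolynomial (Fin 2) ℂ) L (X 1) = t := by
      change aeval ![x, t] (X 1) = t
      simp
    rw [e] at this
    simpa [D₀] using this

/-- A derivation killing a transcendence basis vanishes (differentiate an algebraic equation of
minimal degree; characteristic zero). -/
theorem derivation_eq_zero {x t : L} (h2 : Tr2 x t) (D : Derivation ℂ L L) (hx : D x = 0)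
    (ht : D t = 0) : D = 0 := by
  let _ : Algebra (MvPolynomial (Fin 2) ℂ) L := (aeval (R := ℂ) ![x, t]).toRingHom.toAlgebra
  have : IsScalarTower ℂ (MvPolynomial (Fin 2) ℂ) L :=
    IsScalarTower.of_algebraMap_eq fun c => ((aeval (R := ℂ) ![x, t]).commutes c).symm
  have := fld_formallyEtale_of_tr2 h2
  have hb := KaehlerDifferential.isBaseChange_of_formallyEtale ℂ (MvPolynomial (Fin 2) ℂ) L
  have h0 : ∀ i : Fin 2, D (algebraMap (MvPolynomial (Fin 2) ℂ) L (X i)) = 0 := by
    intro i
    have e : algebraMap (MvPolynomial (Fin 2) ℂ) L (X i) = ![x, t] i := by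
      change aeval ![x, t] (X i) = _
      simp
    rw [e]
    fin_cases i
    · exact hx
    · exact ht
  have h1 : D.liftKaehlerDifferential = 0 := by
    apply hb.algHom_ext
    intro w
    have : (D.liftKaehlerDifferential.restrictScalars (MvPolynomial (Fin 2) ℂ)).comp
        (KaehlerDifferential.map ℂ ℂ (MvPolynomial (Fin 2) ℂ) L) = 0 := by
      apply Derivation.liftKaehlerDifferential_unique
      ext r
      simpa [KaehlerDifferential.map_D] using h0 r
    simpa using LinearMap.congr_fun this w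
  ext z
  rw [← D.liftKaehlerDifferential_comp_D, h1]
  simp

/-- A place of `L` centred at the point `pt`
(`Ideal.image_subset_nonunits_valuationSubring` applied to the image in `ℂ[ξ]` of the maximal
ideal of `pt`, which is proper by `hker`). -/
theorem exists_place {n : ℕ} (ξ : Fin n → L) (pt : Fin n → ℂ)
    (hker : ∀ G : MvPolynomial (Fin n) ℂ, aeval ξ G = 0 → eval pt G = 0) :
    ∃ V : ValuationSubring L, Over (Set.range ξ) V ∧
      ∀ i, V.valuation (ξ i - algebraMap ℂ L (pt i)) < 1 := by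
  let f : MvPolynomial (Fin n) ℂ →+* L := (aeval (R := ℂ) ξ).toRingHom
  let I : Ideal f.range := (RingHom.ker (eval pt)).map f.rangeRestrict
  have hI : I ≠ ⊤ := by
    intro h
    have h1 : (1 : f.range) ∈ I := h ▸ Submodule.mem_top
    obtain ⟨G, hG, hG1⟩ := (Ideal.mem_map_iff_of_surjective _ f.rangeRestrict_surjective).1 h1
    have h2 : aeval ξ (G - 1) = 0 := by
      have : f G = 1 := congrArg Subtype.val hG1
      change f (G - 1) = 0
      rw [map_sub, this, map_one, sub_self]
    have h3 := hker _ h2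
    rw [map_sub, map_one, (RingHom.mem_ker).1 hG] at h3
    simp at h3
  obtain ⟨V, hV1, hV2⟩ := Ideal.image_subset_nonunits_valuationSubring I hI
  refine ⟨V, fun z hz => ?_, fun i => ?_⟩
  · rw [Algebra.adjoin_range_eq_range_aeval] at hz
    obtain ⟨G, rfl⟩ := hz
    exact hV1 ⟨G, rfl⟩
  · rw [← ValuationSubring.mem_nonunits_iff]
    apply hV2
    refine ⟨f.rangeRestrict (X i - C (pt i)), Ideal.mem_map_of_mem _ ?_, ?_⟩
    · simp [RingHom.mem_ker]
    · change aeval ξ (X i - C (pt i)) = _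
      simp

end Crest.Agent.R278
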