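import Crest.Agent.R278.Defs

/-!
# Noether normalisation, algebraic Hartogs lemma, finiteness and dimension of `nA S`

Common first step (`noether`): `ℂ[S]` is finite over a polynomial ring `B = ℂ[y₀, y₁]` (Noether
normalisation `exists_finite_inj_algHom_of_fg`; the number of variables is `2` because both
`y` and `![x, t]` are transcendence bases of `L`).
-/

set_option autoImplicit false

namespace Crest.Agent.R278

open Algebra

variable {L : Type} [Field L] [Algebra ℂ L]

namespace Hartogs

/-- Krull dimension is preserved by injective integral extensions. -/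
theorem dim_integral (R T : Type*) [CommRing R] [CommRing T] [Algebra R T] [Algebra.IsIntegral R T]
    [FaithfulSMul R T] : ringKrullDim T = ringKrullDim R := by
  refine le_antisymm ?_ ?_
  · refine Order.krullDim_le_of_strictMono (PrimeSpectrum.comap (algebraMap R T)) ?_
    intro I J hIJ
    exact Ideal.IsIntegral.comap_lt_comap (R := R) (I := I.asIdeal) (J := J.asIdeal) hIJ
  · refine iSup_le fun l => ?_
    obtain ⟨P, hP, hl⟩ := (inferInstance : Nonempty (Ideal.primesOver l.head.asIdeal T))
    obtain ⟨L', hL, -, -⟩ := Ideal.exists_ltSeries_of_hasGoingUp l P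
    rw [← hL]
    exact Order.LTSeries.length_le_krullDim L'

/-- A fraction which has a denominator prime to each irreducible element is an integer. -/
theorem isInteger_of_forall {B K : Type*} [CommRing B] [IsDomain B] [UniqueFactorizationMonoid B]
    [Field K] [Algebra B K] [IsFractionRing B K] (c : K)
    (h : ∀ π : B, Prime π → ∃ a s : B, ¬ π ∣ s ∧ c = algebraMap B K a * (algebraMap B K s)⁻¹) :
    ∃ b : B, algebraMap B K b = c := by
  refine IsFractionRing.isInteger_of_isUnit_den (A := B) ?_
  by_contra hu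
  have hd0 : (IsFractionRing.den B c : B) ≠ 0 := nonZeroDivisors.coe_ne_zero _
  obtain ⟨π, hπ, hd⟩ := WfDvdMonoid.exists_irreducible_factor hu hd0
  have hp : Prime π := UniqueFactorizationMonoid.irreducible_iff_prime.1 hπ
  obtain ⟨a, s, hs, hc⟩ := h π hp
  have hs0 : algebraMap B K s ≠ 0 := by
    rw [map_ne_zero_iff _ (IsFractionRing.injective B K)]
    rintro rfl
    exact hs (dvd_zero _)
  have hd1 : algebraMap B K (IsFractionRing.den B c : B) ≠ 0 := by
    rwa [map_ne_zero_iff _ (IsFractionRing.injective B K)]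
  have h1 := IsFractionRing.mk'_num_den' B c
  have h2 : IsFractionRing.num B c * s = a * (IsFractionRing.den B c : B) := by
    apply IsFractionRing.injective B K
    rw [map_mul, map_mul]
    rw [div_eq_iff hd1] at h1
    rw [h1]
    nth_rewrite 1 [hc]
    field_simp
  have h3 : π ∣ IsFractionRing.num B c * s := h2 ▸ hd.mul_left a
  exact hπ.not_isUnit (IsFractionRing.num_den_reduced B c ((hp.dvd_or_dvd h3).resolve_right hs) hd)

/-- The abstract Hartogs lemma over a factorial domain. -/
theorem abs_hartogs {B K : Type*} [CommRing B] [IsDomain B] [UniqueFactorizationMonoid B]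
    [Field K] [Algebra B K] [IsFractionRing B K] {L : Type*} [Field L] [Algebra B L] [Algebra K L]
    [IsScalarTower B K L] (φ : L) (halg : IsIntegral K φ)
    (h : ∀ π : B, Prime π → ∀ W : ValuationSubring L, (∀ b : B, algebraMap B L b ∈ W) →
      (∀ b : B, ¬ π ∣ b → (algebraMap B L b)⁻¹ ∈ W) → φ ∈ W) : IsIntegral B φ := by
  have hco : ∀ n, ∃ b : B, algebraMap B K b = (minpoly K φ).coeff n := by
    intro n
    refine isInteger_of_forall _ fun π hπ => ?_
    have hP : (Ideal.span {π}).IsPrime := (Ideal.span_singleton_prime hπ.ne_zero).2 hπ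
    let R := Localization.subalgebra.ofField K (Ideal.span {π}).primeCompl
      (Ideal.primeCompl_le_nonZeroDivisors _)
    have hR : IsIntegrallyClosed R := isIntegrallyClosed_of_isLocalization R
      (Ideal.span {π}).primeCompl (Ideal.primeCompl_le_nonZeroDivisors _)
    have hmem : ∀ x : R, ∃ a s : B, ¬ π ∣ s ∧
        (x : K) = algebraMap B K a * (algebraMap B K s)⁻¹ := by
      intro x
      obtain ⟨a, s, hs, hx⟩ := x.2
      exact ⟨a, s, fun hd => hs (Ideal.mem_span_singleton.2 hd), hx⟩
    have h1 : φ ∈ (integralClosure (Subring.closure (Set.range (algebraMap R L))) L).toSubring := by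
      rw [← iInf_valuationSubring_superset, Subring.mem_iInf]
      rintro ⟨W, hW⟩
      refine h π hπ W (fun b => hW ⟨algebraMap B R b, ?_⟩) fun b hb => ?_
      · exact (IsScalarTower.algebraMap_apply B R L b).symm
      · refine hW ⟨⟨(algebraMap B K b)⁻¹, 1, b, fun hd => hb (Ideal.mem_span_singleton.1 hd),
          by simp⟩, ?_⟩
        change algebraMap K L (algebraMap B K b)⁻¹ = _
        rw [map_inv₀, ← IsScalarTower.algebraMap_apply]
    have h2 : IsIntegral R φ := by
      have e : Subring.closure (Set.range (algebraMap R L)) = (algebraMap R L).range := by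
        rw [← RingHom.coe_range, Subring.closure_eq]
      have h3 : IsIntegral (algebraMap R L).range φ := by
        rw [← e]; exact h1
      let : Algebra R (algebraMap R L).range := (algebraMap R L).rangeRestrict.toAlgebra
      have : IsScalarTower R (algebraMap R L).range L := IsScalarTower.of_algebraMap_eq fun _ => rfl
      have : Algebra.IsIntegral R (algebraMap R L).range :=
        Algebra.isIntegral_of_surjective (algebraMap R L).rangeRestrict_surjective
      exact isIntegral_trans φ h3
    rw [minpoly.isIntegrallyClosed_eq_field_fractions' K h2, Polynomial.coeff_map]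
    exact hmem _
  obtain ⟨q, hq, -, hm⟩ := Polynomial.lifts_and_degree_eq_and_monic
    ((Polynomial.lifts_iff_coeff_lifts (f := algebraMap B K) _).2 hco) (minpoly.monic halg)
  refine ⟨q, hm, ?_⟩
  rw [← Polynomial.aeval_def, ← Polynomial.aeval_map_algebraMap K, hq, minpoly.aeval]

theorem not_dvd_both {π : MvPolynomial (Fin 2) ℂ} (hπ : ¬ IsUnit π) (c d : ℂ)
    (h0 : π ∣ MvPolynomial.X 0 - MvPolynomial.C c) (h1 : π ∣ MvPolynomial.X 1 - MvPolynomial.C d) :
    False := by
  have key : ∀ (i j : Fin 2) (c : ℂ), i ≠ j → π ∣ MvPolynomial.X j - MvPolynomial.C c →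
      π ≠ 0 ∧ π.degreeOf i = 0 := by
    intro i j c hij hd
    obtain ⟨a, ha⟩ := hd
    have hne : (MvPolynomial.X j - MvPolynomial.C c : MvPolynomial (Fin 2) ℂ) ≠ 0 := by
      intro h
      have := congrArg (MvPolynomial.eval fun _ => c + 1) h
      simp at this
    rw [ha] at hne
    have h2 := MvPolynomial.degreeOf_mul_eq (n := i) (left_ne_zero_of_mul hne)
      (right_ne_zero_of_mul hne)
    have h3 := MvPolynomial.degreeOf_sub_le i (MvPolynomial.X j : MvPolynomial (Fin 2) ℂ)
      (MvPolynomial.C c)
    rw [MvPolynomial.degreeOf_X_of_ne hij, MvPolynomial.degreeOf_C, ha] at h3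
    exact ⟨left_ne_zero_of_mul hne, by omega⟩
  obtain ⟨hz, e1⟩ := key 1 0 c (by decide) h0
  obtain ⟨-, e0⟩ := key 0 1 d (by decide) h1
  have hv : π.vars = ∅ := by
    rw [Finset.eq_empty_iff_forall_notMem]
    intro i hi
    rw [MvPolynomial.mem_vars_iff_degreeOf_ne_zero] at hi
    fin_cases i
    · exact hi e0
    · exact hi e1
  rw [MvPolynomial.vars_eq_empty_iff_eq_C] at hv
  apply hπ
  rw [hv] at hz ⊢
  exact (IsUnit.mk0 _ fun h => hz (by rw [h, map_zero])).map MvPolynomial.C

theorem isAlgebraic_of_isFrac {S : Set L} (hfrac : IsFrac S) (B : Subalgebra ℂ L)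
    (h : ∀ z ∈ adjoin ℂ S, IsIntegral B z) (z : L) : IsAlgebraic B z := by
  obtain ⟨p, hp, q, hq, hq0, e⟩ := hfrac z
  have : z = p * q⁻¹ := by rw [← e]; field_simp
  rw [this]
  exact (h p hp).isAlgebraic.mul (h q hq).isAlgebraic.inv

theorem mem_of_isIntegral (W : ValuationSubring L) (B : Subalgebra ℂ L) (hB : ∀ b ∈ B, b ∈ W)
    {z : L} (hz : IsIntegral B z) : z ∈ W := by
  let f : B →+* W :=
    { toFun := fun b => ⟨b.1, hB _ b.2⟩
      map_one' := rfl
      map_mul' := fun _ _ => rfl
      map_zero' := rfl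
      map_add' := fun _ _ => rfl }
  have h1 : IsIntegral W z := hz.map_of_comp_eq f (RingHom.id L) rfl
  obtain ⟨w, rfl⟩ := (IsIntegrallyClosedIn.isIntegral_iff (R := W) (A := L)).1 h1
  exact w.2

theorem const_mod {S : Set L} {W : ValuationSubring L} (hW : Over S W) (hp : IsPt S W) :
    ∀ z ∈ adjoin ℂ S, ∃ c : ℂ, W.valuation (z - algebraMap ℂ L c) < 1 := by
  intro z hz
  induction hz using Algebra.adjoin_induction with
  | mem x hx => exact hp x hx
  | algebraMap r => exact ⟨r, by simp⟩
  | add x y _ _ hx hy =>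
    obtain ⟨c, hc⟩ := hx
    obtain ⟨d, hd⟩ := hy
    refine ⟨c + d, ?_⟩
    rw [show x + y - algebraMap ℂ L (c + d) = (x - algebraMap ℂ L c) + (y - algebraMap ℂ L d) by
      rw [map_add]; ring]
    exact Valuation.map_add_lt _ hc hd
  | mul x y _ hy' hx hy =>
    obtain ⟨c, hc⟩ := hx
    obtain ⟨d, hd⟩ := hy
    refine ⟨c * d, ?_⟩
    rw [show x * y - algebraMap ℂ L (c * d) =
      (x - algebraMap ℂ L c) * y + algebraMap ℂ L c * (y - algebraMap ℂ L d) by
      rw [map_mul]; ring]
    refine Valuation.map_add_lt _ ?_ ?_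
    · rw [map_mul]
      exact mul_lt_one_of_lt_of_le hc ((W.valuation_le_one_iff _).2 (hW y hy'))
    · rw [map_mul, mul_comm]
      exact mul_lt_one_of_lt_of_le hd
        ((W.valuation_le_one_iff _).2 (hW _ (Subalgebra.algebraMap_mem _ c)))

theorem isIntegral_of_le {B B' : Subalgebra ℂ L} (h : B ≤ B') {z : L} (hz : IsIntegral B z) :
    IsIntegral B' z := hz.map_of_comp_eq (Subalgebra.inclusion h).toRingHom (RingHom.id L) rfl

theorem isIntegral_of_nA {S : Set L} {B : Subalgebra ℂ L} (hle : B ≤ adjoin ℂ S)
    (h : ∀ z ∈ adjoin ℂ S, IsIntegral B z) {z : L} (hz : z ∈ nA S) : IsIntegral B z := by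
  let : Algebra B (adjoin ℂ S) := (Subalgebra.inclusion hle).toAlgebra
  have : IsScalarTower B (adjoin ℂ S) L := IsScalarTower.of_algebraMap_eq fun _ => rfl
  have : Algebra.IsIntegral B (adjoin ℂ S) :=
    ⟨fun w => (isIntegral_algHom_iff (IsScalarTower.toAlgHom B (adjoin ℂ S) L)
      Subtype.val_injective).1 (h w w.2)⟩
  exact isIntegral_trans z (mem_nA.1 hz)

end Hartogs

open Hartogs

/-- Noether normalisation with two variables. -/
theorem noether {S : Set L} (hS : S.Finite) (hfrac : IsFrac S) {x t : L} (h2 : Tr2 x t) :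
    ∃ y : Fin 2 → L, AlgebraicIndependent ℂ y ∧ (∀ i, y i ∈ adjoin ℂ S) ∧
      ∀ z ∈ adjoin ℂ S, IsIntegral (adjoin ℂ (Set.range y)) z := by
  have : Algebra.FiniteType ℂ (adjoin ℂ S) := Algebra.FiniteType.adjoin_of_finite hS
  obtain ⟨s, g, hinj, hint⟩ := exists_integral_inj_algHom_of_fg ℂ (adjoin ℂ S)
  let y : Fin s → L := fun i => (g (MvPolynomial.X i) : L)
  have hy : MvPolynomial.aeval y = (adjoin ℂ S).val.comp g := by
    ext i; simp [y]
  have hind : AlgebraicIndependent ℂ y := by
    rw [algebraicIndependent_iff_injective_aeval, hy]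
    exact Subtype.val_injective.comp hinj
  have hI : ∀ z ∈ adjoin ℂ S, IsIntegral (adjoin ℂ (Set.range y)) z := by
    intro z hz
    obtain ⟨p, hm, hp⟩ := hint ⟨z, hz⟩
    refine ⟨p.map hind.aevalEquiv.toRingEquiv.toRingHom, hm.map _, ?_⟩
    rw [Polynomial.eval₂_map]
    have e : (algebraMap (adjoin ℂ (Set.range y)) L).comp hind.aevalEquiv.toRingEquiv.toRingHom =
        (adjoin ℂ S).val.toRingHom.comp g.toRingHom := by
      refine RingHom.ext fun q => ?_
      exact (hind.algebraMap_aevalEquiv q).trans (by rw [hy]; rfl)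
    have h3 := Polynomial.hom_eval₂ p g.toRingHom (adjoin ℂ S).val.toRingHom ⟨z, hz⟩
    rw [e]
    exact h3.symm.trans (by
      have : Polynomial.eval₂ g.toRingHom ⟨z, hz⟩ p = 0 := hp
      rw [this, map_zero])
  have hb1 : IsTranscendenceBasis ℂ y :=
    hind.isTranscendenceBasis_iff_isAlgebraic.2 ⟨isAlgebraic_of_isFrac hfrac _ hI⟩
  have hb2 : IsTranscendenceBasis ℂ ![x, t] := by
    refine h2.1.isTranscendenceBasis_iff_isAlgebraic.2 ⟨?_⟩
    have e : Set.range ![x, t] = {x, t} := by
      rw [Matrix.range_cons, Matrix.range_cons, Matrix.range_empty, Set.union_empty]; rfl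
    rw [e]
    exact h2.2
  have hs : s = 2 := by
    have := hb1.cardinalMk_eq hb2
    rw [Cardinal.mk_fin, Cardinal.mk_fin] at this
    exact_mod_cast this
  subst hs
  exact ⟨y, hind, fun i => (g (MvPolynomial.X i)).2, hI⟩

/-- **Algebraic Hartogs lemma.**  An element of `L` which lies in every valuation ring over `ℂ[S]`
whose centre is not a closed point is integral over `ℂ[S]`.

Proof.  `B = ℂ[y₀, y₁]` from `noether` is a UFD, `K = Frac B`, `φ` is algebraic over `K`.  It is
enough to show that the coefficients of `minpoly K φ` lie in `B`.  A fraction `c ∈ K` lies in `B` as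
soon as it lies in `B_(π)` for every irreducible `π` (write `c = r / s` in lowest terms; a prime
factor of `s` gives a contradiction).  `B_(π)` is integrally closed, so it is enough that `φ` is
integral over `B_(π)` (`minpoly.isIntegrallyClosed_eq_field_fractions`), i.e. that `φ` lies in
every valuation subring `W` of `L` containing the image of `B_(π)`
(`iInf_valuationSubring_superset` in `Mathlib/RingTheory/Valuation/LocalSubring.lean`).  Such a `W`
contains `B`, hence `ℂ[S]` (integral over `B`).  If `IsPt S W` held, every element of `ℂ[S]`, in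
particular `y₀` and `y₁`, would be a constant `cᵢ` modulo `m_W`; elements of `B` outside `(π)` are
units of `W`, so `π ∣ y₀ - c₀` and `π ∣ y₁ - c₁` in `ℂ[X₀, X₁]`, which is impossible (both are
irreducible and not associated; or compare degrees / substitute).  So `φ ∈ W`. -/
theorem hartogs {S : Set L} (hS : S.Finite) (hfrac : IsFrac S) {x t : L} (h2 : Tr2 x t) (φ : L)
    (h : ∀ W : ValuationSubring L, Over S W → IsPt S W ∨ φ ∈ W) : φ ∈ nA S := by
  obtain ⟨y, hy, hyS, hI⟩ := noether hS hfrac h2
  set B := adjoin ℂ (Set.range y) with hB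
  have hle : B ≤ adjoin ℂ S := Algebra.adjoin_le (by rintro _ ⟨i, rfl⟩; exact hyS i)
  have : UniqueFactorizationMonoid B :=
    hy.aevalEquiv.toMulEquiv.uniqueFactorizationMonoid inferInstance
  let : Algebra (FractionRing B) L := FractionRing.liftAlgebra B L
  have := FractionRing.isScalarTower_liftAlgebra B L
  have halg : IsIntegral (FractionRing B) φ :=
    ((isAlgebraic_of_isFrac hfrac B hI φ).extendScalars
      (IsFractionRing.injective B (FractionRing B))).isIntegral
  refine mem_nA.2 (isIntegral_of_le hle (abs_hartogs φ halg fun π hπ W hW hinv => ?_))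
  have hO : Over S W := fun z hz => mem_of_isIntegral W B (fun b hb => hW ⟨b, hb⟩) (hI z hz)
  refine (h W hO).resolve_left fun hp => ?_
  have key : ∀ i, ∃ c : ℂ, hy.aevalEquiv.symm π ∣ MvPolynomial.X i - MvPolynomial.C c := by
    intro i
    obtain ⟨c, hc⟩ := const_mod hO hp (y i) (hyS i)
    refine ⟨c, ?_⟩
    rw [← map_dvd_iff hy.aevalEquiv, AlgEquiv.apply_symm_apply]
    by_contra hnd
    have h1 := hinv _ hnd
    have e : algebraMap B L (hy.aevalEquiv (MvPolynomial.X i - MvPolynomial.C c)) =
        y i - algebraMap ℂ L c := by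
      rw [hy.algebraMap_aevalEquiv]; simp
    have h0 : y i - algebraMap ℂ L c ≠ 0 := by
      rw [← e, map_ne_zero_iff _ Subtype.val_injective]
      intro h0
      exact hnd (h0 ▸ dvd_zero _)
    rw [e, ← W.valuation_le_one_iff, map_inv₀,
      inv_le_one₀ ((Valuation.pos_iff _).2 h0)] at h1
    exact absurd hc (not_lt.2 h1)
  obtain ⟨c, hc⟩ := key 0
  obtain ⟨d, hd⟩ := key 1
  refine not_dvd_both (fun hu => hπ.not_isUnit ?_) c d hc hd
  simpa using hu.map hy.aevalEquiv

/-- `nA S` is the integral closure of `B = ℂ[y₀, y₁]` in the finite separable extension `L` of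
`Frac B`, so it is a finite `B`-module (`IsIntegralClosure.finite`). -/
theorem nA_finiteType {S : Set L} (hS : S.Finite) (hfrac : IsFrac S) {x t : L} (h2 : Tr2 x t) :
    Algebra.FiniteType ℂ (nA S) := by
  obtain ⟨y, hy, hyS, hI⟩ := noether hS hfrac h2
  set B := adjoin ℂ (Set.range y) with hB
  have hle : B ≤ adjoin ℂ S := Algebra.adjoin_le (by rintro _ ⟨i, rfl⟩; exact hyS i)
  have : UniqueFactorizationMonoid B :=
    hy.aevalEquiv.toMulEquiv.uniqueFactorizationMonoid inferInstance
  have : IsNoetherianRing B := isNoetherianRing_of_ringEquiv _ hy.aevalEquiv.toRingEquiv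
  have : Algebra.FiniteType ℂ B := Algebra.FiniteType.adjoin_of_finite (Set.finite_range y)
  let : Algebra (FractionRing B) L := FractionRing.liftAlgebra B L
  have := FractionRing.isScalarTower_liftAlgebra B L
  have hint : ∀ z : L, IsIntegral (FractionRing B) z := fun z =>
    ((isAlgebraic_of_isFrac hfrac B hI z).extendScalars
      (IsFractionRing.injective B (FractionRing B))).isIntegral
  have htop : adjoin (FractionRing B) S = ⊤ := by
    have hsub : ∀ z ∈ adjoin ℂ S, z ∈ adjoin (FractionRing B) S := by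
      intro z hz
      induction hz using Algebra.adjoin_induction with
      | mem x hx => exact Algebra.subset_adjoin hx
      | algebraMap r =>
        have e : algebraMap ℂ L r = algebraMap (FractionRing B) L
            (algebraMap B (FractionRing B) (algebraMap ℂ B r)) := by
          rw [← IsScalarTower.algebraMap_apply B (FractionRing B) L]; rfl
        rw [e]
        exact Subalgebra.algebraMap_mem _ _
      | add x y _ _ hx hy => exact add_mem hx hy
      | mul x y _ _ hx hy => exact mul_mem hx hy
    rw [Algebra.eq_top_iff]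
    intro z
    obtain ⟨p, hp, q, hq, hq0, e⟩ := hfrac z
    have e' : z = p * q⁻¹ := by rw [← e]; field_simp
    rw [e']
    exact mul_mem (hsub p hp) (Subalgebra.inv_mem_of_algebraic (adjoin (FractionRing B) S)
      (x := ⟨q, hsub q hq⟩) (hint q).isAlgebraic)
  have : FiniteDimensional (FractionRing B) L := by
    refine ⟨?_⟩
    have := fg_adjoin_of_finite hS fun z _ => hint z
    rwa [htop, Algebra.top_toSubmodule] at this
  have : CharZero B := charZero_of_injective_algebraMap (algebraMap ℂ B).injective
  have : CharZero (FractionRing B) := IsFractionRing.charZero_of_isFractionRing B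
  let : Algebra B (nA S) := (Subalgebra.inclusion (hle.trans (adjoin_le_nA S))).toAlgebra
  have : IsScalarTower B (nA S) L := IsScalarTower.of_algebraMap_eq fun _ => rfl
  have : IsScalarTower ℂ B (nA S) := IsScalarTower.of_algebraMap_eq fun _ => rfl
  have : IsIntegralClosure (nA S) B L :=
    ⟨Subtype.val_injective, fun {z} => ⟨fun hz => ⟨⟨z, mem_nA.2 (isIntegral_of_le hle hz)⟩, rfl⟩,
      by rintro ⟨w, rfl⟩; exact isIntegral_of_nA hle hI w.2⟩⟩
  have : Module.Finite B (nA S) := IsIntegralClosure.finite B (FractionRing B) L (nA S)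
  exact Algebra.FiniteType.trans (S := B) inferInstance inferInstance

theorem nA_isIntegrallyClosed {S : Set L} (hfrac : IsFrac S) : IsIntegrallyClosed (nA S) := by
  have : IsFractionRing (nA S) L := by
    refine IsFractionRing.of_field (nA S) L fun z => ?_
    obtain ⟨p, hp, q, hq, hq0, e⟩ := hfrac z
    refine ⟨⟨p, adjoin_le_nA S hp⟩, ⟨q, adjoin_le_nA S hq⟩, ?_⟩
    change z = p / q
    rw [← e]; field_simp
  rw [isIntegrallyClosed_iff L]
  intro z hz
  exact ⟨⟨z, mem_nA.2 (by
    let : Algebra (adjoin ℂ S) (nA S) := (Subalgebra.inclusion (adjoin_le_nA S)).toAlgebra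
    have : IsScalarTower (adjoin ℂ S) (nA S) L := IsScalarTower.of_algebraMap_eq fun _ => rfl
    have : Algebra.IsIntegral (adjoin ℂ S) (nA S) :=
      ⟨fun w => (isIntegral_algHom_iff (IsScalarTower.toAlgHom (adjoin ℂ S) (nA S) L)
        Subtype.val_injective).1 w.2⟩
    exact isIntegral_trans z hz)⟩, rfl⟩

/-- Integral injective extension of `ℂ[y₀, y₁]`. -/
theorem nA_ringKrullDim {S : Set L} (hS : S.Finite) (hfrac : IsFrac S) {x t : L} (h2 : Tr2 x t) :
    ringKrullDim (nA S) = 2 := by
  obtain ⟨y, hy, hyS, hI⟩ := noether hS hfrac h2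
  set B := adjoin ℂ (Set.range y) with hB
  have hle : B ≤ adjoin ℂ S := Algebra.adjoin_le (by rintro _ ⟨i, rfl⟩; exact hyS i)
  let : Algebra B (nA S) := (Subalgebra.inclusion (hle.trans (adjoin_le_nA S))).toAlgebra
  have : IsScalarTower B (nA S) L := IsScalarTower.of_algebraMap_eq fun _ => rfl
  have : Algebra.IsIntegral B (nA S) :=
    ⟨fun w => (isIntegral_algHom_iff (IsScalarTower.toAlgHom B (nA S) L)
      Subtype.val_injective).1 (isIntegral_of_nA hle hI w.2)⟩
  have : FaithfulSMul B (nA S) :=
    (faithfulSMul_iff_algebraMap_injective _ _).2 (Subalgebra.inclusion_injective _)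
  rw [dim_integral B (nA S), ← ringKrullDim_eq_of_ringEquiv hy.aevalEquiv.toRingEquiv,
    MvPolynomial.ringKrullDim_of_isNoetherianRing, ringKrullDim_eq_zero_of_field]
  simp

end Crest.Agent.R278
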