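import Crest.Agent.R278.Defs

/-!
# Row 278: non-regularity of the local ring at a point where all derivations vanish
-/

set_option autoImplicit false

namespace Crest.Agent.R278

open Algebra

/-- A regular local ring `A_m` with `dim A = 2`: locally the maximal ideal has two generators. -/
lemma two_gens {A : Type} [CommRing A] (hdim : ringKrullDim A = 2) (m : Ideal A) [m.IsMaximal]
    (hreg : IsRegularLocalRing (Localization.AtPrime m)) :
    ∃ p ∈ m, ∃ q ∈ m, ∀ f ∈ m, ∃ s, s ∉ m ∧ ∃ α β : A, s * f = α * p + β * q := by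
  set O := Localization.AtPrime m
  have h1 : ((IsLocalRing.maximalIdeal O).spanFinrank : WithBot ℕ∞) ≤ 2 := by
    rw [hreg.spanFinrank_maximalIdeal, IsLocalization.AtPrime.ringKrullDim_eq_height m O, ← hdim]
    exact Ideal.height_le_ringKrullDim_of_isPrime
  have h2 : (IsLocalRing.maximalIdeal O).spanFinrank ≤ 2 := by exact_mod_cast h1
  have hfg : (IsLocalRing.maximalIdeal O).FG := IsNoetherian.noetherian _
  obtain ⟨T, hT, hspan⟩ := Submodule.FG.exists_span_finset_card_eq_spanFinrank hfg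
  have hTm : ∀ x ∈ T, x ∈ IsLocalRing.maximalIdeal O := fun x hx => by
    rw [← hspan]; exact Submodule.subset_span hx
  obtain ⟨a, ha, b, hb, hab⟩ : ∃ a ∈ IsLocalRing.maximalIdeal O,
      ∃ b ∈ IsLocalRing.maximalIdeal O, (T : Set O) ⊆ {a, b} := by
    classical
    have h3 : T.card ≤ 2 := hT ▸ h2
    obtain h | h | h : T.card = 0 ∨ T.card = 1 ∨ T.card = 2 := by omega
    · rw [Finset.card_eq_zero] at h
      exact ⟨0, zero_mem _, 0, zero_mem _, by simp [h]⟩
    · obtain ⟨a, rfl⟩ := Finset.card_eq_one.1 h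
      exact ⟨a, hTm a (by simp), a, hTm a (by simp), by simp⟩
    · obtain ⟨a, b, -, rfl⟩ := Finset.card_eq_two.1 h
      exact ⟨a, hTm a (by simp), b, hTm b (by simp), by simp⟩
  obtain ⟨⟨p, u⟩, rfl⟩ := IsLocalization.mk'_surjective m.primeCompl a
  obtain ⟨⟨q, v⟩, rfl⟩ := IsLocalization.mk'_surjective m.primeCompl b
  simp only at ha hb hab
  rw [IsLocalization.AtPrime.mk'_mem_maximal_iff O m] at ha hb
  refine ⟨p, ha, q, hb, fun f hf => ?_⟩
  have h4 : algebraMap A O f ∈ IsLocalRing.maximalIdeal O :=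
    (IsLocalization.AtPrime.to_map_mem_maximal_iff O m f).2 hf
  have h5 : IsLocalRing.maximalIdeal O ≤ (Ideal.span {p, q}).map (algebraMap A O) := by
    rw [← hspan]
    refine Submodule.span_le.2 (hab.trans ?_)
    rintro x (rfl | rfl)
    · rw [IsLocalization.mk'_eq_mul_mk'_one]
      exact Ideal.mul_mem_right _ _ (Ideal.mem_map_of_mem _ (Ideal.subset_span (by simp)))
    · rw [IsLocalization.mk'_eq_mul_mk'_one]
      exact Ideal.mul_mem_right _ _ (Ideal.mem_map_of_mem _ (Ideal.subset_span (by simp)))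
  obtain ⟨s, hs, hsf⟩ :=
    (IsLocalization.algebraMap_mem_map_algebraMap_iff m.primeCompl O _ f).1 (h5 h4)
  obtain ⟨α, β, h⟩ := Ideal.mem_span_pair.1 hsf
  exact ⟨s, hs, α, β, h.symm⟩

/-- The residue field at a maximal ideal of a finitely generated `ℂ`-algebra is `ℂ`. -/
lemma exists_const {A : Type} [CommRing A] [Algebra ℂ A] [Algebra.FiniteType ℂ A] (m : Ideal A)
    [m.IsMaximal] (f : A) : ∃ c : ℂ, f - algebraMap ℂ A c ∈ m := by
  let _ := Ideal.Quotient.field m
  have := finite_of_finite_type_of_isJacobsonRing ℂ (A ⧸ m)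
  obtain ⟨c, hc⟩ := (IsAlgClosed.algebraMap_bijective_of_isIntegral (k := ℂ) (K := A ⧸ m)).2
    (Ideal.Quotient.mk m f)
  refine ⟨c, ?_⟩
  rw [← Ideal.Quotient.eq, ← hc]
  rfl

variable {L : Type} [Field L] [Algebra ℂ L]

lemma der_eq_zero_of_frac {A : Subalgebra ℂ L}
    (hfrac : ∀ z : L, ∃ p ∈ A, ∃ q ∈ A, q ≠ 0 ∧ q * z = p) (E : Derivation ℂ L L)
    (h : ∀ z ∈ A, E z = 0) (z : L) : E z = 0 := by
  obtain ⟨p, hp, q, hq, hq0, e⟩ := hfrac z
  have h1 := h p hp
  rw [← e, Derivation.leibniz, h q hq, smul_zero, add_zero, smul_eq_mul] at h1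
  exact (mul_eq_zero.1 h1).resolve_left hq0

lemma minor_eq_zero_of_frac {A : Subalgebra ℂ L}
    (hfrac : ∀ z : L, ∃ p ∈ A, ∃ q ∈ A, q ≠ 0 ∧ q * z = p) (D₁ D₂ : Derivation ℂ L L)
    (h : ∀ y ∈ A, ∀ y' ∈ A, D₁ y * D₂ y' - D₂ y * D₁ y' = 0) (y y' : L) :
    D₁ y * D₂ y' - D₂ y * D₁ y' = 0 := by
  have h1 : ∀ y' ∈ A, D₁ y * D₂ y' - D₂ y * D₁ y' = 0 := fun y' hy' => by
    have := der_eq_zero_of_frac hfrac (D₂ y' • D₁ - D₁ y' • D₂) (fun z hz => by
      have := h z hz y' hy'
      simp only [Derivation.coe_sub, Derivation.coe_smul, Pi.sub_apply, Pi.smul_apply,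
        smul_eq_mul]
      linear_combination this) y
    simp only [Derivation.coe_sub, Derivation.coe_smul, Pi.sub_apply, Pi.smul_apply,
      smul_eq_mul] at this
    linear_combination this
  have := der_eq_zero_of_frac hfrac (D₁ y • D₂ - D₂ y • D₁) (fun z hz => by
    have := h1 z hz
    simp only [Derivation.coe_sub, Derivation.coe_smul, Pi.sub_apply, Pi.smul_apply,
      smul_eq_mul]
    linear_combination this) y'
  simpa only [Derivation.coe_sub, Derivation.coe_smul, Pi.sub_apply, Pi.smul_apply,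
    smul_eq_mul] using this

/-- The restriction of a derivation of `L` preserving `A`. -/
def restrictDer (A : Subalgebra ℂ L) (E : Derivation ℂ L L) (h : ∀ z ∈ A, E z ∈ A) :
    Derivation ℂ A A :=
  Derivation.mk'
    { toFun := fun z => ⟨E z, h z z.2⟩
      map_add' := fun x y => Subtype.ext (by simp)
      map_smul' := fun c x => Subtype.ext (by simp) }
    (fun x y => Subtype.ext (by simp [Derivation.leibniz]))

lemma restrictDer_apply (A : Subalgebra ℂ L) (E : Derivation ℂ L L) (h : ∀ z ∈ A, E z ∈ A)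
    (z : A) : (restrictDer A E h z : L) = E z := rfl

/-- Nakayama step. -/
lemma exists_mul_der (A : Subalgebra ℂ L) [Algebra.FiniteType ℂ A] (D₁ D₂ : Derivation ℂ L L)
    (m : Ideal A) [hm : m.IsMaximal] {p q : A} (hp : p ∈ m) (hq : q ∈ m)
    (hpq : ∀ f ∈ m, ∃ s, s ∉ m ∧ ∃ α β : A, s * f = α * p + β * q) :
    ∃ r : A, r ∉ m ∧ ∀ f : A, ∃ α β : A, (r : L) * D₁ f = α * D₁ p + β * D₁ q ∧
      (r : L) * D₂ f = α * D₂ p + β * D₂ q := by
  let d : A → L × L := fun f => (D₁ f, D₂ f)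
  have d_add : ∀ f g : A, d (f + g) = d f + d g := fun f g => by simp [d]
  have d_mul : ∀ f g : A, d (f * g) = f • d g + g • d f := fun f g => by
    simp [d, Derivation.leibniz, Subalgebra.smul_def]
  have d_const : ∀ c : ℂ, d (algebraMap ℂ A c) = 0 := fun c => by
    simp [d]
  let N : Submodule A (L × L) := Submodule.span A (Set.range d)
  have hN : ∀ f, d f ∈ N := fun f => Submodule.subset_span ⟨f, rfl⟩
  have hfg : N.FG := by
    classical
    obtain ⟨T, hT⟩ := Algebra.FiniteType.out (R := ℂ) (A := A)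
    refine ⟨T.image d, le_antisymm (Submodule.span_mono ?_) (Submodule.span_le.2 ?_)⟩
    · intro x hx
      obtain ⟨f, -, rfl⟩ := Finset.mem_image.1 (Finset.mem_coe.1 hx)
      exact ⟨f, rfl⟩
    · rintro _ ⟨f, rfl⟩
      have hf : f ∈ adjoin ℂ (T : Set A) := hT ▸ Algebra.mem_top
      induction hf using Algebra.adjoin_induction with
      | mem x hx => exact Submodule.subset_span (Finset.mem_coe.2 (Finset.mem_image_of_mem d hx))
      | algebraMap c => rw [d_const]; exact zero_mem _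
      | add x y _ _ hx hy => rw [d_add]; exact add_mem hx hy
      | mul x y _ _ hx hy =>
        rw [d_mul]; exact add_mem (Submodule.smul_mem _ _ hy) (Submodule.smul_mem _ _ hx)
  let N₀ : Submodule A (L × L) := Submodule.span A {d p, d q}
  have hle : N ≤ N₀ ⊔ m • N := by
    refine Submodule.span_le.2 ?_
    rintro _ ⟨f, rfl⟩
    obtain ⟨c, hc⟩ := exists_const m f
    have e0 : d f = d (f - algebraMap ℂ A c) := by
      have := d_add (f - algebraMap ℂ A c) (algebraMap ℂ A c)
      rwa [sub_add_cancel, d_const, add_zero] at this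
    rw [e0]
    set g := f - algebraMap ℂ A c
    obtain ⟨s, hs, α, β, e⟩ := hpq g hc
    obtain ⟨t, i, hi, hti⟩ := hm.exists_inv hs
    have e1 : s • d g = α • d p + β • d q + (p • d α + q • d β - g • d s) := by
      have := congrArg d e
      rw [d_add, d_mul, d_mul, d_mul] at this
      rw [← sub_eq_zero] at this ⊢
      rw [← this]; abel
    have e2 : d g = t • s • d g + i • d g := by
      rw [smul_smul, ← add_smul, hti, one_smul]
    rw [e2]
    refine add_mem (Submodule.smul_mem _ _ ?_)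
      (Submodule.mem_sup_right (Submodule.smul_mem_smul hi (hN g)))
    rw [e1]
    refine add_mem (Submodule.mem_sup_left (add_mem ?_ ?_)) (Submodule.mem_sup_right ?_)
    · exact Submodule.smul_mem _ _ (Submodule.subset_span (by simp))
    · exact Submodule.smul_mem _ _ (Submodule.subset_span (by simp))
    · exact sub_mem (add_mem (Submodule.smul_mem_smul hp (hN _))
        (Submodule.smul_mem_smul hq (hN _))) (Submodule.smul_mem_smul hc (hN _))
  obtain ⟨r, hr, hrN⟩ := Submodule.exists_sub_one_mem_and_smul_le_of_fg_of_le_sup hfg le_rfl hle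
  refine ⟨r, fun h => hm.ne_top ((Ideal.eq_top_iff_one m).2 ?_), fun f => ?_⟩
  · simpa using sub_mem h hr
  · have : r • d f ∈ N₀ := hrN (Submodule.smul_mem_pointwise_smul _ _ _ (hN f))
    obtain ⟨α, β, h⟩ := Submodule.mem_span_pair.1 this
    refine ⟨α, β, ?_, ?_⟩
    · simpa [d, Subalgebra.smul_def] using (congrArg Prod.fst h).symm
    · simpa [d, Subalgebra.smul_def] using (congrArg Prod.snd h).symm

theorem not_regular' (A : Subalgebra ℂ L) [Algebra.FiniteType ℂ A]
    (hfrac : ∀ z : L, ∃ p ∈ A, ∃ q ∈ A, q ≠ 0 ∧ q * z = p) (hdim : ringKrullDim A = 2)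
    (D₁ D₂ : Derivation ℂ L L) (hne : ∃ y y' : L, D₁ y * D₂ y' - D₂ y * D₁ y' ≠ 0)
    (m : Ideal A) [m.IsMaximal] (hm : ∀ (θ : Derivation ℂ A A) (z : A), θ z ∈ m) :
    ¬ IsRegularLocalRing (Localization.AtPrime m) := by
  intro hreg
  obtain ⟨p, hp, q, hq, hpq⟩ := two_gens hdim m hreg
  obtain ⟨r, hr, hrf⟩ := exists_mul_der A D₁ D₂ m hp hq hpq
  have hr0 : (r : L) ≠ 0 := fun h => hr (by rw [show r = 0 from Subtype.ext h]; exact zero_mem _)
  set Δ : L := D₁ p * D₂ q - D₂ p * D₁ q with hΔ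
  have hΔ0 : Δ ≠ 0 := by
    intro h0
    obtain ⟨y, y', hy⟩ := hne
    refine hy (minor_eq_zero_of_frac hfrac D₁ D₂ (fun z hz z' hz' => ?_) y y')
    obtain ⟨α, β, h1, h2⟩ := hrf ⟨z, hz⟩
    obtain ⟨α', β', h1', h2'⟩ := hrf ⟨z', hz'⟩
    simp only at h1 h2 h1' h2'
    have : (r : L) * r * (D₁ z * D₂ z' - D₂ z * D₁ z') = (α * β' - β * α') * Δ := by
      have e : (r : L) * r * (D₁ z * D₂ z' - D₂ z * D₁ z') =
        (r * D₁ z) * (r * D₂ z') - (r * D₂ z) * (r * D₁ z') := by ring
      rw [e, h1, h2, h1', h2', hΔ]; ring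
    rw [h0, mul_zero] at this
    exact (mul_eq_zero.1 this).resolve_left (mul_ne_zero hr0 hr0)
  let E : Derivation ℂ L L := ((r : L) / Δ) • (D₂ q • D₁ - D₁ q • D₂)
  have hE : ∀ z, E z = ((r * D₁ z) * D₂ q - (r * D₂ z) * D₁ q) / Δ := fun z => by
    simp only [E, Derivation.coe_sub, Derivation.coe_smul, Pi.sub_apply, Pi.smul_apply,
      smul_eq_mul]
    field_simp
  have hEA : ∀ z ∈ A, E z ∈ A := fun z hz => by
    obtain ⟨α, β, h1, h2⟩ := hrf ⟨z, hz⟩
    simp only at h1 h2
    have : E z = α := by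
      rw [hE, h1, h2, div_eq_iff hΔ0, hΔ]; ring
    rw [this]; exact α.2
  have h1 := hm (restrictDer A E hEA) p
  have h2 : restrictDer A E hEA p = r := Subtype.ext (by
    rw [restrictDer_apply, hE, div_eq_iff hΔ0, hΔ]; ring)
  exact hr (h2 ▸ h1)

end Crest.Agent.R278
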