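import Crest.Agent.R278.Seid
import Crest.Agent.R278.Hartogs
import Crest.Agent.R278.Field
import Crest.Agent.R278.NotReg

/-!
# The abstract criterion
-/

set_option autoImplicit false

namespace Crest.Agent.R278

open Algebra

variable {L : Type} [Field L] [Algebra ℂ L]

namespace Core

theorem isIntegral_mono {R R' : Subalgebra ℂ L} (h : R ≤ R') {z : L} (hz : IsIntegral R z) :
    IsIntegral R' z := by
  obtain ⟨p, hp, hpz⟩ := hz
  refine ⟨p.map (Subalgebra.inclusion h).toRingHom, hp.map _, ?_⟩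
  rw [Polynomial.eval₂_map]
  exact hpz

theorem nA_le {S : Set L} {W : ValuationSubring L} (hW : Over S W) {z : L} (hz : z ∈ nA S) :
    z ∈ W := by
  obtain ⟨p, hp, hpz⟩ := (mem_nA.mp hz)
  let f : adjoin ℂ S →+* W :=
    { toFun := fun a => ⟨a, hW a a.2⟩
      map_one' := rfl
      map_mul' := fun _ _ => rfl
      map_zero' := rfl
      map_add' := fun _ _ => rfl }
  have hint : IsIntegral W z := by
    refine ⟨p.map f, hp.map _, ?_⟩
    rw [Polynomial.eval₂_map]
    exact hpz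
  obtain ⟨y, hy⟩ := (IsIntegrallyClosed.isIntegral_iff (R := W) (K := L)).mp hint
  rw [← hy]
  exact y.2

theorem isFractionRing_nA {S : Set L} (hfrac : IsFrac S) : IsFractionRing (nA S) L := by
  refine IsFractionRing.of_field (nA S) L fun z => ?_
  obtain ⟨p, hp, q, hq, hq0, h⟩ := hfrac z
  refine ⟨⟨p, adjoin_le_nA S hp⟩, ⟨q, adjoin_le_nA S hq⟩, ?_⟩
  change z = p / q
  rw [← h]
  field_simp

/-- A derivation of `L` vanishing on `nA S` vanishes. -/
theorem eq_zero_of_nA {S : Set L} (hfrac : IsFrac S) (D : Derivation ℂ L L)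
    (hD : ∀ z ∈ nA S, D z = 0) (z : L) : D z = 0 := by
  obtain ⟨p, hp, q, hq, hq0, h⟩ := hfrac z
  have h1 : D (q * z) = 0 := by rw [h]; exact hD p (adjoin_le_nA S hp)
  rw [Derivation.leibniz, hD q (adjoin_le_nA S hq)] at h1
  simpa [hq0] using h1

/-- Restriction of a derivation to a stable subalgebra. -/
def restrict (A : Subalgebra ℂ L) (D : Derivation ℂ L L) (hD : ∀ z ∈ A, D z ∈ A) :
    Derivation ℂ A A where
  toFun := fun z => ⟨D z, hD z z.2⟩
  map_add' := fun a b => Subtype.ext (by simp)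
  map_smul' := fun c a => Subtype.ext (by simp)
  map_one_eq_zero' := Subtype.ext (by simp)
  leibniz' := fun a b => Subtype.ext (by simp [Derivation.leibniz])

@[simp] theorem restrict_apply (A : Subalgebra ℂ L) (D : Derivation ℂ L L)
    (hD : ∀ z ∈ A, D z ∈ A) (z : A) : (restrict A D hD z : L) = D z := rfl

end Core

open _root_.Crest.Agent.R278.Core

/-- Every `ℂ`-derivation of `nA S` extends to `L = Frac (nA S)` (localisations are formally étale;
or define `D (p / q)` by the quotient rule). -/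
theorem exists_extend {S : Set L} (hfrac : IsFrac S) (θ : Derivation ℂ (nA S) (nA S)) :
    ∃ D : Derivation ℂ L L, ∀ z : nA S, D z = (θ z : L) := by
  have := isFractionRing_nA hfrac
  have : Algebra.FormallyEtale (nA S) L :=
    Algebra.FormallyEtale.of_isLocalization (Rₘ := L) (nonZeroDivisors (nA S))
  have hb := KaehlerDifferential.isBaseChange_of_formallyEtale ℂ (nA S) L
  let g : Ω[(nA S)⁄ℂ] →ₗ[nA S] L :=
    (Algebra.linearMap (nA S) L) ∘ₗ θ.liftKaehlerDifferential
  refine ⟨(hb.lift g).compDer (KaehlerDifferential.D ℂ L), fun z => ?_⟩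
  have h1 : KaehlerDifferential.D ℂ L (z : L) =
      KaehlerDifferential.map ℂ ℂ (nA S) L (KaehlerDifferential.D ℂ (nA S) z) := by
    rw [KaehlerDifferential.map_D]; rfl
  change hb.lift g (KaehlerDifferential.D ℂ L (z : L)) = _
  rw [h1, hb.lift_eq]
  simp [g, Derivation.liftKaehlerDifferential_comp_D]

/-- If one `2 × 2` minor of `D₁, D₂` is nonzero they span all derivations of `L`: by
`exists_derivation`/`derivation_eq_zero` a derivation is `D x • ∂ₓ + D t • ∂ₜ`, the minor at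
`(y, y')` is the minor at `(x, t)` times a Jacobian, so the minor at `(x, t)` is nonzero; solve
the `2 × 2` system. -/
theorem span_of_minor {x t : L} (h2 : Tr2 x t) (D₁ D₂ : Derivation ℂ L L)
    (hne : ∃ y y' : L, D₁ y * D₂ y' - D₂ y * D₁ y' ≠ 0) (δ : Derivation ℂ L L) :
    ∃ c₁ c₂ : L, ∀ z, δ z = c₁ * D₁ z + c₂ * D₂ z := by
  obtain ⟨y, y', hy⟩ := hne
  have hm : D₁ x * D₂ t - D₂ x * D₁ t ≠ 0 := by
    intro hm
    have hE : D₂ t • D₁ - D₁ t • D₂ = 0 := by
      refine derivation_eq_zero h2 _ ?_ ?_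
      · simp only [Derivation.coe_sub, Derivation.coe_smul, Pi.sub_apply, Pi.smul_apply,
          smul_eq_mul]
        linear_combination hm
      · simp only [Derivation.coe_sub, Derivation.coe_smul, Pi.sub_apply, Pi.smul_apply,
          smul_eq_mul]
        ring
    have hE' : D₂ x • D₁ - D₁ x • D₂ = 0 := by
      refine derivation_eq_zero h2 _ ?_ ?_
      · simp only [Derivation.coe_sub, Derivation.coe_smul, Pi.sub_apply, Pi.smul_apply,
          smul_eq_mul]
        ring
      · simp only [Derivation.coe_sub, Derivation.coe_smul, Pi.sub_apply, Pi.smul_apply,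
          smul_eq_mul]
        linear_combination -hm
    have key : ∀ a b : L, b • D₁ - a • D₂ = 0 → a = 0 := by
      intro a b h
      have e1 := Derivation.congr_fun h y
      have e2 := Derivation.congr_fun h y'
      simp only [Derivation.coe_sub, Derivation.coe_smul, Pi.sub_apply, Pi.smul_apply,
        smul_eq_mul, Derivation.coe_zero, Pi.zero_apply] at e1 e2
      have : a * (D₁ y * D₂ y' - D₂ y * D₁ y') = 0 := by
        linear_combination D₁ y' * e1 - D₁ y * e2
      exact (mul_eq_zero.mp this).resolve_right hy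
    have h1 : D₁ = 0 := derivation_eq_zero h2 D₁ (key _ _ hE') (key _ _ hE)
    apply hy
    simp [h1]
  refine ⟨(δ x * D₂ t - δ t * D₂ x) / (D₁ x * D₂ t - D₂ x * D₁ t),
    (D₁ x * δ t - D₁ t * δ x) / (D₁ x * D₂ t - D₂ x * D₁ t), fun z => ?_⟩
  have hE : δ - (((δ x * D₂ t - δ t * D₂ x) / (D₁ x * D₂ t - D₂ x * D₁ t)) • D₁ +
      ((D₁ x * δ t - D₁ t * δ x) / (D₁ x * D₂ t - D₂ x * D₁ t)) • D₂) = 0 := by
    refine derivation_eq_zero h2 _ ?_ ?_
    · simp only [Derivation.coe_sub, Derivation.coe_add, Derivation.coe_smul, Pi.sub_apply,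
        Pi.add_apply, Pi.smul_apply, smul_eq_mul]
      rw [div_mul_eq_mul_div, div_mul_eq_mul_div, ← add_div, sub_eq_zero, eq_div_iff hm]
      ring
    · simp only [Derivation.coe_sub, Derivation.coe_add, Derivation.coe_smul, Pi.sub_apply,
        Pi.add_apply, Pi.smul_apply, smul_eq_mul]
      rw [div_mul_eq_mul_div, div_mul_eq_mul_div, ← add_div, sub_eq_zero, eq_div_iff hm]
      ring
  have := Derivation.congr_fun hE z
  simp only [Derivation.coe_sub, Derivation.coe_add, Derivation.coe_smul, Pi.sub_apply,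
    Pi.add_apply, Pi.smul_apply, smul_eq_mul, Derivation.coe_zero, Pi.zero_apply] at this
  exact sub_eq_zero.mp this

/-- `D₁, D₂` preserve `nA S` and every derivation of `nA S` is an `nA S`-combination of them.
First part: `hartogs` and `chart` (an element of `nA S` is integral over `locAt S W ⊇ ℂ[S]`).
Second part: extend `θ` to `L`, write it as `c₁ D₁ + c₂ D₂` (`span_of_minor`); by Cramer
`m * c₁ = θ y * D₂ y' - θ y' * D₂ y` and `m * c₂ = D₁ y * θ y' - D₁ y' * θ y` with `m` the minor,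
so `cᵢ ∈ W` when `m` is a unit of `W` (`nA S ⊆ W`), and `hartogs` gives `cᵢ ∈ nA S`. -/
theorem basis_of_reg {S : Set L} (hS : S.Finite) (hfrac : IsFrac S) {x t : L} (h2 : Tr2 x t)
    (D₁ D₂ : Derivation ℂ L L)
    (hne : ∃ y y' : L, D₁ y * D₂ y' - D₂ y * D₁ y' ≠ 0)
    (hreg : ∀ W : ValuationSubring L, Over S W → IsPt S W ∨
      ((∀ s ∈ S, D₁ s ∈ locAt S W ∧ D₂ s ∈ locAt S W) ∧
        ∃ y ∈ adjoin ℂ S, ∃ y' ∈ adjoin ℂ S, W.valuation (D₁ y * D₂ y' - D₂ y * D₁ y') = 1)) :
    (∀ z ∈ nA S, D₁ z ∈ nA S ∧ D₂ z ∈ nA S) ∧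
      ∀ θ : Derivation ℂ (nA S) (nA S), ∃ c₁ ∈ nA S, ∃ c₂ ∈ nA S,
        ∀ z : nA S, (θ z : L) = c₁ * D₁ z + c₂ * D₂ z := by
  have hpres : ∀ z ∈ nA S, D₁ z ∈ nA S ∧ D₂ z ∈ nA S := by
    intro z hz
    constructor
    · refine hartogs hS hfrac h2 _ fun W hW => ?_
      rcases hreg W hW with h | ⟨h, -⟩
      · exact Or.inl h
      · exact Or.inr (chart hS hfrac hW D₁ (fun s hs => (h s hs).1) z
          (isIntegral_mono (adjoin_le_locAt S W) (mem_nA.mp hz)))
    · refine hartogs hS hfrac h2 _ fun W hW => ?_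
      rcases hreg W hW with h | ⟨h, -⟩
      · exact Or.inl h
      · exact Or.inr (chart hS hfrac hW D₂ (fun s hs => (h s hs).2) z
          (isIntegral_mono (adjoin_le_locAt S W) (mem_nA.mp hz)))
  refine ⟨hpres, fun θ => ?_⟩
  obtain ⟨D, hD⟩ := exists_extend hfrac θ
  obtain ⟨c₁, c₂, hc⟩ := span_of_minor h2 D₁ D₂ hne D
  have hDA : ∀ z ∈ nA S, D z ∈ nA S := fun z hz => by
    have := hD ⟨z, hz⟩
    simp only at this
    rw [this]
    exact (θ ⟨z, hz⟩).2
  have hdiv : ∀ (W : ValuationSubring L) (m c w : L), W.valuation m = 1 → w ∈ W → m * c = w →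
      c ∈ W := by
    intro W m c w hm hw h
    rw [← ValuationSubring.valuation_le_one_iff] at hw ⊢
    rw [← h, map_mul, hm, one_mul] at hw
    exact hw
  refine ⟨c₁, ?_, c₂, ?_, fun z => by rw [← hD z, hc]⟩
  · refine hartogs hS hfrac h2 _ fun W hW => ?_
    rcases hreg W hW with h | ⟨-, y, hy, y', hy', hm⟩
    · exact Or.inl h
    · have hy1 := adjoin_le_nA S hy
      have hy1' := adjoin_le_nA S hy'
      refine Or.inr (hdiv W _ c₁ (D y * D₂ y' - D y' * D₂ y) hm ?_ ?_)
      · exact nA_le hW (sub_mem (mul_mem (hDA _ hy1) (hpres _ hy1').2)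
          (mul_mem (hDA _ hy1') (hpres _ hy1).2))
      · rw [hc y, hc y']; ring
  · refine hartogs hS hfrac h2 _ fun W hW => ?_
    rcases hreg W hW with h | ⟨-, y, hy, y', hy', hm⟩
    · exact Or.inl h
    · have hy1 := adjoin_le_nA S hy
      have hy1' := adjoin_le_nA S hy'
      refine Or.inr (hdiv W _ c₂ (D₁ y * D y' - D₁ y' * D y) hm ?_ ?_)
      · exact nA_le hW (sub_mem (mul_mem (hpres _ hy1).1 (hDA _ hy1'))
          (mul_mem (hpres _ hy1').1 (hDA _ hy1)))
      · rw [hc y, hc y']; ring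

/-- The module of derivations is free of rank two: `![c₁, c₂] ↦ c₁ D₁ + c₂ D₂` is linear,
surjective by `hspan`, injective by `hne` (two derivations of `L` which agree on `nA S` agree on
`L = Frac`, then Cramer). -/
theorem der_equiv {S : Set L} (hfrac : IsFrac S) (D₁ D₂ : Derivation ℂ L L)
    (hne : ∃ y y' : L, D₁ y * D₂ y' - D₂ y * D₁ y' ≠ 0)
    (hpres : ∀ z ∈ nA S, D₁ z ∈ nA S ∧ D₂ z ∈ nA S)
    (hspan : ∀ θ : Derivation ℂ (nA S) (nA S), ∃ c₁ ∈ nA S, ∃ c₂ ∈ nA S,
        ∀ z : nA S, (θ z : L) = c₁ * D₁ z + c₂ * D₂ z) :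
    Nonempty (Derivation ℂ (nA S) (nA S) ≃ₗ[nA S] (Fin 2 → nA S)) := by
  let θ₁ := restrict (nA S) D₁ fun z hz => (hpres z hz).1
  let θ₂ := restrict (nA S) D₂ fun z hz => (hpres z hz).2
  let F : (Fin 2 → nA S) →ₗ[nA S] Derivation ℂ (nA S) (nA S) :=
    { toFun := fun c => c 0 • θ₁ + c 1 • θ₂
      map_add' := fun a b => by
        simp only [Pi.add_apply, add_smul]
        abel
      map_smul' := fun r a => by
        simp only [Pi.smul_apply, smul_eq_mul, RingHom.id_apply, smul_add, mul_smul] }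
  have hF : ∀ (c : Fin 2 → nA S) (z : nA S),
      ((F c z : nA S) : L) = (c 0 : L) * D₁ z + (c 1 : L) * D₂ z := by
    intro c z
    rfl
  refine ⟨(LinearEquiv.ofBijective F ⟨?_, ?_⟩).symm⟩
  · rw [injective_iff_map_eq_zero]
    intro c hc
    obtain ⟨y, y', hy⟩ := hne
    have h0 : ∀ z : L, ((c 0 : L) • D₁ + (c 1 : L) • D₂) z = 0 := by
      refine eq_zero_of_nA hfrac _ fun z hz => ?_
      have := hF c ⟨z, hz⟩
      rw [hc] at this
      simpa using this.symm
    have e1 := h0 y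
    have e2 := h0 y'
    simp only [Derivation.coe_add, Derivation.coe_smul, Pi.add_apply, Pi.smul_apply,
      smul_eq_mul] at e1 e2
    have a0 : (c 0 : L) * (D₁ y * D₂ y' - D₂ y * D₁ y') = 0 := by
      linear_combination D₂ y' * e1 - D₂ y * e2
    have a1 : (c 1 : L) * (D₁ y * D₂ y' - D₂ y * D₁ y') = 0 := by
      linear_combination D₁ y * e2 - D₁ y' * e1
    have b0 : c 0 = 0 := Subtype.ext ((mul_eq_zero.mp a0).resolve_right hy)
    have b1 : c 1 = 0 := Subtype.ext ((mul_eq_zero.mp a1).resolve_right hy)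
    funext i
    fin_cases i
    · exact b0
    · exact b1
  · intro θ
    obtain ⟨c₁, h₁, c₂, h₂, h⟩ := hspan θ
    refine ⟨![⟨c₁, h₁⟩, ⟨c₂, h₂⟩], ?_⟩
    ext z
    rw [hF, h z]
    rfl

/-- **Non-regularity.**  Let `A` be a finitely generated `ℂ`-domain inside a field `L = Frac A`,
`D₁, D₂` derivations of `L` with a nonzero minor, and `m` a maximal ideal containing `θ A` for
every derivation `θ` of `A`.  Then `A_m` is not regular.

Proof.  Suppose `O = A_m ⊆ L` is regular.  (No dimension theory is needed beyond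
`dim O ≤ dim A = 2`: the maximal ideal of `O` is generated by two elements `p, q`, and we may take
`p, q ∈ A`.)  The residue field is `ℂ` (Nullstellensatz / Zariski's lemma), so every `f ∈ O` is
`c + α p + β q`.  Let `N ⊆ L × L` be the `O`-submodule spanned by all `(D₁ f, D₂ f)`, `f ∈ O`; it is
spanned by the images of the finitely many generators of `A` (Leibniz and quotient rules), and
`N = N₀ + m N` with `N₀` spanned by `(D₁ p, D₂ p), (D₁ q, D₂ q)`.  Nakayama: `N = N₀`.  So for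
`f ∈ O` there are `α β ∈ O` with `Dᵢ f = α Dᵢ p + β Dᵢ q`.  The minor `Δ` at `(p, q)` is nonzero
(otherwise all minors at elements of `A`, hence of `L`, vanish), and
`∂ = (D₂ q • D₁ - D₁ q • D₂) / Δ` has `∂ p = 1`, `∂ f = α ∈ O`.  With a common denominator
`s ∉ m` of the values on the generators of `A`, `s ∂` preserves `A` and `(s ∂) p = s ∉ m`,
a contradiction. -/
theorem not_regular (A : Subalgebra ℂ L) [Algebra.FiniteType ℂ A]
    (hfrac : ∀ z : L, ∃ p ∈ A, ∃ q ∈ A, q ≠ 0 ∧ q * z = p) (hdim : ringKrullDim A = 2)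
    (D₁ D₂ : Derivation ℂ L L) (hne : ∃ y y' : L, D₁ y * D₂ y' - D₂ y * D₁ y' ≠ 0)
    (m : Ideal A) [m.IsMaximal] (hm : ∀ (θ : Derivation ℂ A A) (z : A), θ z ∈ m) :
    ¬ IsRegularLocalRing (Localization.AtPrime m) :=
  not_regular' A hfrac hdim D₁ D₂ hne m hm

/-- **The criterion.**  `m` is a maximal ideal of `nA S` containing the proper ideal
`{z | V.valuation z < 1}` (`nA S ⊆ V`). -/
theorem core {S : Set L} (hS : S.Finite) (hfrac : IsFrac S) {x t : L} (h2 : Tr2 x t)
    (D₁ D₂ : Derivation ℂ L L)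
    (hne : ∃ y y' : L, D₁ y * D₂ y' - D₂ y * D₁ y' ≠ 0)
    (hreg : ∀ W : ValuationSubring L, Over S W → IsPt S W ∨
      ((∀ s ∈ S, D₁ s ∈ locAt S W ∧ D₂ s ∈ locAt S W) ∧
        ∃ y ∈ adjoin ℂ S, ∃ y' ∈ adjoin ℂ S, W.valuation (D₁ y * D₂ y' - D₂ y * D₁ y') = 1))
    (hsing : ∃ V : ValuationSubring L, Over S V ∧
      ∀ z ∈ nA S, V.valuation (D₁ z) < 1 ∧ V.valuation (D₂ z) < 1) :
    ∃ (A : Type) (_ : CommRing A) (_ : Algebra ℂ A),
      IsDomain A ∧ Algebra.FiniteType ℂ A ∧ IsIntegrallyClosed A ∧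
      ringKrullDim A = 2 ∧
      Nonempty (Derivation ℂ A A ≃ₗ[A] (Fin 2 → A)) ∧
      ∃ (m : Ideal A) (_ : m.IsMaximal), ¬ IsRegularLocalRing (Localization.AtPrime m) := by
  obtain ⟨hpres, hspan⟩ := basis_of_reg hS hfrac h2 D₁ D₂ hne hreg
  obtain ⟨V, hV, hsing⟩ := hsing
  have := nA_finiteType hS hfrac h2
  have hle : ∀ z : nA S, V.valuation (z : L) ≤ 1 := fun z =>
    (V.valuation_le_one_iff _).mpr (nA_le hV z.2)
  let I : Ideal (nA S) :=
    { carrier := {z | V.valuation (z : L) < 1}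
      add_mem' := fun {a b} ha hb => by
        change V.valuation ((a : L) + b) < 1
        exact lt_of_le_of_lt (Valuation.map_add _ _ _) (max_lt ha hb)
      zero_mem' := by
        change V.valuation ((0 : nA S) : L) < 1
        simp
      smul_mem' := fun r a ha => by
        change V.valuation ((r : L) * a) < 1
        rw [map_mul]
        exact lt_of_le_of_lt (mul_le_of_le_one_left' (hle r)) ha }
  have hI : I ≠ ⊤ := by
    rw [Ne, Ideal.eq_top_iff_one]
    change ¬ V.valuation ((1 : nA S) : L) < 1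
    simp
  obtain ⟨m, hm, hIm⟩ := Ideal.exists_le_maximal I hI
  refine ⟨nA S, inferInstance, inferInstance, inferInstance, inferInstance,
    nA_isIntegrallyClosed hfrac, nA_ringKrullDim hS hfrac h2,
    der_equiv hfrac D₁ D₂ hne hpres hspan, m, hm, ?_⟩
  refine not_regular (nA S) (fun z => ?_) (nA_ringKrullDim hS hfrac h2) D₁ D₂ hne m
    fun θ z => hIm ?_
  · obtain ⟨p, hp, q, hq, hq0, h⟩ := hfrac z
    exact ⟨p, adjoin_le_nA S hp, q, adjoin_le_nA S hq, hq0, h⟩
  · obtain ⟨c₁, h₁, c₂, h₂, h⟩ := hspan θ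
    change V.valuation ((θ z : nA S) : L) < 1
    rw [h z]
    refine lt_of_le_of_lt (Valuation.map_add _ _ _) (max_lt ?_ ?_)
    · rw [map_mul]
      exact lt_of_le_of_lt (mul_le_of_le_one_left' (hle ⟨c₁, h₁⟩)) (hsing z z.2).1
    · rw [map_mul]
      exact lt_of_le_of_lt (mul_le_of_le_one_left' (hle ⟨c₂, h₂⟩)) (hsing z z.2).2

end Crest.Agent.R278
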