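import Crest.Agent.R278.Small

/-!
# The relations between the generators `A, u, w, W₁, …, W₄` (variables `0, …, 6`)
-/

set_option autoImplicit false

namespace Crest.Agent.R278

open E

variable {L : Type} [Field L]

/-- `v 0, v 1, v 2` is a point of the surface `F = 0` and `v 3, …, v 6` are the functions `Wᵢ`. -/
structure Ctx (v : ℕ → L) : Prop where
  hF : ev v FE = 0
  h1 : ev v lIE * v 3 = ev v M1E
  h2 : ev v lIE * v 4 = ev v M2E
  h3 : ev v lJE * v 5 = ev v M3E
  h4 : ev v lJE * v 6 = ev v M4E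
  hI : ev v lIE ≠ 0
  hJ : ev v lJE ≠ 0
  h7 : ∀ i, v (i + 7) = 0

/-- Only the variables `0, 1` occur. -/
def E.two : E → Bool
  | .c _ => true
  | .x i => decide (i < 2)
  | .add a b => E.two a && E.two b
  | .mul a b => E.two a && E.two b
  | .hor a i b => E.two a && decide (i < 2) && E.two b

theorem ev_congr_two {R : Type*} [CommRing R] {v v' : ℕ → R} (h0 : v 0 = v' 0)
    (h1 : v 1 = v' 1) (e : E) (h : E.two e = true) : ev v e = ev v' e := by
  induction e with
  | c n => rfl
  | x i =>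
    simp only [E.two, decide_eq_true_eq] at h
    interval_cases i <;> simp [h0, h1]
  | add a b ha hb =>
    simp only [E.two, Bool.and_eq_true] at h
    simp [ha h.1, hb h.2]
  | mul a b ha hb =>
    simp only [E.two, Bool.and_eq_true] at h
    simp [ha h.1, hb h.2]
  | hor a i b ha hb =>
    simp only [E.two, Bool.and_eq_true, decide_eq_true_eq] at h
    obtain ⟨⟨h1', h2'⟩, h3⟩ := h
    interval_cases i <;> simp [ha h1', hb h3, h0, h1]

section
variable {R : Type*} [CommRing R] (v : ℕ → R)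

theorem ev_fl_two (e : E) (h : E.two e = true) : ev (fl v) e = ev v e :=
  ev_congr_two (fl_zero v) (fl_one v) e h

theorem ev_fl_F : ev (fl v) FE = ev v FE := by
  simp only [FE, ev_hor, ev_c, ev_fl_two v k0E (by decide), ev_fl_two v k2E (by decide), fl_two]
  push_cast; ring
theorem ev_fl_a : ev (fl v) aE = ev v aE := ev_fl_two v aE (by decide)
theorem ev_a : ev v aE = v 0 + 3 * v 1 := by simp [aE, mul_comm]
theorem ev_fl_lI : ev (fl v) lIE = - ev v lJE := by
  simp only [lIE, lJE, ev_quad, ev_c, ev_neg, ev_fl_two v l0E (by decide), fl_two]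
  push_cast; ring
theorem ev_fl_lJ : ev (fl v) lJE = - ev v lIE := by
  simp only [lIE, lJE, ev_quad, ev_c, ev_neg, ev_fl_two v l0E (by decide), fl_two]
  push_cast; ring
theorem ev_fl_M1 : ev (fl v) M1E = - ev v M3E := by
  simp only [M1E, M3E, ev_quad, ev_neg, ev_fl_two v m10E (by decide), ev_fl_two v m11E (by decide),
    ev_fl_two v m12E (by decide), ev_fl_two v m13E (by decide), fl_two]
  ring
theorem ev_fl_M2 : ev (fl v) M2E = - ev v M4E := by
  simp only [M2E, M4E, ev_quad, ev_neg, ev_fl_two v m20E (by decide), ev_fl_two v m21E (by decide),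
    ev_fl_two v m22E (by decide), ev_fl_two v m23E (by decide), fl_two]
  ring
theorem ev_fl_M3 : ev (fl v) M3E = - ev v M1E := by
  simp only [M1E, M3E, ev_quad, ev_neg, ev_fl_two v m10E (by decide), ev_fl_two v m11E (by decide),
    ev_fl_two v m12E (by decide), ev_fl_two v m13E (by decide), fl_two]
  ring
theorem ev_fl_M4 : ev (fl v) M4E = - ev v M2E := by
  simp only [M2E, M4E, ev_quad, ev_neg, ev_fl_two v m20E (by decide), ev_fl_two v m21E (by decide),
    ev_fl_two v m22E (by decide), ev_fl_two v m23E (by decide), fl_two]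
  ring
end

theorem Ctx.fl {v : ℕ → L} (h : Ctx v) : Ctx (fl v) where
  hF := by rw [ev_fl_F]; exact h.hF
  h1 := by rw [ev_fl_lI, ev_fl_M1, fl_three, ← h.h3]; ring
  h2 := by rw [ev_fl_lI, ev_fl_M2, fl_four, ← h.h4]; ring
  h3 := by rw [ev_fl_lJ, ev_fl_M3, fl_five, ← h.h1]; ring
  h4 := by rw [ev_fl_lJ, ev_fl_M4, fl_six, ← h.h2]; ring
  hI := by rw [ev_fl_lI]; exact neg_ne_zero.2 h.hJ
  hJ := by rw [ev_fl_lJ]; exact neg_ne_zero.2 h.hI
  h7 := fun i => by rw [fl_add_seven]; exact h.h7 i

end Crest.Agent.R278
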