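import Mathlib

/-!
# Row 278 (Zariski–Lipman counterexample): shared definitions

`L` is a field over `ℂ`, `S` a finite set generating `A₀ = ℂ[S]`, and `nA S` the integral closure
of `A₀` in `L`.  All local statements are phrased with valuation subrings `W` of `L`.
-/

set_option autoImplicit false

namespace Crest.Agent.R278

open Algebra

variable {L : Type} [Field L] [Algebra ℂ L]

/-- Fractions `p / q` with `p, q ∈ ℂ[S]` and `q` a unit of `W`. -/
def locAt (S : Set L) (W : ValuationSubring L) : Subalgebra ℂ L where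
  carrier := {z | ∃ p ∈ adjoin ℂ S, ∃ q ∈ adjoin ℂ S, W.valuation q = 1 ∧ q * z = p}
  mul_mem' := by
    rintro a b ⟨p, hp, q, hq, hq1, h⟩ ⟨p', hp', q', hq', hq1', h'⟩
    refine ⟨p * p', mul_mem hp hp', q * q', mul_mem hq hq', by simp [hq1, hq1'], ?_⟩
    rw [← h, ← h']; ring
  add_mem' := by
    rintro a b ⟨p, hp, q, hq, hq1, h⟩ ⟨p', hp', q', hq', hq1', h'⟩
    refine ⟨p * q' + p' * q, add_mem (mul_mem hp hq') (mul_mem hp' hq), q * q', mul_mem hq hq',
      by simp [hq1, hq1'], ?_⟩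
    rw [← h, ← h']; ring
  algebraMap_mem' := fun c => ⟨algebraMap ℂ L c, Subalgebra.algebraMap_mem _ c, 1, one_mem _,
    by simp, by simp⟩

theorem mem_locAt {S : Set L} {W : ValuationSubring L} {z : L} :
    z ∈ locAt S W ↔ ∃ p ∈ adjoin ℂ S, ∃ q ∈ adjoin ℂ S, W.valuation q = 1 ∧ q * z = p := Iff.rfl

theorem adjoin_le_locAt (S : Set L) (W : ValuationSubring L) : adjoin ℂ S ≤ locAt S W :=
  fun z hz => ⟨z, hz, 1, one_mem _, by simp, by simp⟩

/-- `L` is the fraction field of `ℂ[S]`. -/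
def IsFrac (S : Set L) : Prop :=
  ∀ z : L, ∃ p ∈ adjoin ℂ S, ∃ q ∈ adjoin ℂ S, q ≠ 0 ∧ q * z = p

/-- `W` contains `ℂ[S]`. -/
def Over (S : Set L) (W : ValuationSubring L) : Prop := ∀ z ∈ adjoin ℂ S, z ∈ W

/-- The centre of `W` on `ℂ[S]` is a closed point: every generator is a constant modulo the
maximal ideal of `W`. -/
def IsPt (S : Set L) (W : ValuationSubring L) : Prop :=
  ∀ s ∈ S, ∃ c : ℂ, W.valuation (s - algebraMap ℂ L c) < 1

/-- `x, t` is a transcendence basis of `L` over `ℂ`. -/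
def Tr2 (x t : L) : Prop :=
  AlgebraicIndependent ℂ ![x, t] ∧ ∀ z : L, IsAlgebraic (adjoin ℂ ({x, t} : Set L)) z

/-- The integral closure of `ℂ[S]` in `L`, as a `ℂ`-subalgebra. -/
def nA (S : Set L) : Subalgebra ℂ L := (integralClosure (adjoin ℂ S) L).restrictScalars ℂ

theorem mem_nA {S : Set L} {z : L} : z ∈ nA S ↔ IsIntegral (adjoin ℂ S) z := Iff.rfl

theorem adjoin_le_nA (S : Set L) : adjoin ℂ S ≤ nA S :=
  fun z hz => isIntegral_algebraMap (R := adjoin ℂ S) (A := L) (x := ⟨z, hz⟩)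

end Crest.Agent.R278
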