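import Crest.Agent.R278.Defs

/-!
# Integer polynomial expressions and their evaluation
-/

set_option autoImplicit false

namespace Crest.Agent.R278

/-- Polynomial expressions with integer constants; `hor a i b` is `a + xᵢ * b`. -/
inductive E : Type
  | c (n : ℤ) : E
  | x (i : ℕ) : E
  | add (a b : E) : E
  | mul (a b : E) : E
  | hor (a : E) (i : ℕ) (b : E) : E

namespace E

/-- Evaluation in a commutative ring. -/
def ev {R : Type*} [CommRing R] (v : ℕ → R) : E → R
  | c n => (n : R)
  | x i => v i
  | add a b => ev v a + ev v b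
  | mul a b => ev v a * ev v b
  | hor a i b => ev v a + v i * ev v b

def neg (a : E) : E := mul (c (-1)) a
def sub (a b : E) : E := add a (neg b)
def pow (a : E) : ℕ → E
  | 0 => c 1
  | n + 1 => mul a (pow a n)
/-- `p0 + p1 w + p2 w² + p3 w³` with `w = x 2`. -/
def quad (p0 p1 p2 p3 : E) : E := hor p0 2 (hor p1 2 (hor p2 2 p3))

section
variable {R : Type*} [CommRing R]

@[simp] theorem ev_c (v : ℕ → R) (n : ℤ) : ev v (c n) = (n : R) := rfl
@[simp] theorem ev_x (v : ℕ → R) (i : ℕ) : ev v (x i) = v i := rfl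
@[simp] theorem ev_add (v : ℕ → R) (a b : E) : ev v (add a b) = ev v a + ev v b := rfl
@[simp] theorem ev_mul (v : ℕ → R) (a b : E) : ev v (mul a b) = ev v a * ev v b := rfl
@[simp] theorem ev_hor (v : ℕ → R) (a b : E) (i : ℕ) :
    ev v (hor a i b) = ev v a + v i * ev v b := rfl
@[simp] theorem ev_neg (v : ℕ → R) (a : E) : ev v (neg a) = - ev v a := by simp [neg]
@[simp] theorem ev_sub (v : ℕ → R) (a b : E) : ev v (sub a b) = ev v a - ev v b := by
  simp [sub, sub_eq_add_neg]
@[simp] theorem ev_pow (v : ℕ → R) (a : E) (n : ℕ) : ev v (pow a n) = ev v a ^ n := by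
  induction n with
  | zero => simp [pow]
  | succ n ih => simp [pow, ih, pow_succ']
@[simp] theorem ev_quad (v : ℕ → R) (p0 p1 p2 p3 : E) : ev v (quad p0 p1 p2 p3) =
    ev v p0 + v 2 * (ev v p1 + v 2 * (ev v p2 + v 2 * ev v p3)) := rfl

theorem ev_mem {σ : Type*} [SetLike σ R] [SubringClass σ R] (S : σ) {v : ℕ → R}
    (hv : ∀ i, v i ∈ S) (e : E) : ev v e ∈ S := by
  induction e with
  | c n => exact intCast_mem S n
  | x i => exact hv i
  | add a b ha hb => exact add_mem ha hb
  | mul a b ha hb => exact mul_mem ha hb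
  | hor a i b ha hb => exact add_mem ha (mul_mem (hv i) hb)

theorem ev_map {R' F : Type*} [CommRing R'] [FunLike F R R'] [RingHomClass F R R'] (f : F)
    (v : ℕ → R) (e : E) : f (ev v e) = ev (fun i => f (v i)) e := by
  induction e with
  | c n => simp
  | x i => simp
  | add a b ha hb => simp [ha, hb]
  | mul a b ha hb => simp [ha, hb]
  | hor a i b ha hb => simp [ha, hb]

/-- Congruent arguments give congruent values modulo the maximal ideal of a valuation ring. -/
theorem ev_congr {L : Type*} [Field L] (W : ValuationSubring L) {v v' : ℕ → L}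
    (hv : ∀ i, v i ∈ W) (hv' : ∀ i, v' i ∈ W) (h : ∀ i, W.valuation (v i - v' i) < 1) (e : E) :
    W.valuation (ev v e - ev v' e) < 1 := by
  have key : ∀ a a' b b' : L, a ∈ W → b' ∈ W → W.valuation (a - a') < 1 →
      W.valuation (b - b') < 1 → W.valuation (a * b - a' * b') < 1 := by
    intro a a' b b' ha hb' h1 h2
    have : a * b - a' * b' = a * (b - b') + b' * (a - a') := by ring
    rw [this]
    refine Valuation.map_add_lt _ ?_ ?_ <;> rw [map_mul]
    · exact mul_lt_one_of_nonneg_of_lt_one_right ((W.valuation_le_one_iff _).2 ha) zero_le h2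
    · exact mul_lt_one_of_nonneg_of_lt_one_right ((W.valuation_le_one_iff _).2 hb') zero_le h1
  have key2 : ∀ a a' b b' : L, W.valuation (a - a') < 1 →
      W.valuation (b - b') < 1 → W.valuation (a + b - (a' + b')) < 1 := by
    intro a a' b b' h1 h2
    have : a + b - (a' + b') = (a - a') + (b - b') := by ring
    rw [this]
    exact Valuation.map_add_lt _ h1 h2
  induction e with
  | c n => simp
  | x i => exact h i
  | add a b ha hb => exact key2 _ _ _ _ ha hb
  | mul a b ha hb => exact key _ _ _ _ (ev_mem W hv a) (ev_mem W hv' b) ha hb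
  | hor a i b ha hb => exact key2 _ _ _ _ ha (key _ _ _ _ (hv i) (ev_mem W hv' b) (h i) hb)

end

/-! ### The involution `w ↦ -w`, `W₁ ↔ W₃`, `W₂ ↔ W₄` -/

def sw : ℕ → ℕ
  | 3 => 5
  | 4 => 6
  | 5 => 3
  | 6 => 4
  | i => i

def flip : E → E
  | c n => c n
  | x i => if i = 2 then neg (x 2) else x (sw i)
  | add a b => add (flip a) (flip b)
  | mul a b => mul (flip a) (flip b)
  | hor a i b => if i = 2 then hor (flip a) 2 (neg (flip b)) else hor (flip a) (sw i) (flip b)

/-- The involution on environments. -/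
def fl {R : Type*} [CommRing R] (v : ℕ → R) : ℕ → R := fun i => if i = 2 then - v 2 else v (sw i)

section
variable {R : Type*} [CommRing R]

@[simp] theorem fl_zero (v : ℕ → R) : fl v 0 = v 0 := rfl
@[simp] theorem fl_one (v : ℕ → R) : fl v 1 = v 1 := rfl
@[simp] theorem fl_two (v : ℕ → R) : fl v 2 = - v 2 := rfl
@[simp] theorem fl_three (v : ℕ → R) : fl v 3 = v 5 := rfl
@[simp] theorem fl_four (v : ℕ → R) : fl v 4 = v 6 := rfl
@[simp] theorem fl_five (v : ℕ → R) : fl v 5 = v 3 := rfl
@[simp] theorem fl_six (v : ℕ → R) : fl v 6 = v 4 := rfl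
theorem fl_add_seven (v : ℕ → R) (i : ℕ) : fl v (i + 7) = v (i + 7) := rfl

theorem fl_fl (v : ℕ → R) : fl (fl v) = v := by
  funext i
  rcases i with _ | _ | _ | _ | _ | _ | _ | i
  · rfl
  · rfl
  · simp
  · rfl
  · rfl
  · rfl
  · rfl
  · rfl

theorem ev_flip (v : ℕ → R) (e : E) : ev v (flip e) = ev (fl v) e := by
  induction e with
  | c n => rfl
  | x i => by_cases h : i = 2 <;> simp [flip, fl, h]
  | add a b ha hb => simp [flip, ha, hb]
  | mul a b ha hb => simp [flip, ha, hb]
  | hor a i b ha hb => by_cases h : i = 2 <;> simp [flip, fl, h, ha, hb]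

theorem fl_mem {σ : Type*} [SetLike σ R] [SubringClass σ R] (S : σ) {v : ℕ → R}
    (hv : ∀ i, v i ∈ S) (i : ℕ) : fl v i ∈ S := by
  unfold fl; split_ifs
  · exact neg_mem (hv 2)
  · exact hv _

end

/-! ### Partial derivatives -/

def pd (j : ℕ) : E → E
  | c _ => c 0
  | x i => if i = j then c 1 else c 0
  | add a b => add (pd j a) (pd j b)
  | mul a b => add (mul (pd j a) b) (mul a (pd j b))
  | hor a i b => if i = j then add b (hor (pd j a) i (pd j b)) else hor (pd j a) i (pd j b)

/-- Only the variables `0, 1, 2` occur. -/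
def three : E → Bool
  | c _ => true
  | x i => decide (i < 3)
  | add a b => three a && three b
  | mul a b => three a && three b
  | hor a i b => three a && decide (i < 3) && three b

theorem deriv_ev {K R : Type*} [CommRing K] [CommRing R] [Algebra K R] (D : Derivation K R R)
    (v : ℕ → R) (e : E) (h : three e = true) :
    D (ev v e) = ev v (pd 0 e) * D (v 0) + ev v (pd 1 e) * D (v 1) + ev v (pd 2 e) * D (v 2) := by
  induction e with
  | c n => simp [pd]
  | x i =>
    simp only [three, decide_eq_true_eq] at h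
    interval_cases i <;> simp [pd]
  | add a b ha hb =>
    simp only [three, Bool.and_eq_true] at h
    simp only [ev_add, map_add, pd, ha h.1, hb h.2]; ring
  | mul a b ha hb =>
    simp only [three, Bool.and_eq_true] at h
    simp only [ev_mul, Derivation.leibniz, pd, ev_add, ha h.1, hb h.2, smul_eq_mul]; ring
  | hor a i b ha hb =>
    simp only [three, Bool.and_eq_true, decide_eq_true_eq] at h
    obtain ⟨⟨h1, h2⟩, h3⟩ := h
    interval_cases i <;>
      simp [pd, Derivation.leibniz, ha h1, hb h3] <;> ring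

theorem ev_congr_three {R : Type*} [CommRing R] {v v' : ℕ → R} (h0 : v 0 = v' 0)
    (h1 : v 1 = v' 1) (h2 : v 2 = v' 2) (e : E) (h : three e = true) : ev v e = ev v' e := by
  induction e with
  | c n => rfl
  | x i =>
    simp only [three, decide_eq_true_eq] at h
    interval_cases i <;> simp [h0, h1, h2]
  | add a b ha hb =>
    simp only [three, Bool.and_eq_true] at h
    simp [ha h.1, hb h.2]
  | mul a b ha hb =>
    simp only [three, Bool.and_eq_true] at h
    simp [ha h.1, hb h.2]
  | hor a i b ha hb =>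
    simp only [three, Bool.and_eq_true, decide_eq_true_eq] at h
    obtain ⟨⟨h1', h2'⟩, h3⟩ := h
    interval_cases i <;> simp [ha h1', hb h3, h0, h1, h2]

/-! ### Weighted order: weights `4, 5, 5, 11, 11, 11, 11` -/

def wt : ℕ → ℕ
  | 0 => 4
  | 1 => 5
  | 2 => 5
  | _ => 11

/-- Every monomial has weight at least `N` (and only the variables `< 7` occur). -/
def wtGE : ℕ → E → Bool
  | N, c n => decide (N = 0) || decide (n = 0)
  | N, x i => decide (i < 7) && decide (N ≤ wt i)
  | N, add a b => wtGE N a && wtGE N b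
  | N, mul a b => wtGE 0 a && wtGE N b
  | N, hor a i b => wtGE N a && decide (i < 7) && wtGE (N - wt i) b

/-- `e / t ^ N` in the rescaled variables; `t` is the variable `7`. -/
def hat : ℕ → E → E
  | _, c n => c n
  | N, x i => mul (pow (x 7) (wt i - N)) (x i)
  | N, add a b => add (hat N a) (hat N b)
  | N, mul a b => mul (hat 0 a) (hat N b)
  | N, hor a i b => hor (hat N a) i (mul (pow (x 7) (wt i - N)) (hat (N - wt i) b))

theorem ev_hat {R : Type*} [CommRing R] {v vh : ℕ → R}
    (hv : ∀ i < 7, v i = vh 7 ^ wt i * vh i) (e : E) (N : ℕ) (h : wtGE N e = true) :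
    ev v e = vh 7 ^ N * ev vh (hat N e) := by
  induction e generalizing N with
  | c n =>
    simp only [wtGE, Bool.or_eq_true, decide_eq_true_eq] at h
    rcases h with rfl | rfl <;> simp [hat]
  | x i =>
    simp only [wtGE, Bool.and_eq_true, decide_eq_true_eq] at h
    simp only [hat, ev_x, ev_mul, ev_pow, hv i h.1]
    rw [← mul_assoc, ← pow_add, Nat.add_sub_cancel' h.2]
  | add a b ha hb =>
    simp only [wtGE, Bool.and_eq_true] at h
    simp only [hat, ev_add, ha _ h.1, hb _ h.2]; ring
  | mul a b ha hb =>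
    simp only [wtGE, Bool.and_eq_true] at h
    simp only [hat, ev_mul, ha _ h.1, hb _ h.2]; ring
  | hor a i b ha hb =>
    simp only [wtGE, Bool.and_eq_true, decide_eq_true_eq] at h
    obtain ⟨⟨h1, h2⟩, h3⟩ := h
    simp only [hat, ev_hor, ev_mul, ev_pow, ev_x, ha _ h1, hb _ h3, hv i h2]
    have : vh 7 ^ wt i * vh 7 ^ (N - wt i) = vh 7 ^ N * vh 7 ^ (wt i - N) := by
      rw [← pow_add, ← pow_add]; congr 1; omega
    linear_combination (vh i * ev vh (hat (N - wt i) b)) * this

end E

end Crest.Agent.R278
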