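import Crest.Agent.R278.Model

/-!
# The generators in the rescaled coordinates at the place `V`
-/

set_option autoImplicit false

namespace Crest.Agent.R278

open Algebra E

variable {L : Type} [Field L] [Algebra ℂ L]

/-- Rescaled `A, u, w` (variables `0, 1, 2`) and `t` (variable `7`). -/
def hat3 (x t α : L) : ℕ → L
  | 0 => α
  | 1 => α
  | 2 => α * x
  | 7 => t
  | _ => 0

/-- All rescaled generators. -/
def hat7 (x t α : L) : ℕ → L
  | 0 => α
  | 1 => α
  | 2 => α * x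
  | 3 => mkEnv x t α 3 / t ^ 11
  | 4 => mkEnv x t α 4 / t ^ 11
  | 5 => mkEnv x t α 5 / t ^ 11
  | 6 => mkEnv x t α 6 / t ^ 11
  | 7 => t
  | _ => 0

omit [Algebra ℂ L] in
theorem hat_ne {W : ValuationSubring L} {y : L} (h : W.valuation y = 1) : y ≠ 0 := fun h0 => by
  rw [h0, map_zero] at h; exact zero_ne_one h

omit [Algebra ℂ L] in
theorem hat_mul_lt {W : ValuationSubring L} {y z : L} (hy : y ∈ W) (hz : W.valuation z < 1) :
    W.valuation (y * z) < 1 := by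
  rw [map_mul]
  exact mul_lt_one_of_nonneg_of_lt_one_right ((W.valuation_le_one_iff _).2 hy) zero_le hz

theorem hat_ev_res {S : Set L} {W : ValuationSubring L} (hW : Over S W) {v : ℕ → L}
    (hv : ∀ i, v i ∈ W) {q : ℕ → ℚ} (hq : ∀ i, W.valuation (v i - algebraMap ℂ L (q i : ℂ)) < 1)
    (e : E) : W.valuation (ev v e - algebraMap ℂ L ((ev q e : ℚ) : ℂ)) < 1 := by
  have h := ev_congr W hv (fun i => hW.algebraMap_mem _) hq e
  have h2 := ev_map ((algebraMap ℂ L).comp (Rat.castHom ℂ)) q e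
  exact (show algebraMap ℂ L ((ev q e : ℚ) : ℂ) = _ from h2) ▸ h

theorem hat_div_res {S : Set L} {W : ValuationSubring L} (hW : Over S W) {v : ℕ → L}
    (hv : ∀ i, v i ∈ W) {q : ℕ → ℚ} (hq : ∀ i, W.valuation (v i - algebraMap ℂ L (q i : ℂ)) < 1)
    (e n : E) (he : ev q e ≠ 0) {y : L} (hy : ev v e * y = ev v n) :
    W.valuation (y - algebraMap ℂ L ((ev q n / ev q e : ℚ) : ℂ)) < 1 := by
  have h1 := unit_of_rat hW hv hq e he
  have h2 := hat_ev_res hW hv hq e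
  have h3 := hat_ev_res hW hv hq n
  have h4 : algebraMap ℂ L ((ev q e : ℚ) : ℂ) * algebraMap ℂ L ((ev q n / ev q e : ℚ) : ℂ) =
      algebraMap ℂ L ((ev q n : ℚ) : ℂ) := by
    rw [← map_mul, ← Rat.cast_mul, mul_div_cancel₀ _ he]
  have h5 : ev v e * (y - algebraMap ℂ L ((ev q n / ev q e : ℚ) : ℂ)) =
      (ev v n - algebraMap ℂ L ((ev q n : ℚ) : ℂ)) - algebraMap ℂ L ((ev q n / ev q e : ℚ) : ℂ) *
        (ev v e - algebraMap ℂ L ((ev q e : ℚ) : ℂ)) := by
    linear_combination hy - h4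
  have h6 := Valuation.map_sub_lt _ h3 (hat_mul_lt (hW.algebraMap_mem ((ev q n / ev q e : ℚ) : ℂ)) h2)
  rwa [← h5, map_mul, h1, one_mul] at h6

theorem hat_fl_res {W : ValuationSubring L} {v : ℕ → L} {q : ℕ → ℚ}
    (hq : ∀ i, W.valuation (v i - algebraMap ℂ L (q i : ℂ)) < 1) (i : ℕ) :
    W.valuation (fl v i - algebraMap ℂ L (fl q i : ℚ)) < 1 := by
  unfold fl
  split_ifs
  · rw [Rat.cast_neg, map_neg, neg_sub_neg, Valuation.map_sub_swap]; exact hq 2
  · exact hq _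

omit [Algebra ℂ L] in
theorem hat_fl_wt {v vh : ℕ → L} (hv : ∀ i < 7, v i = vh 7 ^ wt i * vh i) :
    ∀ i < 7, fl v i = fl vh 7 ^ wt i * fl vh i := by
  intro i hi
  interval_cases i
  · exact hv 0 (by norm_num)
  · exact hv 1 (by norm_num)
  · rw [fl_two, fl_two, hv 2 (by norm_num), mul_neg]; rfl
  · exact hv 5 (by norm_num)
  · exact hv 6 (by norm_num)
  · exact hv 3 (by norm_num)
  · exact hv 4 (by norm_num)

variable {x t α r : L} {V : ValuationSubring L}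

/-- `AlgebraicIndependent.ne_zero`. -/
theorem Model.t_ne (h : Model x t α r V) : t ≠ 0 :=
  h.tr.1.ne_zero 1

/-- `val_eq_one_of_sub`, `val_algebraMap`, `num_α₀`. -/
theorem Model.val_α (h : Model x t α r V) : V.valuation α = 1 :=
  val_eq_one_of_sub (val_algebraMap h.ov (Rat.cast_ne_zero.2 num_α₀)) h.hα

theorem Model.hat3_mem (h : Model x t α r V) (i : ℕ) : hat3 x t α i ∈ V := by
  have hx : x ∈ V := h.ov x (subset_adjoin (by simp))
  have ht : t ∈ V := h.ov t (subset_adjoin (by simp))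
  have hα : α ∈ V := h.ov α (subset_adjoin (by simp))
  rcases i with _ | _ | _ | _ | _ | _ | _ | _ | i
  exacts [hα, hα, mul_mem hα hx, zero_mem V, zero_mem V, zero_mem V, zero_mem V, ht, zero_mem V]

theorem Model.hat3_res (h : Model x t α r V) (i : ℕ) :
    V.valuation (hat3 x t α i - algebraMap ℂ L (q3 i : ℂ)) < 1 := by
  have h0 : V.valuation ((0 : L) - algebraMap ℂ L ((0 : ℚ) : ℂ)) < 1 := by simp
  rcases i with _ | _ | _ | _ | _ | _ | _ | _ | i
  · exact h.hα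
  · exact h.hα
  · change V.valuation (α * x - algebraMap ℂ L (α₀ : ℂ)) < 1
    rw [show α * x - algebraMap ℂ L (α₀ : ℂ) = α * (x - 1) + (α - algebraMap ℂ L (α₀ : ℂ)) by ring]
    exact Valuation.map_add_lt _ (hat_mul_lt (h.hat3_mem 0) h.hx) h.hα
  · exact h0
  · exact h0
  · exact h0
  · exact h0
  · change V.valuation (t - algebraMap ℂ L ((0 : ℚ) : ℂ)) < 1
    simpa using h.ht
  · exact h0

omit [Algebra ℂ L] in
theorem base_eq_hat3 (x t α : L) : ∀ i < 7, base x t α i = hat3 x t α 7 ^ wt i * hat3 x t α i := by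
  intro i hi
  interval_cases i
  · rfl
  · rfl
  · rfl
  all_goals exact (mul_zero _).symm

omit [Algebra ℂ L] in
theorem hat_ev_mkEnv (x t α : L) (e : E) (N : ℕ) (h3 : three e = true) (hw : wtGE N e = true) :
    ev (mkEnv x t α) e = t ^ N * ev (hat3 x t α) (hat N e) :=
  (ev_congr_three (v := mkEnv x t α) (v' := base x t α) rfl rfl rfl e h3).trans
    (ev_hat (base_eq_hat3 x t α) e N hw)

omit [Algebra ℂ L] in
theorem hat_ev_fl (x t α : L) (e : E) (N : ℕ) (h3 : three e = true) (hw : wtGE N e = true) :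
    ev (fl (mkEnv x t α)) e = t ^ N * ev (fl (hat3 x t α)) (hat N e) :=
  (ev_congr_three (v := fl (mkEnv x t α)) (v' := fl (base x t α)) rfl rfl rfl e h3).trans
    (ev_hat (hat_fl_wt (base_eq_hat3 x t α)) e N hw)

theorem Model.mkEnv_eq_hat7 (h : Model x t α r V) :
    ∀ i < 7, mkEnv x t α i = hat7 x t α 7 ^ wt i * hat7 x t α i := by
  intro i hi
  interval_cases i
  · rfl
  · rfl
  · rfl
  all_goals exact (mul_div_cancel₀ _ (pow_ne_zero 11 h.t_ne)).symm

/-- `ev (base x t α) FE = t ^ 20 * α ^ 4 * ev (env3 x t α) PhE` (`simp [FE, k0E, k2E, PhE, …]; ring`);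
`ev (base x t α) lIE = t ^ 4 * ev (hat3 x t α) (hat 4 lIE)` (`E.ev_hat`, `wt_lI`) is nonzero by
`unit_of_rat`, `num_lI`; expressions in three variables have the same value at `mkEnv` and at
`base` (`E.ev_congr_three`). -/
theorem Model.ctx (h : Model x t α r V) : Ctx (mkEnv x t α) := by
  have hb : ∀ e, three e = true → ev (mkEnv x t α) e = ev (base x t α) e :=
    ev_congr_three rfl rfl rfl
  have hI : ev (mkEnv x t α) lIE ≠ 0 := by
    rw [hat_ev_mkEnv x t α lIE 4 (by decide) wt_lI]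
    exact mul_ne_zero (pow_ne_zero _ h.t_ne)
      (hat_ne (unit_of_rat h.ov h.hat3_mem h.hat3_res _ num_lI))
  have hJ : ev (mkEnv x t α) lJE ≠ 0 := by
    rw [hat_ev_mkEnv x t α lJE 4 (by decide) wt_lJ]
    exact mul_ne_zero (pow_ne_zero _ h.t_ne)
      (hat_ne (unit_of_rat h.ov h.hat3_mem h.hat3_res _ num_lJ))
  have hI' := hI
  have hJ' := hJ
  rw [hb lIE (by decide)] at hI'
  rw [hb lJE (by decide)] at hJ'
  refine ⟨?_, ?_, ?_, ?_, ?_, hI, hJ, fun i => rfl⟩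
  · have : ev (base x t α) FE = t ^ 20 * α ^ 4 * ev (env3 x t α) PhE := by
      simp only [FE, k0E, k2E, PhE, base, env3, ev_hor, ev_c, Int.ofNat_eq_natCast,
        Int.cast_negSucc]
      push_cast
      ring
    rw [hb FE (by decide), this, h.hP, mul_zero]
  · rw [hb lIE (by decide), hb M1E (by decide)]; exact mul_div_cancel₀ _ hI'
  · rw [hb lIE (by decide), hb M2E (by decide)]; exact mul_div_cancel₀ _ hI'
  · rw [hb lJE (by decide), hb M3E (by decide)]; exact mul_div_cancel₀ _ hJ'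
  · rw [hb lJE (by decide), hb M4E (by decide)]; exact mul_div_cancel₀ _ hJ'

/-- `EuE` at `base` is `t ^ 20` times a unit (`wt_Eu`, `num_Eu`, `num_Eu'`; for the second
statement use `fl (hat3 x t α)` and `fl q3`). -/
theorem Model.eu_ne (h : Model x t α r V) :
    ev (mkEnv x t α) EuE ≠ 0 ∧ ev (fl (mkEnv x t α)) EuE ≠ 0 := by
  rw [hat_ev_mkEnv x t α EuE 20 (by decide) wt_Eu, hat_ev_fl x t α EuE 20 (by decide) wt_Eu]
  exact ⟨mul_ne_zero (pow_ne_zero _ h.t_ne)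
      (hat_ne (unit_of_rat h.ov h.hat3_mem h.hat3_res _ num_Eu)),
    mul_ne_zero (pow_ne_zero _ h.t_ne)
      (hat_ne (unit_of_rat h.ov (fl_mem V h.hat3_mem) (hat_fl_res h.hat3_res) _ num_Eu'))⟩

/-- From `id_N1`, `id_N2` (for `mkEnv` and for its flip) and `E.ev_hat`:
`η̂ * Ŵ₁ = N̂₁` etc. after cancelling `t ^ 20`. -/
theorem Model.hat_W (h : Model x t α r V) :
    ev (hat3 x t α) (hat 9 etaE) * hat7 x t α 3 = ev (hat3 x t α) (hat 20 N1E) ∧
    ev (hat3 x t α) (hat 9 etaE) * hat7 x t α 4 = ev (hat3 x t α) (hat 20 N2E) ∧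
    ev (fl (hat3 x t α)) (hat 9 etaE) * hat7 x t α 5 = ev (fl (hat3 x t α)) (hat 20 N1E) ∧
    ev (fl (hat3 x t α)) (hat 9 etaE) * hat7 x t α 6 = ev (fl (hat3 x t α)) (hat 20 N2E) := by
  have a1 := id_N1 h.ctx
  have a2 := id_N2 h.ctx
  have a3 := id_N1 h.ctx.fl
  have a4 := id_N2 h.ctx.fl
  rw [hat_ev_mkEnv x t α etaE 9 (by decide) wt_eta, h.mkEnv_eq_hat7 3 (by norm_num),
    hat_ev_mkEnv x t α N1E 20 (by decide +kernel) wt_N1] at a1
  rw [hat_ev_mkEnv x t α etaE 9 (by decide) wt_eta, h.mkEnv_eq_hat7 4 (by norm_num),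
    hat_ev_mkEnv x t α N2E 20 (by decide +kernel) wt_N2] at a2
  rw [hat_ev_fl x t α etaE 9 (by decide) wt_eta, fl_three, h.mkEnv_eq_hat7 5 (by norm_num),
    hat_ev_fl x t α N1E 20 (by decide +kernel) wt_N1] at a3
  rw [hat_ev_fl x t α etaE 9 (by decide) wt_eta, fl_four, h.mkEnv_eq_hat7 6 (by norm_num),
    hat_ev_fl x t α N2E 20 (by decide +kernel) wt_N2] at a4
  have key : ∀ a b d : L, t ^ 9 * a * (t ^ 11 * b) = t ^ 20 * d → a * b = d := fun a b d e =>
    mul_left_cancel₀ (pow_ne_zero 20 h.t_ne) (by linear_combination e)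
  exact ⟨key _ _ _ a1, key _ _ _ a2, key _ _ _ a3, key _ _ _ a4⟩

/-- `η̂` is a unit (`unit_of_rat`, `num_eta`, `num_eta'`), so `gd_inv` and `Model.hat_W` apply. -/
theorem Model.hat7_gd (h : Model x t α r V) {S : Set L} {D₁ D₂ : Derivation ℂ L L}
    (hx : x ∈ Gd (locAt S V) D₁ D₂) (ht : t ∈ Gd (locAt S V) D₁ D₂)
    (hα : α ∈ Gd (locAt S V) D₁ D₂) (i : ℕ) : hat7 x t α i ∈ Gd (locAt S V) D₁ D₂ := by
  have h3 : ∀ i, hat3 x t α i ∈ Gd (locAt S V) D₁ D₂ := fun i => by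
    rcases i with _ | _ | _ | _ | _ | _ | _ | _ | i
    exacts [hα, hα, mul_mem hα hx, zero_mem _, zero_mem _, zero_mem _, zero_mem _, ht, zero_mem _]
  have key : ∀ (w : ℕ → L) (n : E) (y : L), (∀ i, w i ∈ Gd (locAt S V) D₁ D₂) →
      V.valuation (ev w (hat 9 etaE)) = 1 → ev w (hat 9 etaE) * y = ev w n →
      y ∈ Gd (locAt S V) D₁ D₂ := by
    intro w n y hw h1 hy
    rw [(eq_inv_mul_iff_mul_eq₀ (hat_ne h1)).2 hy]
    exact mul_mem (gd_inv (ev_mem _ hw _) h1) (ev_mem _ hw _)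
  have u1 := unit_of_rat h.ov h.hat3_mem h.hat3_res _ num_eta
  have u2 := unit_of_rat h.ov (fl_mem V h.hat3_mem) (hat_fl_res h.hat3_res) _ num_eta'
  obtain ⟨a1, a2, a3, a4⟩ := h.hat_W
  rcases i with _ | _ | _ | _ | _ | _ | _ | _ | i
  exacts [hα, hα, mul_mem hα hx, key _ _ _ h3 u1 a1, key _ _ _ h3 u1 a2,
    key _ _ _ (fl_mem _ h3) u2 a3, key _ _ _ (fl_mem _ h3) u2 a4, ht, zero_mem _]

/-- `Model.hat7_gd` with `D₁ = D₂ = 0`, `S = {x, t, α}` and `locAt_le`. -/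
theorem Model.hat7_mem (h : Model x t α r V) (i : ℕ) : hat7 x t α i ∈ V := by
  have g : ∀ y ∈ ({x, t, α} : Set L), y ∈ Gd (locAt ({x, t, α} : Set L) V) 0 0 := fun y hy =>
    ⟨adjoin_le_locAt _ _ (subset_adjoin hy), zero_mem _, zero_mem _⟩
  exact locAt_le h.ov _ (h.hat7_gd (g x (by simp)) (g t (by simp)) (g α (by simp)) i).1

/-- `η̂ * (Ŵ - n / e) = (N̂ - n) - (η̂ - e) * (n / e)` with `n, e` the rational values
(`E.ev_congr`, `E.ev_map`). -/
theorem Model.hat7_res (h : Model x t α r V) (i : ℕ) :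
    V.valuation (hat7 x t α i - algebraMap ℂ L (q7 i : ℂ)) < 1 := by
  obtain ⟨a1, a2, a3, a4⟩ := h.hat_W
  rcases i with _ | _ | _ | _ | _ | _ | _ | _ | i
  exacts [h.hat3_res 0, h.hat3_res 1, h.hat3_res 2,
    hat_div_res h.ov h.hat3_mem h.hat3_res _ _ num_eta a1,
    hat_div_res h.ov h.hat3_mem h.hat3_res _ _ num_eta a2,
    hat_div_res h.ov (fl_mem V h.hat3_mem) (hat_fl_res h.hat3_res) _ _ num_eta' a3,
    hat_div_res h.ov (fl_mem V h.hat3_mem) (hat_fl_res h.hat3_res) _ _ num_eta' a4,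
    h.hat3_res 7, h.hat3_res 8]

/-- `E.ev_hat` with `wt_g`. -/
theorem Model.r_pow (h : Model x t α r V) : r ^ 11 = ev (hat7 x t α) (hat 22 gE) := by
  rw [h.hr, ev_hat h.mkEnv_eq_hat7 gE 22 wt_g]
  exact mul_div_cancel_left₀ _ (pow_ne_zero 22 h.t_ne)

/-- `unit_of_rat`, `num_ghat`. -/
theorem Model.val_r (h : Model x t α r V) : V.valuation r = 1 := by
  have h1 := unit_of_rat h.ov h.hat7_mem h.hat7_res _ num_ghat
  rw [← h.r_pow, map_pow] at h1
  rcases lt_trichotomy (V.valuation r) 1 with h2 | h2 | h2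
  · exact absurd h1 (pow_lt_one₀ zero_le h2 (by norm_num)).ne
  · exact h2
  · exact absurd h1 (one_lt_pow₀ h2 (by norm_num)).ne'

theorem Model.over4 (h : Model x t α r V) : Over ({r, x, t, α} : Set L) V := by
  refine over_of_mem h.ov.algebraMap_mem fun s hs => ?_
  rcases hs with rfl | hs
  · exact (V.valuation_le_one_iff _).1 h.val_r.le
  · exact h.ov s (subset_adjoin hs)

/-- `mkEnv i = t ^ wt i * hat7 i`. -/
theorem Model.val_mkEnv (h : Model x t α r V) (i : ℕ) : V.valuation (mkEnv x t α i) < 1 := by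
  by_cases hi : i < 7
  · have hw : wt i = (wt i - 1) + 1 := by interval_cases i <;> rfl
    rw [h.mkEnv_eq_hat7 i hi, hw, pow_succ, mul_right_comm]
    exact hat_mul_lt (mul_mem (pow_mem (h.hat7_mem 7) _) (h.hat7_mem i)) h.ht
  · obtain ⟨j, rfl⟩ : ∃ j, i = j + 7 := ⟨i - 7, by omega⟩
    rw [h.ctx.h7, map_zero]; exact zero_lt_one

/-- `unit_of_rat` with `q = 0`, `num_H`. -/
theorem Model.val_H (h : Model x t α r V) :
    V.valuation (ev (mkEnv x t α) (mul hE epsE)) = 1 :=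
  unit_of_rat h.ov (fun i => (V.valuation_le_one_iff _).1 (h.val_mkEnv i).le)
    (q := fun _ => 0) (fun i => by simpa using h.val_mkEnv i) _ num_H

end Crest.Agent.R278
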