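import Crest.Agent.R278.IdDefs

/-! Kernel evaluation of the test. -/

set_option autoImplicit false

namespace Crest.Agent.R278

theorem eF_B : chkB eF 15 1847 = true := by decide +kernel
theorem eF_V0 : chkR eF 1847 0 10 = true := by decide +kernel
theorem eF_V10 : chkR eF 1847 10 6 = true := by decide +kernel
theorem eF_ok {L : Type} [Field L] {v : ℕ → L} (hc : Ctx v) : E.ev v eF = 0 :=
  check_sound hc _ 15 1847 eF_B
    (chkR_append (m := 10) (n := 6) eF_V0 eF_V10)

theorem eW1_B : chkB eW1 14 1787 = true := by decide +kernel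
theorem eW1_V0 : chkR eW1 1787 0 10 = true := by decide +kernel
theorem eW1_V10 : chkR eW1 1787 10 5 = true := by decide +kernel
theorem eW1_ok {L : Type} [Field L] {v : ℕ → L} (hc : Ctx v) : E.ev v eW1 = 0 :=
  check_sound hc _ 14 1787 eW1_B
    (chkR_append (m := 10) (n := 5) eW1_V0 eW1_V10)

theorem eW2_B : chkB eW2 14 1774 = true := by decide +kernel
theorem eW2_V0 : chkR eW2 1774 0 10 = true := by decide +kernel
theorem eW2_V10 : chkR eW2 1774 10 5 = true := by decide +kernel
theorem eW2_ok {L : Type} [Field L] {v : ℕ → L} (hc : Ctx v) : E.ev v eW2 = 0 :=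
  check_sound hc _ 14 1774 eW2_B
    (chkR_append (m := 10) (n := 5) eW2_V0 eW2_V10)

theorem eW3_B : chkB eW3 16 1880 = true := by decide +kernel
theorem eW3_V0 : chkR eW3 1880 0 10 = true := by decide +kernel
theorem eW3_V10 : chkR eW3 1880 10 7 = true := by decide +kernel
theorem eW3_ok {L : Type} [Field L] {v : ℕ → L} (hc : Ctx v) : E.ev v eW3 = 0 :=
  check_sound hc _ 16 1880 eW3_B
    (chkR_append (m := 10) (n := 7) eW3_V0 eW3_V10)

theorem eW4_B : chkB eW4 16 1867 = true := by decide +kernel
theorem eW4_V0 : chkR eW4 1867 0 10 = true := by decide +kernel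
theorem eW4_V10 : chkR eW4 1867 10 7 = true := by decide +kernel
theorem eW4_ok {L : Type} [Field L] {v : ℕ → L} (hc : Ctx v) : E.ev v eW4 = 0 :=
  check_sound hc _ 16 1867 eW4_B
    (chkR_append (m := 10) (n := 7) eW4_V0 eW4_V10)

end Crest.Agent.R278
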