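import Crest.Agent.R278.IdDefs

/-! Kernel evaluation of the test. -/

set_option autoImplicit false

namespace Crest.Agent.R278

theorem eK_0_B : chkB (eK 0) 12 1730 = true := by decide +kernel
theorem eK_0_V0 : chkR (eK 0) 1730 0 10 = true := by decide +kernel
theorem eK_0_V10 : chkR (eK 0) 1730 10 3 = true := by decide +kernel
theorem eK_0_ok {L : Type} [Field L] {v : ℕ → L} (hc : Ctx v) : E.ev v (eK 0) = 0 :=
  check_sound hc _ 12 1730 eK_0_B
    (chkR_append (m := 10) (n := 3) eK_0_V0 eK_0_V10)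

theorem eK_1_B : chkB (eK 1) 12 1729 = true := by decide +kernel
theorem eK_1_V0 : chkR (eK 1) 1729 0 10 = true := by decide +kernel
theorem eK_1_V10 : chkR (eK 1) 1729 10 3 = true := by decide +kernel
theorem eK_1_ok {L : Type} [Field L] {v : ℕ → L} (hc : Ctx v) : E.ev v (eK 1) = 0 :=
  check_sound hc _ 12 1729 eK_1_B
    (chkR_append (m := 10) (n := 3) eK_1_V0 eK_1_V10)

theorem eK_2_B : chkB (eK 2) 12 1736 = true := by decide +kernel
theorem eK_2_V0 : chkR (eK 2) 1736 0 10 = true := by decide +kernel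
theorem eK_2_V10 : chkR (eK 2) 1736 10 3 = true := by decide +kernel
theorem eK_2_ok {L : Type} [Field L] {v : ℕ → L} (hc : Ctx v) : E.ev v (eK 2) = 0 :=
  check_sound hc _ 12 1736 eK_2_B
    (chkR_append (m := 10) (n := 3) eK_2_V0 eK_2_V10)

theorem eK_3_B : chkB (eK 3) 18 1982 = true := by decide +kernel
theorem eK_3_V0 : chkR (eK 3) 1982 0 10 = true := by decide +kernel
theorem eK_3_V10 : chkR (eK 3) 1982 10 9 = true := by decide +kernel
theorem eK_3_ok {L : Type} [Field L] {v : ℕ → L} (hc : Ctx v) : E.ev v (eK 3) = 0 :=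
  check_sound hc _ 18 1982 eK_3_B
    (chkR_append (m := 10) (n := 9) eK_3_V0 eK_3_V10)

end Crest.Agent.R278
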