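import Crest.Agent.R278.IdDefs

/-! Kernel evaluation of the test. -/

set_option autoImplicit false

namespace Crest.Agent.R278

theorem eK_4_B : chkB (eK 4) 18 1970 = true := by decide +kernel
theorem eK_4_V0 : chkR (eK 4) 1970 0 10 = true := by decide +kernel
theorem eK_4_V10 : chkR (eK 4) 1970 10 9 = true := by decide +kernel
theorem eK_4_ok {L : Type} [Field L] {v : ℕ → L} (hc : Ctx v) : E.ev v (eK 4) = 0 :=
  check_sound hc _ 18 1970 eK_4_B
    (chkR_append (m := 10) (n := 9) eK_4_V0 eK_4_V10)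

theorem eK_5_B : chkB (eK 5) 17 1958 = true := by decide +kernel
theorem eK_5_V0 : chkR (eK 5) 1958 0 10 = true := by decide +kernel
theorem eK_5_V10 : chkR (eK 5) 1958 10 8 = true := by decide +kernel
theorem eK_5_ok {L : Type} [Field L] {v : ℕ → L} (hc : Ctx v) : E.ev v (eK 5) = 0 :=
  check_sound hc _ 17 1958 eK_5_B
    (chkR_append (m := 10) (n := 8) eK_5_V0 eK_5_V10)

theorem eK_6_B : chkB (eK 6) 17 1946 = true := by decide +kernel
theorem eK_6_V0 : chkR (eK 6) 1946 0 10 = true := by decide +kernel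
theorem eK_6_V10 : chkR (eK 6) 1946 10 8 = true := by decide +kernel
theorem eK_6_ok {L : Type} [Field L] {v : ℕ → L} (hc : Ctx v) : E.ev v (eK 6) = 0 :=
  check_sound hc _ 17 1946 eK_6_B
    (chkR_append (m := 10) (n := 8) eK_6_V0 eK_6_V10)

end Crest.Agent.R278
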