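import Crest.Agent.R278.IdDefs

/-! Kernel evaluation of the test. -/

set_option autoImplicit false

namespace Crest.Agent.R278

theorem eE_0_1_2_B : chkB (eE 0 1 2) 19 3224 = true := by decide +kernel
theorem eE_0_1_2_V0 : chkR (eE 0 1 2) 3224 0 10 = true := by decide +kernel
theorem eE_0_1_2_V10 : chkR (eE 0 1 2) 3224 10 10 = true := by decide +kernel
theorem eE_0_1_2_ok {L : Type} [Field L] {v : ℕ → L} (hc : Ctx v) : E.ev v (eE 0 1 2) = 0 :=
  check_sound hc _ 19 3224 eE_0_1_2_B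
    (chkR_append (m := 10) (n := 10) eE_0_1_2_V0 eE_0_1_2_V10)

theorem eE_1_2_0_B : chkB (eE 1 2 0) 19 3231 = true := by decide +kernel
theorem eE_1_2_0_V0 : chkR (eE 1 2 0) 3231 0 10 = true := by decide +kernel
theorem eE_1_2_0_V10 : chkR (eE 1 2 0) 3231 10 10 = true := by decide +kernel
theorem eE_1_2_0_ok {L : Type} [Field L] {v : ℕ → L} (hc : Ctx v) : E.ev v (eE 1 2 0) = 0 :=
  check_sound hc _ 19 3231 eE_1_2_0_B
    (chkR_append (m := 10) (n := 10) eE_1_2_0_V0 eE_1_2_0_V10)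

theorem eE_2_0_1_B : chkB (eE 2 0 1) 19 3231 = true := by decide +kernel
theorem eE_2_0_1_V0 : chkR (eE 2 0 1) 3231 0 10 = true := by decide +kernel
theorem eE_2_0_1_V10 : chkR (eE 2 0 1) 3231 10 10 = true := by decide +kernel
theorem eE_2_0_1_ok {L : Type} [Field L] {v : ℕ → L} (hc : Ctx v) : E.ev v (eE 2 0 1) = 0 :=
  check_sound hc _ 19 3231 eE_2_0_1_B
    (chkR_append (m := 10) (n := 10) eE_2_0_1_V0 eE_2_0_1_V10)

end Crest.Agent.R278
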