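import Crest.Agent.R278.Check
import Crest.Agent.R278.DataT
import Crest.Agent.R278.DataK
import Crest.Agent.R278.DataG

/-!
# The expressions whose vanishing is tested
-/

set_option autoImplicit false

namespace Crest.Agent.R278

open E

/-- `θ₁` applied to a polynomial in `A, u, w`. -/
noncomputable def thE (e : E) : E :=
  add (mul (pd 0 e) (TE 0)) (add (mul (pd 1 e) (TE 1)) (mul (pd 2 e) (TE 2)))

noncomputable def eF : E := thE FE
noncomputable def eW1 : E := sub (add (mul lIE (TE 3)) (mul (x 3) (thE lIE))) (thE M1E)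
noncomputable def eW2 : E := sub (add (mul lIE (TE 4)) (mul (x 4) (thE lIE))) (thE M2E)
noncomputable def eW3 : E := sub (add (mul lJE (TE 5)) (mul (x 5) (thE lJE))) (thE M3E)
noncomputable def eW4 : E := sub (add (mul lJE (TE 6)) (mul (x 6) (thE lJE))) (thE M4E)
noncomputable def eK (i : ℕ) : E := sub (mul kapE (TsE i)) (mul aE (KE i))
noncomputable def eE (i j k : ℕ) : E :=
  sub (sub (mul (TE i) (TsE j)) (mul (TsE i) (TE j))) (mul (mul aE (pd k FE)) epsE)
noncomputable def eH : E := sub (mul gE (flip gE)) (mul (pow aE 11) hE)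
noncomputable def eU : E := sub (mul (c cU) (pow aE 7))
  (add (add (mul U0E (pd 0 FE)) (mul U1E (pd 1 FE))) (mul U2E (pd 2 FE)))
def eG1 : E := sub (mul (c dG1) (mul (x 3) (add (x 3) (mul (c 2926) (x 4))))) G1E
def eG2 : E := sub (mul (c dG2) (mul (x 4) (x 6))) G2E
def eN1 : E := sub (mul etaE (x 3)) N1E
def eN2 : E := sub (mul etaE (x 4)) N2E

end Crest.Agent.R278
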