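import Crest.Agent.R278.IdDefs

/-! Kernel evaluation of the test. -/

set_option autoImplicit false

namespace Crest.Agent.R278

theorem eH_B : chkB eH 39 2923 = true := by decide +kernel
theorem eH_V0 : chkR eH 2923 0 8 = true := by decide +kernel
theorem eH_V8 : chkR eH 2923 8 8 = true := by decide +kernel
theorem eH_V16 : chkR eH 2923 16 8 = true := by decide +kernel
theorem eH_V24 : chkR eH 2923 24 8 = true := by decide +kernel
theorem eH_V32 : chkR eH 2923 32 8 = true := by decide +kernel
theorem eH_ok {L : Type} [Field L] {v : ℕ → L} (hc : Ctx v) : E.ev v eH = 0 :=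
  check_sound hc _ 39 2923 eH_B
    (chkR_append (m := 32) (n := 8) (chkR_append (m := 24) (n := 8) (chkR_append (m := 16) (n := 8) (chkR_append (m := 8) (n := 8) eH_V0 eH_V8) eH_V16) eH_V24) eH_V32)

end Crest.Agent.R278
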