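import Crest.Agent.R278.IdDefs

/-! Kernel evaluation of the test. -/

set_option autoImplicit false

namespace Crest.Agent.R278

theorem eU_B : chkB eU 13 5034 = true := by decide +kernel
theorem eU_V0 : chkR eU 5034 0 10 = true := by decide +kernel
theorem eU_V10 : chkR eU 5034 10 4 = true := by decide +kernel
theorem eU_ok {L : Type} [Field L] {v : ℕ → L} (hc : Ctx v) : E.ev v eU = 0 :=
  check_sound hc _ 13 5034 eU_B
    (chkR_append (m := 10) (n := 4) eU_V0 eU_V10)

theorem eG1_B : chkB eG1 10 364 = true := by decide +kernel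
theorem eG1_V0 : chkR eG1 364 0 10 = true := by decide +kernel
theorem eG1_V10 : chkR eG1 364 10 1 = true := by decide +kernel
theorem eG1_ok {L : Type} [Field L] {v : ℕ → L} (hc : Ctx v) : E.ev v eG1 = 0 :=
  check_sound hc _ 10 364 eG1_B
    (chkR_append (m := 10) (n := 1) eG1_V0 eG1_V10)

theorem eG2_B : chkB eG2 9 353 = true := by decide +kernel
theorem eG2_V0 : chkR eG2 353 0 10 = true := by decide +kernel
theorem eG2_ok {L : Type} [Field L] {v : ℕ → L} (hc : Ctx v) : E.ev v eG2 = 0 :=
  check_sound hc _ 9 353 eG2_B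
    eG2_V0

theorem eN1_B : chkB eN1 6 185 = true := by decide +kernel
theorem eN1_V0 : chkR eN1 185 0 7 = true := by decide +kernel
theorem eN1_ok {L : Type} [Field L] {v : ℕ → L} (hc : Ctx v) : E.ev v eN1 = 0 :=
  check_sound hc _ 6 185 eN1_B
    eN1_V0

theorem eN2_B : chkB eN2 5 171 = true := by decide +kernel
theorem eN2_V0 : chkR eN2 171 0 6 = true := by decide +kernel
theorem eN2_ok {L : Type} [Field L] {v : ℕ → L} (hc : Ctx v) : E.ev v eN2 = 0 :=
  check_sound hc _ 5 171 eN2_B
    eN2_V0

end Crest.Agent.R278
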