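import Crest.Agent.R278.IdA
import Crest.Agent.R278.IdB
import Crest.Agent.R278.IdC
import Crest.Agent.R278.IdD
import Crest.Agent.R278.IdE
import Crest.Agent.R278.IdF

/-!
# The polynomial identities (checked by reflection)
-/

set_option autoImplicit false
set_option linter.unusedSimpArgs false

namespace Crest.Agent.R278

open E

variable {L : Type} [Field L] {v : ℕ → L}

theorem id_F (hc : Ctx v) : ev v (thE FE) = 0 := eF_ok hc
theorem id_W1 (hc : Ctx v) : ev v lIE * ev v (TE 3) + v 3 * ev v (thE lIE) = ev v (thE M1E) := by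
  have := eW1_ok hc
  simp only [eW1, ev_sub, ev_add, ev_mul, ev_x, ev_c, ev_pow, ev_flip] at this
  linear_combination this
theorem id_W2 (hc : Ctx v) : ev v lIE * ev v (TE 4) + v 4 * ev v (thE lIE) = ev v (thE M2E) := by
  have := eW2_ok hc
  simp only [eW2, ev_sub, ev_add, ev_mul, ev_x, ev_c, ev_pow, ev_flip] at this
  linear_combination this
theorem id_W3 (hc : Ctx v) : ev v lJE * ev v (TE 5) + v 5 * ev v (thE lJE) = ev v (thE M3E) := by
  have := eW3_ok hc
  simp only [eW3, ev_sub, ev_add, ev_mul, ev_x, ev_c, ev_pow, ev_flip] at this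
  linear_combination this
theorem id_W4 (hc : Ctx v) : ev v lJE * ev v (TE 6) + v 6 * ev v (thE lJE) = ev v (thE M4E) := by
  have := eW4_ok hc
  simp only [eW4, ev_sub, ev_add, ev_mul, ev_x, ev_c, ev_pow, ev_flip] at this
  linear_combination this
theorem id_K (hc : Ctx v) (i : ℕ) (hi : i < 7) :
    ev v kapE * ev v (TsE i) = ev v aE * ev v (KE i) := by
  have : ev v (eK i) = 0 := by
    interval_cases i
    exacts [eK_0_ok hc, eK_1_ok hc, eK_2_ok hc, eK_3_ok hc, eK_4_ok hc, eK_5_ok hc, eK_6_ok hc]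
  simp only [eK, ev_sub, ev_add, ev_mul, ev_x, ev_c, ev_pow, ev_flip] at this
  linear_combination this
theorem id_eps2 (hc : Ctx v) : ev v (TE 0) * ev v (TsE 1) - ev v (TsE 0) * ev v (TE 1) =
    ev v aE * ev v (pd 2 FE) * ev v epsE := by
  have := eE_0_1_2_ok hc
  simp only [eE, ev_sub, ev_add, ev_mul, ev_x, ev_c, ev_pow, ev_flip] at this
  linear_combination this
theorem id_eps0 (hc : Ctx v) : ev v (TE 1) * ev v (TsE 2) - ev v (TsE 1) * ev v (TE 2) =
    ev v aE * ev v (pd 0 FE) * ev v epsE := by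
  have := eE_1_2_0_ok hc
  simp only [eE, ev_sub, ev_add, ev_mul, ev_x, ev_c, ev_pow, ev_flip] at this
  linear_combination this
theorem id_eps1 (hc : Ctx v) : ev v (TE 2) * ev v (TsE 0) - ev v (TsE 2) * ev v (TE 0) =
    ev v aE * ev v (pd 1 FE) * ev v epsE := by
  have := eE_2_0_1_ok hc
  simp only [eE, ev_sub, ev_add, ev_mul, ev_x, ev_c, ev_pow, ev_flip] at this
  linear_combination this
theorem id_h (hc : Ctx v) : ev v gE * ev (fl v) gE = ev v aE ^ 11 * ev v hE := by
  have := eH_ok hc
  simp only [eH, ev_sub, ev_add, ev_mul, ev_x, ev_c, ev_pow, ev_flip] at this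
  linear_combination this
theorem id_U (hc : Ctx v) : (cU : L) * ev v aE ^ 7 = ev v U0E * ev v (pd 0 FE) +
    ev v U1E * ev v (pd 1 FE) + ev v U2E * ev v (pd 2 FE) := by
  have := eU_ok hc
  simp only [eU, ev_sub, ev_add, ev_mul, ev_x, ev_c, ev_pow, ev_flip] at this
  linear_combination this
theorem id_G1 (hc : Ctx v) : (dG1 : L) * (v 3 * (v 3 + 2926 * v 4)) = ev v G1E := by
  have := eG1_ok hc
  simp only [eG1, ev_sub, ev_add, ev_mul, ev_x, ev_c, ev_pow, ev_flip] at this
  push_cast at this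
  linear_combination this
theorem id_G2 (hc : Ctx v) : (dG2 : L) * (v 4 * v 6) = ev v G2E := by
  have := eG2_ok hc
  simp only [eG2, ev_sub, ev_add, ev_mul, ev_x, ev_c, ev_pow, ev_flip] at this
  linear_combination this
theorem id_N1 (hc : Ctx v) : ev v etaE * v 3 = ev v N1E := by
  have := eN1_ok hc
  simp only [eN1, ev_sub, ev_add, ev_mul, ev_x, ev_c, ev_pow, ev_flip] at this
  linear_combination this
theorem id_N2 (hc : Ctx v) : ev v etaE * v 4 = ev v N2E := by
  have := eN2_ok hc
  simp only [eN2, ev_sub, ev_add, ev_mul, ev_x, ev_c, ev_pow, ev_flip] at this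
  linear_combination this

end Crest.Agent.R278
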