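import Crest.Agent.R278.Loc
import Crest.Agent.R278.Ids

/-!
# The eight curves in the zero set of `a`
-/

set_option autoImplicit false

namespace Crest.Agent.R278

open Algebra E

variable {L : Type} [Field L] [Algebra ℂ L]

/-- `Γ_{b'}`: `A = -3 u`, `w = 75 u`, with `u = 1729 τ`. -/
def nB : ℕ → ℤ
  | 0 => -5187
  | 1 => 1729
  | 2 => 129675
  | 5 => -17605507920
  | 6 => 6016920
  | _ => 0
/-- `Γ_{q₂}`: `A = -3 u`, `w = 191 u`, with `u = 399 τ`. -/
def nQ : ℕ → ℤ
  | 0 => -1197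
  | 1 => 399
  | 2 => 76209
  | 4 => 92568
  | _ => 0
/-- `G_b`: `A = u = w = 0`, `W₁ = -2926 W₂`. -/
def gB : ℕ → ℤ
  | 3 => -2926
  | 4 => 1
  | _ => 0
/-- `G_{q₂}`: `A = u = w = 0`, `W₁ = 0`. -/
def gQ : ℕ → ℤ
  | 4 => 1
  | _ => 0
def kΓ (i : ℕ) : ℕ := if i < 3 then 1 else 2
def kG (_ : ℕ) : ℕ := 1

/-- The centre of `W` lies on one of the four curves in the divisor of `s₁`. -/
def OnLine (W : ValuationSubring L) (v : ℕ → L) : Prop :=
  ∃ τ ∈ W, (∀ i, W.valuation (v i - lineEnv nB kΓ τ i) < 1) ∨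
    (∀ i, W.valuation (v i - lineEnv nQ kΓ τ i) < 1) ∨
    (∀ i, W.valuation (v i - lineEnv gB kG τ i) < 1) ∨
    (∀ i, W.valuation (v i - lineEnv gQ kG τ i) < 1)

omit [Algebra ℂ L] in
theorem lines_mul_lt {W : ValuationSubring L} {a b : L} (ha : W.valuation a < 1) (hb : b ∈ W) :
    W.valuation (a * b) < 1 := by
  rw [map_mul]
  exact mul_lt_one_of_nonneg_of_lt_one_left zero_le ha ((W.valuation_le_one_iff _).2 hb)

omit [Algebra ℂ L] in
theorem lines_congr3 {W : ValuationSubring L} {v l : ℕ → L} (hv : ∀ i, v i ∈ W)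
    (hl : ∀ i, l i ∈ W) (h : ∀ i < 3, W.valuation (v i - l i) < 1) (e : E)
    (he : three e = true) : W.valuation (ev v e - ev l e) < 1 := by
  rw [ev_congr_three (v := v) (v' := fun i => if i < 3 then v i else l i) (by simp) (by simp)
    (by simp) e he]
  refine ev_congr W (fun i => ?_) hl (fun i => ?_) e
  · by_cases hi : i < 3
    · simp only [hi, if_true]; exact hv i
    · simp only [hi, if_false]; exact hl i
  · by_cases hi : i < 3
    · simp only [hi, if_true]; exact h i hi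
    · simp [hi]

/-- A `Γ` line.  Let `τ = v 1 / n 1` (a unit of `W`), `l = lineEnv n kΓ τ`.  Then `v i ≡ l i` for
`i < 3`.  `lIE, lJE, M1E, …, M4E` only involve the variables `0, 1, 2` (`E.three`,
`E.ev_congr_three`: replace `v` and `l` by the environments `fun i => if i < 3 then · i else 0`
before using `E.ev_congr`), so `ev v lIE ≡ ev l lIE = cI * τ` is a unit and
`ev v M1E ≡ ev l M1E = ev l lIE * l 3`; hence `ev v lIE * (v 3 - l 3) ≡ 0`.  Same for `4, 5, 6`;
`v (i + 7) = 0 = l (i + 7)`. -/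
theorem on_gamma {S : Set L} {W : ValuationSubring L} (hW : Over S W) {v : ℕ → L} (hc : Ctx v)
    (hv : ∀ i, v i ∈ W) (hu : W.valuation (v 1) = 1) (ha : W.valuation (v 0 + 3 * v 1) < 1)
    (n : ℕ → ℤ) (x : ℤ) (hx : W.valuation (v 2 - x * v 1) < 1) (h1 : n 1 ≠ 0)
    (h0 : n 0 = -3 * n 1) (h2 : n 2 = x * n 1) (h7 : ∀ i, n (i + 7) = 0)
    (cI cJ : ℤ) (hI0 : cI ≠ 0) (hJ0 : cJ ≠ 0)
    (hI : ∀ τ : L, ev (lineEnv n kΓ τ) lIE = cI * τ)
    (hJ : ∀ τ : L, ev (lineEnv n kΓ τ) lJE = cJ * τ)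
    (hM1 : ∀ τ : L, ev (lineEnv n kΓ τ) M1E = cI * τ * lineEnv n kΓ τ 3)
    (hM2 : ∀ τ : L, ev (lineEnv n kΓ τ) M2E = cI * τ * lineEnv n kΓ τ 4)
    (hM3 : ∀ τ : L, ev (lineEnv n kΓ τ) M3E = cJ * τ * lineEnv n kΓ τ 5)
    (hM4 : ∀ τ : L, ev (lineEnv n kΓ τ) M4E = cJ * τ * lineEnv n kΓ τ 6) :
    ∃ τ ∈ W, ∀ i, W.valuation (v i - lineEnv n kΓ τ i) < 1 := by
  have hn1 : W.valuation (n 1 : L) = 1 := val_intCast hW h1
  have hn10 : (n 1 : L) ≠ 0 := by
    intro h; rw [h] at hn1; simp at hn1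
  obtain ⟨τ, hτdef⟩ : ∃ τ : L, τ = v 1 * (n 1 : L)⁻¹ := ⟨_, rfl⟩
  have hτ1 : W.valuation τ = 1 := by rw [hτdef, map_mul, map_inv₀, hu, hn1]; simp
  have hτW : τ ∈ W := (W.valuation_le_one_iff _).1 hτ1.le
  have hnτ : (n 1 : L) * τ = v 1 := by rw [hτdef]; field_simp
  have hlW : ∀ i, lineEnv n kΓ τ i ∈ W := fun i => mul_mem (intCast_mem W _) (pow_mem hτW _)
  have h3 : ∀ i < 3, W.valuation (v i - lineEnv n kΓ τ i) < 1 := by
    intro i hi
    interval_cases i
    · have : v 0 - lineEnv n kΓ τ 0 = v 0 + 3 * v 1 := by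
        simp only [lineEnv, kΓ, h0]; push_cast; rw [← hnτ]; simp; ring
      rw [this]; exact ha
    · have : v 1 - lineEnv n kΓ τ 1 = 0 := by
        simp only [lineEnv, kΓ]; rw [← hnτ]; simp
      rw [this]; simp
    · have : v 2 - lineEnv n kΓ τ 2 = v 2 - x * v 1 := by
        simp only [lineEnv, kΓ, h2]; push_cast; rw [← hnτ]; simp; ring
      rw [this]; exact hx
  have key : ∀ (l M : E) (i : ℕ) (c : ℤ), three l = true → three M = true → c ≠ 0 →
      ev v l * v i = ev v M → ev (lineEnv n kΓ τ) l = c * τ →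
      ev (lineEnv n kΓ τ) M = c * τ * lineEnv n kΓ τ i →
      W.valuation (v i - lineEnv n kΓ τ i) < 1 := by
    intro l M i c hl hM hc0 hrel el eM
    have c1 := lines_congr3 hv hlW h3 l hl
    have c2 := lines_congr3 hv hlW h3 M hM
    have u1 : W.valuation (ev v l) = 1 := by
      refine val_eq_one_of_sub ?_ c1
      rw [el, map_mul, val_intCast hW hc0, hτ1, one_mul]
    have e : ev v l * (v i - lineEnv n kΓ τ i) = (ev v M - ev (lineEnv n kΓ τ) M) -
        (ev v l - ev (lineEnv n kΓ τ) l) * lineEnv n kΓ τ i := by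
      rw [el, eM, ← hrel]; ring
    have : W.valuation (ev v l * (v i - lineEnv n kΓ τ i)) < 1 := by
      rw [e]
      exact Valuation.map_sub_lt _ c2 (lines_mul_lt c1 (hlW i))
    rwa [map_mul, u1, one_mul] at this
  refine ⟨τ, hτW, fun i => ?_⟩
  rcases i with _ | _ | _ | _ | _ | _ | _ | i
  · exact h3 0 (by norm_num)
  · exact h3 1 (by norm_num)
  · exact h3 2 (by norm_num)
  · exact key lIE M1E 3 cI (by decide) (by decide +kernel) hI0 hc.h1 (hI τ) (hM1 τ)
  · exact key lIE M2E 4 cI (by decide) (by decide +kernel) hI0 hc.h2 (hI τ) (hM2 τ)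
  · exact key lJE M3E 5 cJ (by decide) (by decide +kernel) hJ0 hc.h3 (hJ τ) (hM3 τ)
  · exact key lJE M4E 6 cJ (by decide) (by decide +kernel) hJ0 hc.h4 (hJ τ) (hM4 τ)
  · rw [show i + 1 + 1 + 1 + 1 + 1 + 1 + 1 = i + 7 from rfl, hc.h7]
    simp [lineEnv, h7]

theorem lines_gamma {S : Set L} {W : ValuationSubring L} (hW : Over S W) {v : ℕ → L} (hc : Ctx v)
    (hv : ∀ i, v i ∈ W) (hu : W.valuation (v 1) = 1) (ha : W.valuation (v 0 + 3 * v 1) < 1)
    (h : W.valuation (v 2 - (75 : ℤ) * v 1) < 1 ∨ W.valuation (v 2 - (191 : ℤ) * v 1) < 1) :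
    OnLine W v := by
  rcases h with h | h
  · obtain ⟨τ, hτ, hl⟩ := on_gamma hW hc hv hu ha nB 75 h (by decide) (by decide) (by decide)
      (fun _ => rfl) (39205 * 1729) (8645 * 1729) (by decide) (by decide)
      (fun τ => by simp [lineEnv, nB, kΓ, lIE, l0E]; ring)
      (fun τ => by simp [lineEnv, nB, kΓ, lJE, l0E]; ring)
      (fun τ => by simp [lineEnv, nB, kΓ, M1E, m10E, m11E, m12E, m13E]; ring)
      (fun τ => by simp [lineEnv, nB, kΓ, M2E, m20E, m21E, m22E, m23E]; ring)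
      (fun τ => by simp [lineEnv, nB, kΓ, M3E, m10E, m11E, m12E, m13E]; ring)
      (fun τ => by simp [lineEnv, nB, kΓ, M4E, m20E, m21E, m22E, m23E]; ring)
    exact ⟨τ, hτ, Or.inl hl⟩
  · obtain ⟨τ, hτ, hl⟩ := on_gamma hW hc hv hu ha nQ 191 h (by decide) (by decide) (by decide)
      (fun _ => rfl) (76209 * 399) (45649 * 399) (by decide) (by decide)
      (fun τ => by simp [lineEnv, nQ, kΓ, lIE, l0E]; ring)
      (fun τ => by simp [lineEnv, nQ, kΓ, lJE, l0E]; ring)
      (fun τ => by simp [lineEnv, nQ, kΓ, M1E, m10E, m11E, m12E, m13E]; ring)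
      (fun τ => by simp [lineEnv, nQ, kΓ, M2E, m20E, m21E, m22E, m23E]; ring)
      (fun τ => by simp [lineEnv, nQ, kΓ, M3E, m10E, m11E, m12E, m13E]; ring)
      (fun τ => by simp [lineEnv, nQ, kΓ, M4E, m20E, m21E, m22E, m23E]; ring)
    exact ⟨τ, hτ, Or.inr (Or.inl hl)⟩

theorem lines_G {S : Set L} {W : ValuationSubring L} (hW : Over S W) {v : ℕ → L} (hc : Ctx v)
    (hv : ∀ i, v i ∈ W) (h3 : ∀ i < 3, W.valuation (v i) < 1) (h6 : W.valuation (v 6) < 1) :
    OnLine W v := by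
  have hn : (2926 : L) ∈ W := ofNat_mem W 2926
  have h3' : ∀ i < 3, W.valuation (fl v i) < 1 := by
    intro i hi
    interval_cases i
    · exact h3 0 (by norm_num)
    · exact h3 1 (by norm_num)
    · rw [fl_two, Valuation.map_neg]; exact h3 2 (by norm_num)
  have h5 : W.valuation (v 5) < 1 := by
    have hG := val_zero3 (fl_mem W hv) h3' G1E (by decide +kernel)
    rw [← id_G1 hc.fl, map_mul, val_intCast hW (by decide +kernel), one_mul, fl_three,
      fl_four] at hG
    rcases val_lt_one_or (hv 5) (add_mem (hv 5) (mul_mem hn (hv 6))) hG with h | h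
    · exact h
    · have := Valuation.map_sub_lt _ h (lines_mul_lt h6 hn)
      rwa [mul_comm (v 6), add_sub_cancel_right] at this
  have hG := val_zero3 hv h3 G1E (by decide +kernel)
  rw [← id_G1 hc, map_mul, val_intCast hW (by decide +kernel), one_mul] at hG
  refine ⟨v 4, hv 4, Or.inr (Or.inr ?_)⟩
  rcases val_lt_one_or (hv 3) (add_mem (hv 3) (mul_mem hn (hv 4))) hG with h | h
  · right
    intro i
    rcases i with _ | _ | _ | _ | _ | _ | _ | i
    · simpa [lineEnv, gQ] using h3 0 (by norm_num)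
    · simpa [lineEnv, gQ] using h3 1 (by norm_num)
    · simpa [lineEnv, gQ] using h3 2 (by norm_num)
    · simpa [lineEnv, gQ] using h
    · simp [lineEnv, gQ, kG]
    · simpa [lineEnv, gQ] using h5
    · simpa [lineEnv, gQ] using h6
    · rw [show i + 1 + 1 + 1 + 1 + 1 + 1 + 1 = i + 7 from rfl, hc.h7]
      simp [lineEnv, gQ]
  · left
    intro i
    rcases i with _ | _ | _ | _ | _ | _ | _ | i
    · simpa [lineEnv, gB] using h3 0 (by norm_num)
    · simpa [lineEnv, gB] using h3 1 (by norm_num)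
    · simpa [lineEnv, gB] using h3 2 (by norm_num)
    · simpa [lineEnv, gB, kG] using h
    · simp [lineEnv, gB, kG]
    · simpa [lineEnv, gB] using h5
    · simpa [lineEnv, gB] using h6
    · rw [show i + 1 + 1 + 1 + 1 + 1 + 1 + 1 = i + 7 from rfl, hc.h7]
      simp [lineEnv, gB]

/-- **The zero set of `a`.**  Modulo `a = v 0 + 3 v 1` the equation `F = 0` reads
`(w - 75 u) (w - 191 u) (w + 75 u) (w + 191 u) = 0` (use `E.ev_congr` with the environment
`-3 u, u, w, 0, …` and `simp [FE, k0E, k2E]; ring`).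
* If `u = v 1` is a unit use `on_gamma` for `v` (factors `w - 75 u`, `w - 191 u`, with `nB`, `nQ`;
  the hypotheses `hI … hM4` are `simp [lineEnv, nB, kΓ, lIE, l0E, …]; ring`; for `nB`
  `cI = 39205 * 1729`, `cJ = 8645 * 1729`, for `nQ` `cI = 76209 * 399`, `cJ = 45649 * 399`) or for
  `fl v` (the other two factors; `Ctx.fl`).
* Otherwise `v 0, v 1, v 2` are in the maximal ideal.  `id_G2` and `val_zero3` give
  `v 4 * v 6 ≡ 0`.  If `v 6 ≡ 0` then `id_G1` for `fl v` gives `v 5 * (v 5 + 2926 v 6) ≡ 0`, so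
  `v 5 ≡ 0`, and `id_G1` for `v` gives `v 3 ≡ 0` (`gQ`) or `v 3 ≡ -2926 v 4` (`gB`), `τ = v 4`.
  If `v 4 ≡ 0` do the same for `fl v` (`fl_fl`). -/
theorem onLine {S : Set L} {W : ValuationSubring L} (hW : Over S W) {v : ℕ → L} (hc : Ctx v)
    (hv : ∀ i, v i ∈ W) (ha : W.valuation (ev v aE) < 1) : OnLine W v ∨ OnLine W (fl v) := by
  rw [ev_a] at ha
  have hint : ∀ (m : ℤ) (y : L), y ∈ W → (m : L) * y ∈ W := fun m y hy =>
    mul_mem (intCast_mem W m) hy
  have hF : W.valuation ((v 2 - (75 : ℤ) * v 1) * (v 2 - (191 : ℤ) * v 1) *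
      ((- v 2 - (75 : ℤ) * v 1) * (- v 2 - (191 : ℤ) * v 1))) < 1 := by
    have h := ev_congr W (v := fun i => if i = 0 then ((-3 : ℤ) : L) * v 1 else v i) (v' := v)
      (fun i => by
        by_cases hi : i = 0
        · simp only [hi, if_true]; exact hint _ _ (hv 1)
        · simp only [hi, if_false]; exact hv i) hv
      (fun i => by
        by_cases hi : i = 0
        · simp only [hi, if_true]
          rw [← Valuation.map_neg]
          convert ha using 2
          push_cast; ring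
        · simp [hi]) FE
    rw [hc.hF, sub_zero] at h
    convert h using 2
    simp [FE, k0E, k2E]
    ring
  have hfac : (W.valuation (v 2 - (75 : ℤ) * v 1) < 1 ∨ W.valuation (v 2 - (191 : ℤ) * v 1) < 1) ∨
      (W.valuation (- v 2 - (75 : ℤ) * v 1) < 1 ∨ W.valuation (- v 2 - (191 : ℤ) * v 1) < 1) := by
    have m1 : ∀ m : ℤ, v 2 - (m : L) * v 1 ∈ W := fun m => sub_mem (hv 2) (hint _ _ (hv 1))
    have m2 : ∀ m : ℤ, - v 2 - (m : L) * v 1 ∈ W := fun m =>
      sub_mem (neg_mem (hv 2)) (hint _ _ (hv 1))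
    rcases val_lt_one_or (mul_mem (m1 _) (m1 _)) (mul_mem (m2 _) (m2 _)) hF with h | h
    · exact Or.inl (val_lt_one_or (m1 _) (m1 _) h)
    · exact Or.inr (val_lt_one_or (m2 _) (m2 _) h)
  by_cases hu : W.valuation (v 1) = 1
  · rcases hfac with h | h
    · exact Or.inl (lines_gamma hW hc hv hu ha h)
    · exact Or.inr (lines_gamma hW hc.fl (fl_mem W hv) hu ha h)
  · have hu' : W.valuation (v 1) < 1 := lt_of_le_of_ne ((W.valuation_le_one_iff _).2 (hv 1)) hu
    have hm : ∀ m : ℤ, W.valuation ((m : L) * v 1) < 1 := fun m => by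
      rw [mul_comm]; exact lines_mul_lt hu' (intCast_mem W m)
    have h0 : W.valuation (v 0) < 1 := by
      have : v 0 = (v 0 + 3 * v 1) - ((3 : ℤ) : L) * v 1 := by push_cast; ring
      rw [this]; exact Valuation.map_sub_lt _ ha (hm 3)
    have h2 : W.valuation (v 2) < 1 := by
      have k1 : ∀ m : ℤ, W.valuation (v 2 - (m : L) * v 1) < 1 → W.valuation (v 2) < 1 := by
        intro m h
        have := Valuation.map_add_lt _ h (hm m)
        rwa [sub_add_cancel] at this
      have k2 : ∀ m : ℤ, W.valuation (- v 2 - (m : L) * v 1) < 1 → W.valuation (v 2) < 1 := by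
        intro m h
        have := Valuation.map_add_lt _ h (hm m)
        rwa [sub_add_cancel, Valuation.map_neg] at this
      rcases hfac with (h | h) | (h | h)
      exacts [k1 _ h, k1 _ h, k2 _ h, k2 _ h]
    have h3 : ∀ i < 3, W.valuation (v i) < 1 := by
      intro i hi
      interval_cases i
      exacts [h0, hu', h2]
    have h3' : ∀ i < 3, W.valuation (fl v i) < 1 := by
      intro i hi
      interval_cases i
      · exact h0
      · exact hu'
      · rw [fl_two, Valuation.map_neg]; exact h2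
    have hG := val_zero3 hv h3 G2E (by decide +kernel)
    rw [← id_G2 hc, map_mul, val_intCast hW (by decide +kernel), one_mul] at hG
    rcases val_lt_one_or (hv 4) (hv 6) hG with h | h
    · exact Or.inr (lines_G hW hc.fl (fl_mem W hv) h3' h)
    · exact Or.inl (lines_G hW hc hv h3 h)

end Crest.Agent.R278
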