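import Crest.Agent.R278.Seid
import Crest.Agent.R278.Expr

/-!
# Local lemmas about valuation rings over `ℂ[S]`
-/

set_option autoImplicit false
set_option linter.unusedSectionVars false

namespace Crest.Agent.R278

open Algebra E Polynomial

variable {L : Type} [Field L] [Algebra ℂ L]

/-- Elements of `R` whose derivatives under `D₁` and `D₂` lie in `R`. -/
def Gd (R : Subalgebra ℂ L) (D₁ D₂ : Derivation ℂ L L) : Subalgebra ℂ L where
  carrier := {y | y ∈ R ∧ D₁ y ∈ R ∧ D₂ y ∈ R}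
  mul_mem' := by
    rintro a b ⟨ha, ha1, ha2⟩ ⟨hb, hb1, hb2⟩
    refine ⟨mul_mem ha hb, ?_, ?_⟩ <;> rw [Derivation.leibniz, smul_eq_mul, smul_eq_mul]
    · exact add_mem (mul_mem ha hb1) (mul_mem hb ha1)
    · exact add_mem (mul_mem ha hb2) (mul_mem hb ha2)
  add_mem' := by
    rintro a b ⟨ha, ha1, ha2⟩ ⟨hb, hb1, hb2⟩
    refine ⟨add_mem ha hb, ?_, ?_⟩ <;> rw [map_add]
    · exact add_mem ha1 hb1
    · exact add_mem ha2 hb2
  algebraMap_mem' := fun c => ⟨R.algebraMap_mem c, by simp, by simp⟩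

theorem mem_Gd {R : Subalgebra ℂ L} {D₁ D₂ : Derivation ℂ L L} {y : L} :
    y ∈ Gd R D₁ D₂ ↔ y ∈ R ∧ D₁ y ∈ R ∧ D₂ y ∈ R := Iff.rfl

theorem Gd_comm (R : Subalgebra ℂ L) (D₁ D₂ : Derivation ℂ L L) : Gd R D₁ D₂ = Gd R D₂ D₁ := by
  ext y; simp only [mem_Gd]; tauto

section
variable {S : Set L} {W : ValuationSubring L}

/-- `q * y = p` with `q`, `y` units of `W` gives `p` a unit and `p * y⁻¹ = q`. -/
theorem inv_mem_locAt {y : L} (hy : y ∈ locAt S W) (h1 : W.valuation y = 1) :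
    y⁻¹ ∈ locAt S W := by
  obtain ⟨p, hp, q, hq, hq1, h⟩ := hy
  have hy0 : y ≠ 0 := by rintro rfl; simp at h1
  refine ⟨q, hq, p, hp, by rw [← h, map_mul, hq1, h1, one_mul], ?_⟩
  rw [← h, mul_inv_cancel_right₀ hy0]

/-- `D y⁻¹ = - y⁻¹ * y⁻¹ * D y` (`Derivation.leibniz_inv` or differentiate `y * y⁻¹ = 1`). -/
theorem gd_inv {D₁ D₂ : Derivation ℂ L L} {y : L} (hy : y ∈ Gd (locAt S W) D₁ D₂)
    (h1 : W.valuation y = 1) : y⁻¹ ∈ Gd (locAt S W) D₁ D₂ := by
  obtain ⟨h0, hD1, hD2⟩ := hy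
  have hi := inv_mem_locAt h0 h1
  refine ⟨hi, ?_, ?_⟩ <;> rw [Derivation.leibniz_inv, smul_eq_mul]
  · exact mul_mem (neg_mem (pow_mem hi 2)) hD1
  · exact mul_mem (neg_mem (pow_mem hi 2)) hD2

/-- `D s = (n⁻¹ : ℂ) • s * γ⁻¹ * D γ`. -/
theorem gd_root {D₁ D₂ : Derivation ℂ L L} {s γ : L} {n : ℕ} (hn : 0 < n) (hs : s ∈ locAt S W)
    (h1 : W.valuation s = 1) (hγ : γ ∈ Gd (locAt S W) D₁ D₂) (h : s ^ n = γ) :
    s ∈ Gd (locAt S W) D₁ D₂ := by
  have hs0 : s ≠ 0 := by rintro rfl; simp at h1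
  have hγ1 : W.valuation γ = 1 := by rw [← h, map_pow, h1, one_pow]
  have hγ0 : γ ≠ 0 := by rw [← h]; exact pow_ne_zero _ hs0
  have hn0 : (n : ℂ) ≠ 0 := Nat.cast_ne_zero.2 hn.ne'
  have key : ∀ D : Derivation ℂ L L, D γ ∈ locAt S W → D s ∈ locAt S W := by
    intro D hD
    have e1 : D γ = (n : L) * (s ^ (n - 1) * D s) := by
      rw [← h, Derivation.leibniz_pow, smul_eq_mul, nsmul_eq_mul]
    have e2 : algebraMap ℂ L (n : ℂ)⁻¹ * (n : L) = 1 := by
      rw [← map_natCast (algebraMap ℂ L), ← map_mul, inv_mul_cancel₀ hn0, map_one]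
    have e3 : s * s ^ (n - 1) = γ := by
      rw [← h, ← pow_succ', Nat.sub_add_cancel hn]
    have e4 : D s = algebraMap ℂ L (n : ℂ)⁻¹ * (s * γ⁻¹ * D γ) := by
      have : s * γ⁻¹ * D γ = (n : L) * D s := by
        rw [e1]
        have : s * γ⁻¹ * ((n : L) * (s ^ (n - 1) * D s)) =
          (s * s ^ (n - 1)) * γ⁻¹ * ((n : L) * D s) := by ring
        rw [this, e3, mul_inv_cancel₀ hγ0, one_mul]
      rw [this, ← mul_assoc, e2, one_mul]
    rw [e4]
    exact mul_mem (Subalgebra.algebraMap_mem _ _)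
      (mul_mem (mul_mem hs (inv_mem_locAt hγ.1 hγ1)) hD)
  exact ⟨hs, key D₁ hγ.2.1, key D₂ hγ.2.2⟩

theorem Over.algebraMap_mem (hW : Over S W) (c : ℂ) : algebraMap ℂ L c ∈ W :=
  hW _ (Subalgebra.algebraMap_mem _ c)

/-- `c` and `c⁻¹` are both in `W`. -/
theorem val_algebraMap (hW : Over S W) {c : ℂ} (hc : c ≠ 0) :
    W.valuation (algebraMap ℂ L c) = 1 := by
  have h1 := (W.valuation_le_one_iff _).2 (hW.algebraMap_mem c)
  have h2 := (W.valuation_le_one_iff _).2 (hW.algebraMap_mem c⁻¹)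
  have h3 : W.valuation (algebraMap ℂ L c) * W.valuation (algebraMap ℂ L c⁻¹) = 1 := by
    rw [← map_mul, ← map_mul, mul_inv_cancel₀ hc, map_one, map_one]
  refine le_antisymm h1 (not_lt.1 fun hlt => ?_)
  exact (mul_lt_one_of_nonneg_of_lt_one_left zero_le hlt h2).ne h3

theorem val_intCast (hW : Over S W) {n : ℤ} (hn : n ≠ 0) : W.valuation (n : L) = 1 := by
  rw [← map_intCast (algebraMap ℂ L)]
  exact val_algebraMap hW (Int.cast_ne_zero.2 hn)

/-- A unit plus an element of the maximal ideal is a unit. -/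
theorem val_eq_one_of_sub {y z : L} (hz : W.valuation z = 1) (h : W.valuation (y - z) < 1) :
    W.valuation y = 1 := by
  have : y = z + (y - z) := by ring
  rw [this, Valuation.map_add_eq_of_lt_left _ (by rw [hz]; exact h), hz]

/-- If a product of two elements of `W` is a unit then so is the first factor. -/
theorem val_eq_one_of_mul {y z : L} (hy : y ∈ W) (hz : z ∈ W) (h : W.valuation (y * z) = 1) :
    W.valuation y = 1 := by
  have h1 := (W.valuation_le_one_iff _).2 hy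
  have h2 := (W.valuation_le_one_iff _).2 hz
  rw [map_mul] at h
  refine le_antisymm h1 (not_lt.1 fun hlt => ?_)
  exact (mul_lt_one_of_nonneg_of_lt_one_left zero_le hlt h2).ne h

/-- If a product of two elements of `W` is in the maximal ideal then so is one factor. -/
theorem val_lt_one_or {y z : L} (hy : y ∈ W) (hz : z ∈ W) (h : W.valuation (y * z) < 1) :
    W.valuation y < 1 ∨ W.valuation z < 1 := by
  have h1 := (W.valuation_le_one_iff _).2 hy
  have h2 := (W.valuation_le_one_iff _).2 hz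
  by_contra hcon
  push Not at hcon
  rw [map_mul, le_antisymm h1 hcon.1, le_antisymm h2 hcon.2, one_mul] at h
  exact lt_irrefl _ h

/-- Factor `p` into linear factors over `ℂ` (induction on the degree with
`Complex.exists_root`/`IsAlgClosed.exists_root`, or `Splits`): if no `y - c` is in the maximal
ideal then all factors are units. -/
theorem const_of_root (hW : Over S W) {y : L} (hy : y ∈ W) {p : ℂ[X]} (hp : p ≠ 0)
    (h : W.valuation (aeval y p) < 1) : ∃ c : ℂ, W.valuation (y - algebraMap ℂ L c) < 1 := by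
  by_contra hcon
  push Not at hcon
  have hlin : ∀ c : ℂ, W.valuation (y - algebraMap ℂ L c) = 1 := fun c =>
    le_antisymm ((W.valuation_le_one_iff _).2 (sub_mem hy (hW.algebraMap_mem c))) (hcon c)
  have key : ∀ (n : ℕ) (p : ℂ[X]), p.natDegree = n → p ≠ 0 → W.valuation (aeval y p) = 1 := by
    intro n
    induction n with
    | zero =>
      intro p hd hp
      rw [Polynomial.eq_C_of_natDegree_eq_zero hd] at hp ⊢
      rw [aeval_C]
      exact val_algebraMap hW (fun h0 => hp (by rw [h0, map_zero]))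
    | succ n ih =>
      intro p hd hp
      obtain ⟨c, hc⟩ := Complex.exists_root (f := p)
        (Polynomial.natDegree_pos_iff_degree_pos.1 (by omega))
      obtain ⟨q, rfl⟩ := Polynomial.dvd_iff_isRoot.2 hc
      have hq : q ≠ 0 := by rintro rfl; simp at hp
      rw [Polynomial.natDegree_mul (Polynomial.X_sub_C_ne_zero c) hq,
        Polynomial.natDegree_X_sub_C] at hd
      rw [map_mul, map_mul, ih q (by omega) hq, mul_one, map_sub, aeval_X, aeval_C]
      exact hlin c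
  exact h.ne (key _ p rfl hp)

theorem over_of_mem (hC : ∀ c : ℂ, algebraMap ℂ L c ∈ W) (hS : ∀ s ∈ S, s ∈ W) : Over S W := by
  intro z hz
  induction hz using adjoin_induction with
  | mem x hx => exact hS x hx
  | algebraMap c => exact hC c
  | add x y _ _ hx hy => exact add_mem hx hy
  | mul x y _ _ hx hy => exact mul_mem hx hy

/-- The fractions of `ℂ[S]` form a subalgebra closed under inverses which contains `S'`. -/
theorem isFrac_of {S' : Set L} (h : IsFrac S')
    (hS : ∀ s ∈ S', ∃ p ∈ adjoin ℂ S, ∃ q ∈ adjoin ℂ S, q ≠ 0 ∧ q * s = p) : IsFrac S := by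
  have key : ∀ z ∈ adjoin ℂ S', ∃ p ∈ adjoin ℂ S, ∃ q ∈ adjoin ℂ S, q ≠ 0 ∧ q * z = p := by
    intro z hz
    induction hz using adjoin_induction with
    | mem x hx => exact hS x hx
    | algebraMap c =>
      exact ⟨_, Subalgebra.algebraMap_mem _ c, 1, one_mem _, one_ne_zero, one_mul _⟩
    | add x y _ _ hx hy =>
      obtain ⟨p, hp, q, hq, hq0, h⟩ := hx
      obtain ⟨p', hp', q', hq', hq0', h'⟩ := hy
      refine ⟨p * q' + p' * q, add_mem (mul_mem hp hq') (mul_mem hp' hq), q * q', mul_mem hq hq',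
        mul_ne_zero hq0 hq0', ?_⟩
      rw [← h, ← h']; ring
    | mul x y _ _ hx hy =>
      obtain ⟨p, hp, q, hq, hq0, h⟩ := hx
      obtain ⟨p', hp', q', hq', hq0', h'⟩ := hy
      refine ⟨p * p', mul_mem hp hp', q * q', mul_mem hq hq', mul_ne_zero hq0 hq0', ?_⟩
      rw [← h, ← h']; ring
  intro z
  obtain ⟨a, ha, b, hb, hb0, hab⟩ := h z
  obtain ⟨p, hp, q, hq, hq0, h1⟩ := key a ha
  obtain ⟨p', hp', q', hq', hq0', h2⟩ := key b hb
  refine ⟨p * q', mul_mem hp hq', q * p', mul_mem hq hp', mul_ne_zero hq0 ?_, ?_⟩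
  · rw [← h2]; exact mul_ne_zero hq0' hb0
  · rw [← h1, ← h2, ← hab]; ring

/-- If the arguments are constant modulo the maximal ideal then so is the value
(`E.ev_congr`, `E.ev_map (algebraMap ℂ L)`). -/
theorem const_ev (hW : Over S W) {v : ℕ → L} (hv : ∀ i, v i ∈ W)
    (hc : ∀ i, ∃ c : ℂ, W.valuation (v i - algebraMap ℂ L c) < 1) (e : E) :
    ∃ c : ℂ, W.valuation (ev v e - algebraMap ℂ L c) < 1 := by
  choose c hc using hc
  refine ⟨ev c e, ?_⟩
  rw [ev_map (algebraMap ℂ L)]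
  exact ev_congr W hv (fun i => hW.algebraMap_mem _) hc e

end

/-- The expression visibly lies in the ideal generated by the variables `0, 1, 2`. -/
def E.zero3 : E → Bool
  | .c n => decide (n = 0)
  | .x i => decide (i < 3)
  | .add a b => E.zero3 a && E.zero3 b
  | .mul a b => E.zero3 a || E.zero3 b
  | .hor a i b => E.zero3 a && (decide (i < 3) || E.zero3 b)

theorem val_zero3 {W : ValuationSubring L} {v : ℕ → L} (hv : ∀ i, v i ∈ W)
    (h0 : ∀ i < 3, W.valuation (v i) < 1) (e : E) (he : E.zero3 e = true) :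
    W.valuation (ev v e) < 1 := by
  have hl : ∀ a b : L, W.valuation a < 1 → b ∈ W → W.valuation (a * b) < 1 := by
    intro a b ha hb
    rw [map_mul]
    exact mul_lt_one_of_nonneg_of_lt_one_left zero_le ha ((W.valuation_le_one_iff _).2 hb)
  induction e with
  | c n =>
    simp only [E.zero3, decide_eq_true_eq] at he
    simp [he]
  | x i =>
    simp only [E.zero3, decide_eq_true_eq] at he
    exact h0 i he
  | add a b ha hb =>
    simp only [E.zero3, Bool.and_eq_true] at he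
    exact Valuation.map_add_lt _ (ha he.1) (hb he.2)
  | mul a b ha hb =>
    simp only [E.zero3, Bool.or_eq_true] at he
    rcases he with he | he
    · exact hl _ _ (ha he) (ev_mem W hv b)
    · rw [ev_mul, mul_comm]; exact hl _ _ (hb he) (ev_mem W hv a)
  | hor a i b ha hb =>
    simp only [E.zero3, Bool.and_eq_true, Bool.or_eq_true, decide_eq_true_eq] at he
    refine Valuation.map_add_lt _ (ha he.1) ?_
    rcases he.2 with h | h
    · exact hl _ _ (h0 i h) (ev_mem W hv b)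
    · rw [mul_comm]; exact hl _ _ (hb h) (hv i)

/-- The monomial curve `τ ↦ (nᵢ τ ^ kᵢ)`. -/
def lineEnv {R : Type*} [CommRing R] (n : ℕ → ℤ) (k : ℕ → ℕ) (τ : R) : ℕ → R :=
  fun i => (n i : R) * τ ^ k i

/-- Let `p = ev (lineEnv n k X) e ∈ ℂ[X]`.  By `E.ev_map`, `aeval τ p = ev (lineEnv n k τ) e` and
`p.eval 1 = ((ev n e : ℤ) : ℂ) ≠ 0`, so `p ≠ 0`; `const_of_root` shows that `aeval τ p ∈ W` is a
unit, and `E.ev_congr` transfers this to `ev v e`. -/
theorem unit_on_line {S : Set L} {W : ValuationSubring L} (hW : Over S W) {v : ℕ → L}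
    (hv : ∀ i, v i ∈ W) {n : ℕ → ℤ} {k : ℕ → ℕ} {τ : L} (hτ : τ ∈ W)
    (hl : ∀ i, W.valuation (v i - lineEnv n k τ i) < 1)
    (hτ' : ¬ ∃ c : ℂ, W.valuation (τ - algebraMap ℂ L c) < 1) (e : E) (he : ev n e ≠ 0) :
    W.valuation (ev v e) = 1 := by
  set p : ℂ[X] := ev (lineEnv n k X) e with hp
  have h1 : aeval τ p = ev (lineEnv n k τ) e := by
    rw [hp, ev_map (aeval τ : ℂ[X] →ₐ[ℂ] L)]
    congr 1; funext i; simp [lineEnv]
  have h2 : aeval (1 : ℂ) p = ((ev n e : ℤ) : ℂ) := by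
    rw [hp, ev_map (aeval (1 : ℂ) : ℂ[X] →ₐ[ℂ] ℂ)]
    have := ev_map (Int.castRingHom ℂ) n e
    simp only [eq_intCast] at this
    rw [this]
    congr 1; funext i; simp [lineEnv]
  have hp0 : p ≠ 0 := by
    intro h0
    rw [h0, map_zero] at h2
    exact he (Int.cast_eq_zero.1 h2.symm)
  have hlW : ∀ i, lineEnv n k τ i ∈ W := fun i => mul_mem (intCast_mem W _) (pow_mem hτ _)
  have h3 : W.valuation (ev (lineEnv n k τ) e) = 1 := by
    refine le_antisymm ((W.valuation_le_one_iff _).2 (ev_mem W hlW e)) (not_lt.1 fun hlt => ?_)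
    rw [← h1] at hlt
    exact hτ' (const_of_root hW hτ hp0 hlt)
  exact val_eq_one_of_sub h3 (ev_congr W hv hlW hl e)

/-- If the parameter is constant modulo the maximal ideal then so are all coordinates. -/
theorem const_on_line {S : Set L} {W : ValuationSubring L} (hW : Over S W) {v : ℕ → L}
    {n : ℕ → ℤ} {k : ℕ → ℕ} {τ : L} (hτ : τ ∈ W)
    (hl : ∀ i, W.valuation (v i - lineEnv n k τ i) < 1)
    (hτ' : ∃ c : ℂ, W.valuation (τ - algebraMap ℂ L c) < 1) (i : ℕ) :
    ∃ c : ℂ, W.valuation (v i - algebraMap ℂ L c) < 1 := by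
  obtain ⟨c, hc⟩ := const_ev hW (v := fun _ => τ) (fun _ => hτ) (fun _ => hτ')
    (E.mul (E.c (n i)) (E.pow (E.x 0) (k i)))
  simp only [ev_mul, ev_c, ev_pow, ev_x] at hc
  refine ⟨c, ?_⟩
  have : v i - algebraMap ℂ L c =
      (v i - lineEnv n k τ i) + ((n i : L) * τ ^ k i - algebraMap ℂ L c) := by
    simp only [lineEnv]; ring
  rw [this]
  exact Valuation.map_add_lt _ (hl i) hc

/-- Values at a rational point: if `v i ≡ q i` modulo the maximal ideal and `ev q e ≠ 0` in `ℚ`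
then `ev v e` is a unit (`E.ev_congr`, `E.ev_map` for `Rat.castHom`, `val_algebraMap`). -/
theorem unit_of_rat {S : Set L} {W : ValuationSubring L} (hW : Over S W) {v : ℕ → L}
    (hv : ∀ i, v i ∈ W) {q : ℕ → ℚ} (hq : ∀ i, W.valuation (v i - algebraMap ℂ L (q i : ℂ)) < 1)
    (e : E) (he : ev q e ≠ 0) : W.valuation (ev v e) = 1 := by
  have h1 : ev (fun i => algebraMap ℂ L (q i : ℂ)) e = algebraMap ℂ L ((ev q e : ℚ) : ℂ) := by
    have := ev_map (Rat.castHom ℂ) q e
    simp only [eq_ratCast] at this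
    rw [this, ev_map (algebraMap ℂ L)]
  refine val_eq_one_of_sub ?_ (ev_congr W hv (fun i => hW.algebraMap_mem _) hq e)
  rw [h1]
  exact val_algebraMap hW (Rat.cast_ne_zero.2 he)

/-- Integrality passes to a larger subalgebra. -/
theorem isIntegral_of_le {R R' : Subalgebra ℂ L} (h : R ≤ R') {z : L} (hz : IsIntegral R z) :
    IsIntegral R' z := by
  obtain ⟨p, hp, hz⟩ := hz
  refine ⟨p.map (Subalgebra.inclusion h).toRingHom, hp.map _, ?_⟩
  rw [Polynomial.eval₂_map]
  exact hz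

end Crest.Agent.R278
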