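import Crest.Agent.R278.Num
import Crest.Agent.R278.Field

/-!
# The function field and the place at the exceptional curve of the weighted blow-up
-/

set_option autoImplicit false

namespace Crest.Agent.R278

open Algebra E

/-- The variables `x, t, α` of `PhE`. -/
def env3 {R : Type*} [CommRing R] (x t α : R) : ℕ → R
  | 0 => x
  | 1 => t
  | 2 => α
  | _ => 0

/-- `A = t⁴ α`, `u = t A`, `w = x u`. -/
def base {R : Type*} [CommRing R] (x t α : R) : ℕ → R
  | 0 => t ^ 4 * α
  | 1 => t ^ 5 * α
  | 2 => t ^ 5 * (α * x)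
  | _ => 0

/-- The seven generators. -/
def mkEnv {K : Type*} [Field K] (x t α : K) : ℕ → K
  | 0 => t ^ 4 * α
  | 1 => t ^ 5 * α
  | 2 => t ^ 5 * (α * x)
  | 3 => ev (base x t α) M1E / ev (base x t α) lIE
  | 4 => ev (base x t α) M2E / ev (base x t α) lIE
  | 5 => ev (base x t α) M3E / ev (base x t α) lJE
  | 6 => ev (base x t α) M4E / ev (base x t α) lJE
  | _ => 0

variable {L : Type} [Field L] [Algebra ℂ L]

structure Model (x t α r : L) (V : ValuationSubring L) : Prop where
  tr : Tr2 x t
  frac : IsFrac ({r, x, t, α} : Set L)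
  hP : ev (env3 x t α) PhE = 0
  ov : Over ({x, t, α} : Set L) V
  hx : V.valuation (x - 1) < 1
  ht : V.valuation t < 1
  hα : V.valuation (α - algebraMap ℂ L (α₀ : ℂ)) < 1
  hr : r ^ 11 = ev (mkEnv x t α) gE / t ^ 22

theorem model_map_env3 {R R' F : Type*} [CommRing R] [CommRing R'] [FunLike F R R']
    [RingHomClass F R R'] (f : F) (x t α : R) :
    (fun i => f (env3 x t α i)) = env3 (f x) (f t) (f α) := by
  funext i
  rcases i with _ | _ | _ | i
  · rfl
  · rfl
  · rfl
  · exact map_zero f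

theorem model_map_base {R R' F : Type*} [CommRing R] [CommRing R'] [FunLike F R R']
    [RingHomClass F R R'] (f : F) (x t α : R) :
    (fun i => f (base x t α i)) = base (f x) (f t) (f α) := by
  funext i
  rcases i with _ | _ | _ | i
  · simp only [base, map_mul, map_pow]
  · simp only [base, map_mul, map_pow]
  · simp only [base, map_mul, map_pow]
  · exact map_zero f

theorem model_map_mkEnv {K K' F : Type*} [Field K] [Field K'] [FunLike F K K']
    [RingHomClass F K K'] (f : F) (x t α : K) :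
    (fun i => f (mkEnv x t α i)) = mkEnv (f x) (f t) (f α) := by
  funext i
  rcases i with _ | _ | _ | _ | _ | _ | _ | i
  · simp only [mkEnv, map_mul, map_pow]
  · simp only [mkEnv, map_mul, map_pow]
  · simp only [mkEnv, map_mul, map_pow]
  · simp only [mkEnv, map_div₀, ev_map, model_map_base]
  · simp only [mkEnv, map_div₀, ev_map, model_map_base]
  · simp only [mkEnv, map_div₀, ev_map, model_map_base]
  · simp only [mkEnv, map_div₀, ev_map, model_map_base]
  · exact map_zero f

/-- Take `P = ev (env3 (X 0) (X 1) (X 2)) PhE : MvPolynomial (Fin 3) ℂ` and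
`pt = ![1, 0, α₀]`.  `E.ev_map` (for `MvPolynomial.eval pt` and `Rat.castHom ℂ`) and `num_P` give
`eval pt P = 0`; `E.deriv_ev` for the derivation `pderiv 2` and `num_P'` give the other hypothesis
of `exists_field`.  Apply `exists_root` to `γ = ev (mkEnv x t α) gE / t ^ 22` with `n = 11`
(`ι (mkEnv x t α i) = mkEnv (ι x) (ι t) (ι α) i` by `map_div₀`, `E.ev_map`), and `exists_place` to
`fun i => ι (ξ i)` (`ι` is injective, `MvPolynomial.aeval_algHom_apply`/`map_aeval`). -/
theorem exists_model : ∃ (L : Type) (_ : Field L) (_ : Algebra ℂ L) (x t α r : L)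
    (V : ValuationSubring L), Model x t α r V := by
  let w : ℕ → MvPolynomial (Fin 3) ℂ :=
    env3 (MvPolynomial.X 0) (MvPolynomial.X 1) (MvPolynomial.X 2)
  let pt : Fin 3 → ℂ := ![1, 0, (α₀ : ℂ)]
  have hev : ∀ e, MvPolynomial.eval pt (ev w e) = ((ev qP e : ℚ) : ℂ) := by
    intro e
    have h1 : (fun i => MvPolynomial.eval pt (w i)) = fun i => Rat.castHom ℂ (qP i) := by
      funext i
      rcases i with _ | _ | _ | i <;> simp [w, pt, env3, qP]
    rw [ev_map, h1, ← ev_map]; rfl
  have h0 : MvPolynomial.eval pt (ev w PhE) = 0 := by rw [hev, num_P, Rat.cast_zero]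
  have h1 : MvPolynomial.eval pt (MvPolynomial.pderiv 2 (ev w PhE)) ≠ 0 := by
    have : MvPolynomial.pderiv 2 (ev w PhE) = ev w (pd 2 PhE) := by
      rw [deriv_ev _ w PhE (by decide)]
      simp [w, env3, MvPolynomial.pderiv_X]
    rw [this, hev]
    exact_mod_cast num_P'
  obtain ⟨K, _, _, ξ, hP, htr, hfr, hker⟩ := exists_field _ pt h0 h1
  obtain ⟨L, _, _, ι, s, hs, htr', hfr'⟩ :=
    exists_root (ev (mkEnv (ξ 0) (ξ 1) (ξ 2)) gE / ξ 1 ^ 22) 11 (by norm_num) _ hfr htr
  obtain ⟨V, hV, hres⟩ := exists_place (fun i => ι (ξ i)) pt fun G hG => hker G <| by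
    rw [← MvPolynomial.comp_aeval_apply] at hG
    exact (map_eq_zero_iff ι ι.toRingHom.injective).1 hG
  have hrange : Set.range (fun i => ι (ξ i)) = {ι (ξ 0), ι (ξ 1), ι (ξ 2)} := by
    ext y
    simp only [Set.mem_range, Set.mem_insert_iff, Set.mem_singleton_iff, Fin.exists_fin_succ,
      IsEmpty.exists_iff, or_false, eq_comm (a := y)]
    rfl
  refine ⟨L, inferInstance, inferInstance, ι (ξ 0), ι (ξ 1), ι (ξ 2), s, V,
    ⟨htr', ?_, ?_, hrange ▸ hV, ?_, ?_, ?_, ?_⟩⟩
  · rw [← hrange]
    rwa [← Set.range_comp] at hfr'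
  · have := congrArg ι hP
    rw [map_zero, ev_map, ev_map] at this
    rw [← this]
    congr 1
    funext i
    rcases i with _ | _ | _ | i <;> simp [w, env3]
  · simpa [pt] using hres 0
  · simpa [pt] using hres 1
  · exact hres 2
  · rw [hs, map_div₀, map_pow, ev_map, model_map_mkEnv]

end Crest.Agent.R278
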