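import Crest.Agent.R278.Lines

/-!
# Numerical nonvanishing and weight checks
-/

set_option autoImplicit false

namespace Crest.Agent.R278

open E

/-- The minor of `θ₁` and `κ θ₂ / a` at the generators `i, j`. -/
noncomputable def mnE (i j : ℕ) : E := sub (mul (TE i) (KE j)) (mul (KE i) (TE j))

theorem num_g_nB : ev nB (flip gE) ≠ 0 := by decide +kernel
theorem num_g_nQ : ev nQ (flip gE) ≠ 0 := by decide +kernel
theorem num_g_gB : ev gB (flip gE) ≠ 0 := by decide +kernel
theorem num_g_gQ : ev gQ (flip gE) ≠ 0 := by decide +kernel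
theorem num_k_nB : ev nB kapE ≠ 0 := by decide +kernel
theorem num_k_nQ : ev nQ kapE ≠ 0 := by decide +kernel
theorem num_k_gB : ev gB kapE ≠ 0 := by decide +kernel
theorem num_k_gQ : ev gQ kapE ≠ 0 := by decide +kernel
theorem num_m_nB : ev nB (mnE 0 1) ≠ 0 := by decide +kernel
theorem num_m_nQ : ev nQ (mnE 0 1) ≠ 0 := by decide +kernel
theorem num_m_gB : ev gB (mnE 1 4) ≠ 0 := by decide +kernel
theorem num_m_gQ : ev gQ (mnE 1 4) ≠ 0 := by decide +kernel
theorem cU_ne : cU ≠ 0 := by decide +kernel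

theorem wt_T0 : wtGE 8 (TE 0) = true := by decide +kernel
theorem wt_T1 : wtGE 9 (TE 1) = true := by decide +kernel
theorem wt_T2 : wtGE 9 (TE 2) = true := by decide +kernel
theorem wt_g : wtGE 22 gE = true := by decide +kernel
theorem wt_N1 : wtGE 20 N1E = true := by decide +kernel
theorem wt_N2 : wtGE 20 N2E = true := by decide +kernel
theorem wt_eta : wtGE 9 etaE = true := by decide +kernel
theorem wt_Eu : wtGE 20 EuE = true := by decide +kernel
theorem wt_lI : wtGE 4 lIE = true := by decide +kernel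
theorem wt_lJ : wtGE 4 lJE = true := by decide +kernel

/-- The value of `α` at the chosen point `x = 1`, `t = 0`. -/
def α₀ : ℚ := -205163520 / 3568740098052190387144896

/-- The point in the rescaled variables `Â = û = α`, `ŵ = α x`, `t = 0`. -/
def q3 : ℕ → ℚ
  | 0 => α₀
  | 1 => α₀
  | 2 => α₀
  | _ => 0

/-- The same point with the values of `Ŵᵢ = N̂ᵢ / η̂`. -/
def q7 : ℕ → ℚ
  | 0 => α₀
  | 1 => α₀
  | 2 => α₀
  | 3 => ev q3 (hat 20 N1E) / ev q3 (hat 9 etaE)
  | 4 => ev q3 (hat 20 N2E) / ev q3 (hat 9 etaE)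
  | 5 => ev (fl q3) (hat 20 N1E) / ev (fl q3) (hat 9 etaE)
  | 6 => ev (fl q3) (hat 20 N2E) / ev (fl q3) (hat 9 etaE)
  | _ => 0

/-- The point `(x, t, α) = (1, 0, α₀)`. -/
def qP : ℕ → ℚ
  | 0 => 1
  | 2 => α₀
  | _ => 0

theorem num_α₀ : α₀ ≠ 0 := by decide +kernel
theorem num_eta : ev q3 (hat 9 etaE) ≠ 0 := by decide +kernel
theorem num_eta' : ev (fl q3) (hat 9 etaE) ≠ 0 := by decide +kernel
theorem num_Eu : ev q3 (hat 20 EuE) ≠ 0 := by decide +kernel
theorem num_Eu' : ev (fl q3) (hat 20 EuE) ≠ 0 := by decide +kernel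
theorem num_lI : ev q3 (hat 4 lIE) ≠ 0 := by decide +kernel
theorem num_lJ : ev q3 (hat 4 lJE) ≠ 0 := by decide +kernel
theorem num_ghat : ev q7 (hat 22 gE) ≠ 0 := by decide +kernel
theorem num_H : ev (fun _ => (0 : ℚ)) (mul hE epsE) ≠ 0 := by decide +kernel
theorem num_P : ev qP PhE = 0 := by decide +kernel
theorem num_P' : ev qP (pd 2 PhE) ≠ 0 := by decide +kernel

end Crest.Agent.R278
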