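import Crest.Agent.R278.Num

/-!
# The two derivations form a local basis away from finitely many points
-/

set_option autoImplicit false

namespace Crest.Agent.R278

open Algebra E

variable {L : Type} [Field L] [Algebra ℂ L]

omit [Algebra ℂ L] in
theorem reg_ne_zero {W : ValuationSubring L} {y : L} (h : W.valuation y = 1) : y ≠ 0 := by
  rintro rfl
  simp at h

/-- A root of `a X ^ n = b` with `a` a unit and `a`, `b` constant modulo the maximal ideal is
constant modulo the maximal ideal. -/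
theorem reg_root {S : Set L} {W : ValuationSubring L} (hW : Over S W) {y a b : L} (hy : y ∈ W)
    {n : ℕ} (hn : 0 < n) (ha : W.valuation a = 1)
    (hca : ∃ c : ℂ, W.valuation (a - algebraMap ℂ L c) < 1)
    (hcb : ∃ c : ℂ, W.valuation (b - algebraMap ℂ L c) < 1) (hab : y ^ n * a = b) :
    ∃ c : ℂ, W.valuation (y - algebraMap ℂ L c) < 1 := by
  obtain ⟨α, hα⟩ := hca
  obtain ⟨β, hβ⟩ := hcb
  have hα0 : α ≠ 0 := by
    rintro rfl
    simp [ha] at hα
  refine const_of_root hW hy (p := Polynomial.C α * Polynomial.X ^ n - Polynomial.C β) ?_ ?_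
  · intro h
    have := congrArg (fun p => Polynomial.coeff p n) h
    simp [Polynomial.coeff_C, hn.ne'] at this
    exact hα0 this
  · have : Polynomial.aeval y (Polynomial.C α * Polynomial.X ^ n - Polynomial.C β) =
        (b - algebraMap ℂ L β) - y ^ n * (a - algebraMap ℂ L α) := by
      simp only [map_sub, map_mul, map_pow, Polynomial.aeval_C, Polynomial.aeval_X]
      linear_combination hab
    rw [this]
    refine Valuation.map_sub_lt _ hβ ?_
    rw [map_mul]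
    exact mul_lt_one_of_nonneg_of_lt_one_right ((W.valuation_le_one_iff _).2 (pow_mem hy n))
      zero_le hα

/-- `s • D = θ₁` on the seven generators. -/
def Spec (D : Derivation ℂ L L) (s : L) (v : ℕ → L) : Prop :=
  ∀ i < 7, s * D (v i) = ev v (TE i)

/-- `E.deriv_ev`. -/
theorem mul_deriv_ev {D : Derivation ℂ L L} {s : L} {v : ℕ → L}
    (h0 : s * D (v 0) = ev v (TE 0)) (h1 : s * D (v 1) = ev v (TE 1))
    (h2 : s * D (v 2) = ev v (TE 2)) (e : E) (he : three e = true) :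
    s * D (ev v e) = ev v (thE e) := by
  rw [deriv_ev D v e he]
  simp only [thE, ev_add, ev_mul]
  rw [← h0, ← h1, ← h2]; ring

/-- Differentiate `lI * v 3 = M1` etc., use `id_W1 … id_W4` and cancel `lI`, `lJ`. -/
theorem spec_of {D : Derivation ℂ L L} {s : L} {v : ℕ → L} (hc : Ctx v)
    (h0 : s * D (v 0) = ev v (TE 0)) (h1 : s * D (v 1) = ev v (TE 1))
    (h2 : s * D (v 2) = ev v (TE 2)) : Spec D s v := by
  have key : ∀ (l M : E) (i : ℕ), three l = true → three M = true → ev v l ≠ 0 →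
      ev v l * v i = ev v M → ev v l * ev v (TE i) + v i * ev v (thE l) = ev v (thE M) →
      s * D (v i) = ev v (TE i) := by
    intro l M i hl hM hl0 h hid
    have e1 := mul_deriv_ev h0 h1 h2 l hl
    have e2 := mul_deriv_ev h0 h1 h2 M hM
    have e3 : D (ev v l * v i) = D (ev v M) := by rw [h]
    rw [Derivation.leibniz, smul_eq_mul, smul_eq_mul] at e3
    apply mul_left_cancel₀ hl0
    linear_combination s * e3 + e2 - v i * e1 - hid
  intro i hi
  interval_cases i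
  · exact h0
  · exact h1
  · exact h2
  · exact key lIE M1E 3 (by decide) (by decide +kernel) hc.hI hc.h1 (id_W1 hc)
  · exact key lIE M2E 4 (by decide) (by decide +kernel) hc.hI hc.h2 (id_W2 hc)
  · exact key lJE M3E 5 (by decide) (by decide +kernel) hc.hJ hc.h3 (id_W3 hc)
  · exact key lJE M4E 6 (by decide) (by decide +kernel) hc.hJ hc.h4 (id_W4 hc)

/-- `E.ev_flip`, `interval_cases i`. -/
theorem Spec.of_fl {D : Derivation ℂ L L} {s : L} {v : ℕ → L} (h : Spec D s (fl v)) :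
    ∀ i < 7, s * D (v i) = ev v (TsE i) := by
  intro i hi
  by_cases h2 : i = 2
  · subst h2
    have := h 2 (by norm_num)
    rw [fl_two, map_neg] at this
    rw [TsE, if_pos rfl, ev_neg, ev_flip, ← this]; ring
  · rw [TsE, if_neg h2, ev_flip]
    have hsw : sw i < 7 := by interval_cases i <;> simp [sw]
    have hfl : fl v (sw i) = v i := by
      interval_cases i
      · rfl
      · rfl
      · exact absurd rfl h2
      · rfl
      · rfl
      · rfl
      · rfl
    rw [← h (sw i) hsw, hfl]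

/-- The conclusion of the local analysis at `W`. -/
def RegAt (S : Set L) (W : ValuationSubring L) (D₁ D₂ : Derivation ℂ L L) (v : ℕ → L)
    (s₁ s₂ : L) : Prop :=
  (∀ i, v i ∈ Gd (locAt S W) D₁ D₂) ∧ s₁ ∈ Gd (locAt S W) D₁ D₂ ∧ s₂ ∈ Gd (locAt S W) D₁ D₂ ∧
    ∃ y ∈ adjoin ℂ S, ∃ y' ∈ adjoin ℂ S, W.valuation (D₁ y * D₂ y' - D₂ y * D₁ y') = 1

/-- Along a curve in the divisor of `s₁`.  By `unit_on_line`, `σ g = ev (fl v) gE`, `κ` and the minor
`mnE i j` are units; so `s₂` is a unit.  `D₁ (v i) = s₂⁻¹ * T i`; from `id_K` and `s₁ ≠ 0`,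
`κ * D₂ (v i) = s₂ * K i`.  So all `v i` are in `Gd` (`v (i + 7) = 0`), `s₂ ^ 11 = σ g * (ev v e)⁻¹`
is in `Gd`, `gd_root` gives `s₂`, and `s₁ = a * s₂⁻¹`.  Finally
`κ * (D₁ (v i) * D₂ (v j) - D₂ (v i) * D₁ (v j)) = ev v (mnE i j)`. -/
theorem reg_line {S : Set L} {W : ValuationSubring L} (hW : Over S W) {v : ℕ → L} (hc : Ctx v)
    (hv : ∀ i, v i ∈ adjoin ℂ S) {s₁ s₂ : L} (hs₂ : s₂ ∈ adjoin ℂ S)
    (hs : s₁ * s₂ = ev v aE) (hs₁ : s₁ ≠ 0) (e : E) (he : W.valuation (ev v e) = 1)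
    (h2 : s₂ ^ 11 * ev v e = ev (fl v) gE) {D₁ D₂ : Derivation ℂ L L} (hD₁ : Spec D₁ s₂ v)
    (hD₂ : Spec D₂ s₁ (fl v)) {n : ℕ → ℤ} {k : ℕ → ℕ} {τ : L} (hτ : τ ∈ W)
    (hl : ∀ i, W.valuation (v i - lineEnv n k τ i) < 1)
    (hτ' : ¬ ∃ c : ℂ, W.valuation (τ - algebraMap ℂ L c) < 1) {i j : ℕ} (hi : i < 7) (hj : j < 7)
    (hg : ev n (flip gE) ≠ 0) (hk : ev n kapE ≠ 0) (hm : ev n (mnE i j) ≠ 0) :
    RegAt S W D₁ D₂ v s₁ s₂ := by
  have hvW : ∀ i, v i ∈ W := fun i => hW _ (hv i)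
  have hvL : ∀ i, v i ∈ locAt S W := fun i => adjoin_le_locAt S W (hv i)
  have hg1 : W.valuation (ev (fl v) gE) = 1 := by
    rw [← ev_flip]; exact unit_on_line hW hvW hτ hl hτ' _ hg
  have hk1 : W.valuation (ev v kapE) = 1 := unit_on_line hW hvW hτ hl hτ' _ hk
  have hm1 : W.valuation (ev v (mnE i j)) = 1 := unit_on_line hW hvW hτ hl hτ' _ hm
  have hs2v : W.valuation s₂ = 1 := by
    have h : W.valuation (s₂ * (s₂ ^ 10 * ev v e)) = 1 := by
      rw [← hg1, ← h2]; congr 1; ring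
    exact val_eq_one_of_mul (hW _ hs₂) (mul_mem (pow_mem (hW _ hs₂) _) (ev_mem W hvW e)) h
  have hs20 : s₂ ≠ 0 := reg_ne_zero hs2v
  have hk0 : ev v kapE ≠ 0 := reg_ne_zero hk1
  have he0 : ev v e ≠ 0 := reg_ne_zero he
  have hs2L : s₂ ∈ locAt S W := adjoin_le_locAt S W hs₂
  have hK : ∀ i < 7, ev v kapE * D₂ (v i) = s₂ * ev v (KE i) := by
    intro i hi
    apply mul_left_cancel₀ hs₁
    have e1 := hD₂.of_fl i hi
    have e2 := id_K hc i hi
    linear_combination ev v kapE * e1 + e2 - ev v (KE i) * hs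
  have hGd : ∀ i, v i ∈ Gd (locAt S W) D₁ D₂ := by
    intro i
    by_cases hi : i < 7
    · refine ⟨hvL i, ?_, ?_⟩
      · have : D₁ (v i) = s₂⁻¹ * ev v (TE i) := by
          rw [← hD₁ i hi, inv_mul_cancel_left₀ hs20]
        rw [this]
        exact mul_mem (inv_mem_locAt hs2L hs2v) (ev_mem _ hvL _)
      · have : D₂ (v i) = (ev v kapE)⁻¹ * (s₂ * ev v (KE i)) := by
          rw [← hK i hi, inv_mul_cancel_left₀ hk0]
        rw [this]
        exact mul_mem (inv_mem_locAt (ev_mem _ hvL _) hk1) (mul_mem hs2L (ev_mem _ hvL _))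
    · obtain ⟨m, rfl⟩ : ∃ m, i = m + 7 := ⟨i - 7, by omega⟩
      rw [hc.h7]; exact zero_mem _
  have hs2G : s₂ ∈ Gd (locAt S W) D₁ D₂ := by
    refine gd_root (n := 11) (by norm_num) hs2L hs2v
      (γ := ev (fl v) gE * (ev v e)⁻¹) ?_ ?_
    · exact mul_mem (ev_mem _ (fl_mem _ hGd) _) (gd_inv (ev_mem _ hGd _) he)
    · rw [← h2, mul_inv_cancel_right₀ he0]
  have hs1G : s₁ ∈ Gd (locAt S W) D₁ D₂ := by
    have : s₁ = ev v aE * s₂⁻¹ := by rw [← hs, mul_inv_cancel_right₀ hs20]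
    rw [this]
    exact mul_mem (ev_mem _ hGd _) (gd_inv hs2G hs2v)
  refine ⟨hGd, hs1G, hs2G, v i, hv i, v j, hv j, ?_⟩
  have hdet : ev v kapE * (D₁ (v i) * D₂ (v j) - D₂ (v i) * D₁ (v j)) = ev v (mnE i j) := by
    simp only [mnE, ev_sub, ev_mul]
    rw [← hD₁ i hi, ← hD₁ j hj]
    linear_combination D₁ (v i) * hK j hj - D₁ (v j) * hK i hi
  rw [← hdet, map_mul, hk1, one_mul] at hm1
  exact hm1

/-- `reg_line` on the four curves (`num_g_nB` etc.), `const_on_line` if the parameter is constant. -/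
theorem reg_onLine {S : Set L} {W : ValuationSubring L} (hW : Over S W) {v : ℕ → L} (hc : Ctx v)
    (hv : ∀ i, v i ∈ adjoin ℂ S) {s₁ s₂ : L} (hs₂ : s₂ ∈ adjoin ℂ S)
    (hs : s₁ * s₂ = ev v aE) (hs₁ : s₁ ≠ 0) (e : E) (he : W.valuation (ev v e) = 1)
    (h2 : s₂ ^ 11 * ev v e = ev (fl v) gE) {D₁ D₂ : Derivation ℂ L L} (hD₁ : Spec D₁ s₂ v)
    (hD₂ : Spec D₂ s₁ (fl v)) (hl : OnLine W v) :
    (∀ i, ∃ c : ℂ, W.valuation (v i - algebraMap ℂ L c) < 1) ∨ RegAt S W D₁ D₂ v s₁ s₂ := by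
  obtain ⟨τ, hτ, hl⟩ := hl
  by_cases hτ' : ∃ c : ℂ, W.valuation (τ - algebraMap ℂ L c) < 1
  · left
    rcases hl with hl | hl | hl | hl <;> exact const_on_line hW hτ hl hτ'
  · right
    rcases hl with hl | hl | hl | hl
    · exact reg_line hW hc hv hs₂ hs hs₁ e he h2 hD₁ hD₂ hτ hl hτ' (by norm_num) (by norm_num)
        num_g_nB num_k_nB num_m_nB
    · exact reg_line hW hc hv hs₂ hs hs₁ e he h2 hD₁ hD₂ hτ hl hτ' (by norm_num) (by norm_num)
        num_g_nQ num_k_nQ num_m_nQ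
    · exact reg_line hW hc hv hs₂ hs hs₁ e he h2 hD₁ hD₂ hτ hl hτ' (by norm_num) (by norm_num)
        num_g_gB num_k_gB num_m_gB
    · exact reg_line hW hc hv hs₂ hs hs₁ e he h2 hD₁ hD₂ hτ hl hτ' (by norm_num) (by norm_num)
        num_g_gQ num_k_gQ num_m_gQ

/-- Where `a` is a unit: `s₁, s₂` are units, `D₁ (v i) = s₂⁻¹ * T i`, `D₂ (v i) = s₁⁻¹ * Ts i`,
`gd_root` for `s₁`, `s₂ = a * s₁⁻¹`.  The three minors at `v 0, v 1, v 2` are `ε` times the partial
derivatives of `F` (`id_eps0, id_eps1, id_eps2`, cancel `a = s₁ s₂`), and one partial derivative is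
a unit by `id_U`. -/
theorem reg_unit {S : Set L} {W : ValuationSubring L} (hW : Over S W) {v : ℕ → L} (hc : Ctx v)
    (hv : ∀ i, v i ∈ adjoin ℂ S) {s₁ s₂ : L} (hs₁ : s₁ ∈ adjoin ℂ S) (hs₂ : s₂ ∈ adjoin ℂ S)
    (hs : s₁ * s₂ = ev v aE) (h1 : s₁ ^ 11 = ev v gE) {D₁ D₂ : Derivation ℂ L L}
    (hD₁ : Spec D₁ s₂ v) (hD₂ : Spec D₂ s₁ (fl v)) (ha : W.valuation (ev v aE) = 1)
    (hε : W.valuation (ev v epsE) = 1) : RegAt S W D₁ D₂ v s₁ s₂ := by
  have hvW : ∀ i, v i ∈ W := fun i => hW _ (hv i)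
  have hvL : ∀ i, v i ∈ locAt S W := fun i => adjoin_le_locAt S W (hv i)
  have hs1v : W.valuation s₁ = 1 :=
    val_eq_one_of_mul (hW _ hs₁) (hW _ hs₂) (by rw [hs]; exact ha)
  have hs2v : W.valuation s₂ = 1 :=
    val_eq_one_of_mul (hW _ hs₂) (hW _ hs₁) (by rw [mul_comm, hs]; exact ha)
  have hs10 : s₁ ≠ 0 := reg_ne_zero hs1v
  have hs20 : s₂ ≠ 0 := reg_ne_zero hs2v
  have ha0 : ev v aE ≠ 0 := reg_ne_zero ha
  have hs1L : s₁ ∈ locAt S W := adjoin_le_locAt S W hs₁
  have hs2L : s₂ ∈ locAt S W := adjoin_le_locAt S W hs₂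
  have hD₂' := hD₂.of_fl
  have hGd : ∀ i, v i ∈ Gd (locAt S W) D₁ D₂ := by
    intro i
    by_cases hi : i < 7
    · refine ⟨hvL i, ?_, ?_⟩
      · have : D₁ (v i) = s₂⁻¹ * ev v (TE i) := by
          rw [← hD₁ i hi, inv_mul_cancel_left₀ hs20]
        rw [this]
        exact mul_mem (inv_mem_locAt hs2L hs2v) (ev_mem _ hvL _)
      · have : D₂ (v i) = s₁⁻¹ * ev v (TsE i) := by
          rw [← hD₂' i hi, inv_mul_cancel_left₀ hs10]
        rw [this]
        exact mul_mem (inv_mem_locAt hs1L hs1v) (ev_mem _ hvL _)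
    · obtain ⟨m, rfl⟩ : ∃ m, i = m + 7 := ⟨i - 7, by omega⟩
      rw [hc.h7]; exact zero_mem _
  have hs1G : s₁ ∈ Gd (locAt S W) D₁ D₂ :=
    gd_root (n := 11) (by norm_num) hs1L hs1v (ev_mem _ hGd _) h1
  have hs2G : s₂ ∈ Gd (locAt S W) D₁ D₂ := by
    have : s₂ = s₁⁻¹ * ev v aE := by rw [← hs, inv_mul_cancel_left₀ hs10]
    rw [this]
    exact mul_mem (gd_inv hs1G hs1v) (ev_mem _ hGd _)
  have key : ∀ (i j : ℕ) (f : L), i < 7 → j < 7 → W.valuation f = 1 →
      ev v (TE i) * ev v (TsE j) - ev v (TsE i) * ev v (TE j) = ev v aE * f * ev v epsE →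
      RegAt S W D₁ D₂ v s₁ s₂ := by
    intro i j f hi hj hf hid
    refine ⟨hGd, hs1G, hs2G, v i, hv i, v j, hv j, ?_⟩
    have hdet : D₁ (v i) * D₂ (v j) - D₂ (v i) * D₁ (v j) = f * ev v epsE := by
      apply mul_left_cancel₀ ha0
      rw [← hD₁ i hi, ← hD₁ j hj, ← hD₂' i hi, ← hD₂' j hj] at hid
      linear_combination hid - (D₁ (v i) * D₂ (v j) - D₂ (v i) * D₁ (v j)) * hs
    rw [hdet, map_mul, hf, hε, one_mul]
  by_cases f0 : W.valuation (ev v (pd 0 FE)) = 1
  · exact key 1 2 _ (by norm_num) (by norm_num) f0 (id_eps0 hc)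
  by_cases f1 : W.valuation (ev v (pd 1 FE)) = 1
  · exact key 2 0 _ (by norm_num) (by norm_num) f1 (id_eps1 hc)
  by_cases f2 : W.valuation (ev v (pd 2 FE)) = 1
  · exact key 0 1 _ (by norm_num) (by norm_num) f2 (id_eps2 hc)
  exfalso
  have hU := id_U hc
  have hl : W.valuation ((cU : L) * ev v aE ^ 7) = 1 := by
    rw [map_mul, map_pow, ha, val_intCast hW cU_ne]; simp
  have small : ∀ a b : E, W.valuation (ev v b) ≠ 1 → W.valuation (ev v a * ev v b) < 1 := by
    intro a b hb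
    rw [map_mul]
    exact mul_lt_one_of_nonneg_of_lt_one_right ((W.valuation_le_one_iff _).2 (ev_mem W hvW a))
      zero_le (lt_of_le_of_ne ((W.valuation_le_one_iff _).2 (ev_mem W hvW b)) hb)
  rw [hU] at hl
  exact (Valuation.map_add_lt _ (Valuation.map_add_lt _ (small _ _ f0) (small _ _ f1))
    (small _ _ f2)).ne hl

/-- The generators of `A₀`. -/
def genSet (v : ℕ → L) (s₁ s₂ z : L) : Set L :=
  {v 0, v 1, v 2, v 3, v 4, v 5, v 6, s₁, s₂, z}

omit [Field L] [Algebra ℂ L] in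
theorem genSet_finite (v : ℕ → L) (s₁ s₂ z : L) : (genSet v s₁ s₂ z).Finite := by
  unfold genSet; exact Set.toFinite _

/-- **The hypothesis `hreg` of `core`.**  `h` and `ε` are units of `W` because `z * (h * ε) = 1`.
`s₂ ^ 11 * h = σ g` (multiply by `s₁ ^ 11 = g ≠ 0` and use `id_h`).  If `a` is a unit use
`reg_unit`.  Otherwise `onLine`; in the first case use `reg_onLine` with `e = hE`, in the second
apply it to `fl v` with `s₁, s₂` and `D₁, D₂` exchanged and `e = c 1` (`fl_fl`, `ev_fl_a`,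
`Gd_comm`).  If all `v i` are constant modulo the maximal ideal then so are `g`, `σ g`, `h`, `h ε`
(`const_ev`), and `const_of_root` applied to `X ^ 11 - C c`, `C c' * X ^ 11 - C c`, `C c * X - 1`
gives `IsPt`.  From `RegAt`: `z = (ev v (mul hE epsE))⁻¹ ∈ Gd` by `gd_inv`. -/
theorem hreg_main {v : ℕ → L} (hc : Ctx v) {s₁ s₂ z : L} (hs : s₁ * s₂ = ev v aE)
    (ha : ev v aE ≠ 0) (h1 : s₁ ^ 11 = ev v gE) (hz : z * ev v (mul hE epsE) = 1)
    {D₁ D₂ : Derivation ℂ L L} (hD₁ : Spec D₁ s₂ v) (hD₂ : Spec D₂ s₁ (fl v))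
    (W : ValuationSubring L) (hW : Over (genSet v s₁ s₂ z) W) :
    IsPt (genSet v s₁ s₂ z) W ∨
      ((∀ s ∈ genSet v s₁ s₂ z, D₁ s ∈ locAt (genSet v s₁ s₂ z) W ∧
          D₂ s ∈ locAt (genSet v s₁ s₂ z) W) ∧
        ∃ y ∈ adjoin ℂ (genSet v s₁ s₂ z), ∃ y' ∈ adjoin ℂ (genSet v s₁ s₂ z),
          W.valuation (D₁ y * D₂ y' - D₂ y * D₁ y') = 1) := by
  set S := genSet v s₁ s₂ z with hS
  have hsub : ∀ s ∈ S, s ∈ adjoin ℂ S := fun s hs => subset_adjoin hs
  have hv : ∀ i, v i ∈ adjoin ℂ S := by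
    intro i
    rcases i with _ | _ | _ | _ | _ | _ | _ | i
    · exact hsub _ (by simp [hS, genSet])
    · exact hsub _ (by simp [hS, genSet])
    · exact hsub _ (by simp [hS, genSet])
    · exact hsub _ (by simp [hS, genSet])
    · exact hsub _ (by simp [hS, genSet])
    · exact hsub _ (by simp [hS, genSet])
    · exact hsub _ (by simp [hS, genSet])
    · rw [show i + 1 + 1 + 1 + 1 + 1 + 1 + 1 = i + 7 from rfl, hc.h7]; exact zero_mem _
  have hs₁ : s₁ ∈ adjoin ℂ S := hsub _ (by simp [hS, genSet])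
  have hs₂ : s₂ ∈ adjoin ℂ S := hsub _ (by simp [hS, genSet])
  have hzS : z ∈ adjoin ℂ S := hsub _ (by simp [hS, genSet])
  have hvW : ∀ i, v i ∈ W := fun i => hW _ (hv i)
  have hs10 : s₁ ≠ 0 := by rintro rfl; exact ha (by rw [← hs, zero_mul])
  have hs20 : s₂ ≠ 0 := by rintro rfl; exact ha (by rw [← hs, mul_zero])
  have hhe : W.valuation (ev v (mul hE epsE)) = 1 :=
    val_eq_one_of_mul (ev_mem W hvW _) (hW _ hzS) (by rw [mul_comm, hz, map_one])
  have hh : W.valuation (ev v hE) = 1 :=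
    val_eq_one_of_mul (ev_mem W hvW _) (ev_mem W hvW epsE) hhe
  have hε : W.valuation (ev v epsE) = 1 :=
    val_eq_one_of_mul (ev_mem W hvW _) (ev_mem W hvW hE) (by rw [mul_comm]; exact hhe)
  have h2 : s₂ ^ 11 * ev v hE = ev (fl v) gE := by
    apply mul_left_cancel₀ (pow_ne_zero 11 hs10)
    have := id_h hc
    rw [← hs, ← h1] at this
    linear_combination -this
  have main : (∀ i, ∃ c : ℂ, W.valuation (v i - algebraMap ℂ L c) < 1) ∨
      RegAt S W D₁ D₂ v s₁ s₂ := by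
    by_cases hav : W.valuation (ev v aE) = 1
    · exact Or.inr (reg_unit hW hc hv hs₁ hs₂ hs h1 hD₁ hD₂ hav hε)
    have hav' : W.valuation (ev v aE) < 1 :=
      lt_of_le_of_ne ((W.valuation_le_one_iff _).2 (ev_mem W hvW _)) hav
    rcases onLine hW hc hvW hav' with hl | hl
    · exact reg_onLine hW hc hv hs₂ hs hs10 hE hh h2 hD₁ hD₂ hl
    · have hD₁' : Spec D₁ s₂ (fl (fl v)) := by rw [fl_fl]; exact hD₁
      rcases reg_onLine hW hc.fl (fl_mem _ hv) hs₁ (by rw [mul_comm, hs, ev_fl_a]) hs20 (c 1)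
        (by simp) (by rw [fl_fl, ← h1]; simp) hD₂ hD₁' hl with h | h
      · left
        intro i
        have hi := h (sw i)
        by_cases h2 : i = 2
        · subst h2
          obtain ⟨a, ha⟩ := hi
          refine ⟨-a, ?_⟩
          rw [← Valuation.map_neg]
          convert ha using 2
          simp only [sw, fl_two, map_neg]; ring
        · have hfl : fl v (sw i) = v i := by
            rcases i with _ | _ | _ | _ | _ | _ | _ | i
            · rfl
            · rfl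
            · exact absurd rfl h2
            · rfl
            · rfl
            · rfl
            · rfl
            · rfl
          rwa [hfl] at hi
      · right
        obtain ⟨g1, g2, g3, y, hy, y', hy', hyy⟩ := h
        rw [Gd_comm] at g1 g2 g3
        refine ⟨?_, g3, g2, y', hy', y, hy, ?_⟩
        · have := fl_mem _ g1
          rwa [fl_fl] at this
        · convert hyy using 2; ring
  rcases main with h | ⟨g1, g2, g3, hy⟩
  · left
    intro s hs'
    simp only [hS, genSet, Set.mem_insert_iff, Set.mem_singleton_iff] at hs'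
    rcases hs' with rfl | rfl | rfl | rfl | rfl | rfl | rfl | rfl | rfl | rfl
    · exact h 0
    · exact h 1
    · exact h 2
    · exact h 3
    · exact h 4
    · exact h 5
    · exact h 6
    · exact reg_root hW (hW _ hs₁) (n := 11) (by norm_num) (a := 1) (map_one _) ⟨1, by simp⟩
        (const_ev hW hvW h gE) (by rw [mul_one, h1])
    · exact reg_root hW (hW _ hs₂) (n := 11) (by norm_num) hh (const_ev hW hvW h hE)
        (const_ev hW hvW h (flip gE)) (by rw [h2, ev_flip])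
    · exact reg_root hW (hW _ hzS) (n := 1) (by norm_num) hhe (const_ev hW hvW h _)
        (b := 1) ⟨1, by simp⟩ (by rw [pow_one, hz])
  · right
    refine ⟨?_, hy⟩
    have hzG : z ∈ Gd (locAt S W) D₁ D₂ := by
      have : z = (ev v (mul hE epsE))⁻¹ := eq_inv_of_mul_eq_one_left hz
      rw [this]
      exact gd_inv (ev_mem _ g1 _) hhe
    intro s hs'
    simp only [hS, genSet, Set.mem_insert_iff, Set.mem_singleton_iff] at hs'
    rcases hs' with rfl | rfl | rfl | rfl | rfl | rfl | rfl | rfl | rfl | rfl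
    · exact (g1 0).2
    · exact (g1 1).2
    · exact (g1 2).2
    · exact (g1 3).2
    · exact (g1 4).2
    · exact (g1 5).2
    · exact (g1 6).2
    · exact g2.2
    · exact g3.2
    · exact hzG.2

end Crest.Agent.R278
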