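import Crest.Agent.R278.Defs

/-!
# Seidenberg's theorem and the chart lemma
-/

set_option autoImplicit false

namespace Crest.Agent.R278

open Algebra

variable {L : Type} [Field L] [Algebra ℂ L]

/-- A derivation which maps the generators of `ℂ[S]` into a subalgebra `R ⊇ S` maps `ℂ[S]` into `R`
(induction on `Algebra.adjoin`, Leibniz rule). -/
theorem deriv_mem_of_adjoin (S : Set L) (R : Subalgebra ℂ L) (hSR : S ⊆ R) (D : Derivation ℂ L L)
    (hD : ∀ s ∈ S, D s ∈ R) : ∀ z ∈ adjoin ℂ S, D z ∈ R := by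
  have hle : adjoin ℂ S ≤ R := adjoin_le hSR
  intro z hz
  induction hz using Algebra.adjoin_induction with
  | mem x hx => exact hD x hx
  | algebraMap r => rw [Derivation.map_algebraMap]; exact zero_mem _
  | add x y _ _ hx hy => rw [map_add]; exact add_mem hx hy
  | mul x y hx' hy' hx hy =>
    rw [Derivation.leibniz, smul_eq_mul, smul_eq_mul]
    exact add_mem (mul_mem (hle hx') hy) (mul_mem (hle hy') hx)

/-- `locAt S W ⊆ W` when `ℂ[S] ⊆ W`. -/
theorem locAt_le {S : Set L} {W : ValuationSubring L} (hW : Over S W) :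
    ∀ z ∈ locAt S W, z ∈ W := by
  rintro z ⟨p, hp, q, -, hq1, h⟩
  have hp' : W.valuation p ≤ 1 := (W.valuation_le_one_iff p).2 (hW p hp)
  rw [← h, map_mul, hq1, one_mul] at hp'
  exact (W.valuation_le_one_iff z).1 hp'

/-- If `D S ⊆ locAt S W` then `D` preserves `locAt S W` (quotient rule:
`q * (q * D z) = q * D p - p * D q` when `q * z = p`). -/
theorem deriv_mem_locAt {S : Set L} {W : ValuationSubring L} (D : Derivation ℂ L L)
    (hD : ∀ s ∈ S, D s ∈ locAt S W) : ∀ z ∈ locAt S W, D z ∈ locAt S W := by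
  have h0 : ∀ z ∈ adjoin ℂ S, D z ∈ locAt S W :=
    deriv_mem_of_adjoin S (locAt S W)
      (fun s hs => adjoin_le_locAt S W (Algebra.subset_adjoin hs)) D hD
  intro z hz
  obtain ⟨p, hp, q, hq, hq1, h⟩ := hz
  have hz : z ∈ locAt S W := ⟨p, hp, q, hq, hq1, h⟩
  have hq0 : q ≠ 0 := by
    rintro rfl
    simp at hq1
  have hqi : q⁻¹ ∈ locAt S W := ⟨1, one_mem _, q, hq, hq1, mul_inv_cancel₀ hq0⟩
  have h1 : D p = q * D z + z * D q := by
    rw [← h, Derivation.leibniz, smul_eq_mul, smul_eq_mul]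
  have h2 : D z = q⁻¹ * (D p - z * D q) := by
    rw [h1]; field_simp; ring
  rw [h2]
  exact mul_mem hqi (sub_mem (h0 p hp) (mul_mem hz (h0 q hq)))

section Ad

variable {E : Type} [Ring E]

/-- The inner derivation `T ↦ T * μ - μ * T`. -/
def adR (μ : E) (T : E) : E := T * μ - μ * T

theorem adR_mul (μ X Y : E) : adR μ (X * Y) = adR μ X * Y + X * adR μ Y := by
  unfold adR; noncomm_ring

theorem adR_add (μ X Y : E) : adR μ (X + Y) = adR μ X + adR μ Y := by
  unfold adR; noncomm_ring

theorem adR_zero (μ : E) : adR μ 0 = 0 := by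
  unfold adR; simp

theorem adR_natCast_mul (μ : E) (n : ℕ) (X : E) : adR μ ((n : E) * X) = (n : E) * adR μ X := by
  have h : adR μ (n : E) = 0 := by
    unfold adR
    rw [(Nat.cast_commute n μ).eq, sub_self]
  rw [adR_mul, h, zero_mul, zero_add]

theorem adR_iter_mul {μ d ν : E} (hd : adR μ d = ν) (hν : adR μ ν = 0) (Y : E) (m : ℕ) :
    (adR μ)^[m + 1] (d * Y) =
      d * (adR μ)^[m + 1] Y + ((m + 1 : ℕ) : E) * (ν * (adR μ)^[m] Y) := by
  induction m with
  | zero =>
    simp only [zero_add, Function.iterate_one, Nat.cast_one, one_mul, Function.iterate_zero,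
      _root_.id]
    rw [adR_mul, hd, add_comm]
  | succ m ih =>
    rw [Function.iterate_succ_apply', ih, adR_add, adR_natCast_mul, adR_mul, adR_mul, hd, hν,
      ← Function.iterate_succ_apply' (adR μ) (m + 1), ← Function.iterate_succ_apply' (adR μ) m]
    push_cast
    noncomm_ring

theorem adR_iter_pow {μ d ν : E} (hd : adR μ d = ν) (hν : adR μ ν = 0) (n : ℕ) :
    (adR μ)^[n + 1] (d ^ n) = 0 ∧ (adR μ)^[n] (d ^ n) = ((n.factorial : ℕ) : E) * ν ^ n := by
  induction n with
  | zero =>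
    constructor
    · simp [adR]
    · simp
  | succ n ih =>
    obtain ⟨h1, h2⟩ := ih
    constructor
    · rw [pow_succ', adR_iter_mul hd hν, Function.iterate_succ_apply' (adR μ) (n + 1), h1,
        adR_zero]
      simp
    · rw [pow_succ', adR_iter_mul hd hν, h1, h2, Nat.factorial_succ, pow_succ', ← mul_assoc ν,
        ← (Nat.cast_commute n.factorial ν).eq]
      push_cast
      noncomm_ring

end Ad

/-- A finitely generated `R`-submodule of the fraction field has a common denominator. -/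
theorem exists_denom_of_fg (R : Subalgebra ℂ L)
    (hfrac : ∀ z : L, ∃ p ∈ R, ∃ q ∈ R, q ≠ 0 ∧ q * z = p) (N : Submodule R L) (hN : N.FG) :
    ∃ c ∈ R, c ≠ 0 ∧ ∀ z ∈ N, c * z ∈ R := by
  induction N, hN using Submodule.fg_induction with
  | singleton x =>
    obtain ⟨p, hp, q, hq, hq0, h⟩ := hfrac x
    refine ⟨q, hq, hq0, fun z hz => ?_⟩
    obtain ⟨a, rfl⟩ := Submodule.mem_span_singleton.1 hz
    have : q * (a • x) = (a : L) * p := by
      rw [← h, Subalgebra.smul_def, smul_eq_mul]; ring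
    rw [this]
    exact mul_mem a.2 hp
  | sup N₁ N₂ _ _ h₁ h₂ =>
    obtain ⟨c₁, hc₁, hc₁0, h₁⟩ := h₁
    obtain ⟨c₂, hc₂, hc₂0, h₂⟩ := h₂
    refine ⟨c₁ * c₂, mul_mem hc₁ hc₂, mul_ne_zero hc₁0 hc₂0, fun z hz => ?_⟩
    obtain ⟨x, hx, y, hy, rfl⟩ := Submodule.mem_sup.1 hz
    have : c₁ * c₂ * (x + y) = c₂ * (c₁ * x) + c₁ * (c₂ * y) := by ring
    rw [this]
    exact add_mem (mul_mem hc₂ (h₁ x hx)) (mul_mem hc₁ (h₂ y hy))

theorem adR_iter_mem (R : Subalgebra ℂ L) (f c : L) (hc : ∀ j : ℕ, c * f ^ j ∈ R)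
    (T : Module.End ℂ L) (hT : ∀ z ∈ R, T z ∈ R) (n : ℕ) :
    ∀ i j : ℕ, c * f ^ i * ((adR (LinearMap.mulLeft ℂ f))^[n] T) (c * f ^ j) ∈ R := by
  induction n with
  | zero => intro i j; exact mul_mem (hc i) (hT _ (hc j))
  | succ n ih =>
    intro i j
    rw [Function.iterate_succ_apply']
    set U := (adR (LinearMap.mulLeft ℂ f))^[n] T with hU
    have : c * f ^ i * (adR (LinearMap.mulLeft ℂ f) U) (c * f ^ j) =
        c * f ^ i * U (c * f ^ (j + 1)) - c * f ^ (i + 1) * U (c * f ^ j) := by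
      simp only [adR, LinearMap.sub_apply, Module.End.mul_apply, LinearMap.mulLeft_apply]
      have : f * (c * f ^ j) = c * f ^ (j + 1) := by ring
      rw [this]; ring
    rw [this]
    exact sub_mem (ih i (j + 1)) (ih (i + 1) j)

/-- **Seidenberg.** `R` a Noetherian subalgebra with fraction field `L`, `D` a derivation of `L`
preserving `R`.  Then `D` preserves the integral closure of `R`.

Proof.  Let `f` be integral over `R`.  There is `c ∈ R`, `c ≠ 0`, with `c * f ^ j ∈ R` for all `j`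
(`f = p / q`, `c = q ^ d`, `d` the degree of an integral equation; or: the finite `R`-module
`R[f] ⊆ L` has a common denominator).  Work in the ring `E = Module.End ℂ L`; let `μ_g` be
multiplication by `g` and `ad T = T * μ_f - μ_f * T`.  `ad` is a derivation of `E`,
`ad D = μ_{D f}`, `ad μ_g = 0`, so `ad^[m] (D * Y) = D * ad^[m] Y + m • μ_{Df} * ad^[m-1] Y`, and by
induction `ad^[n+1] (D ^ n) = 0`, `ad^[n] (D ^ n) = n! • μ_{(D f) ^ n}`.  On the other hand, if `T`
preserves `R` then `c * f ^ i * (ad^[n] T) (c * f ^ j) ∈ R` for all `n i j` (induction on `n`).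
Hence `c * n! * (D f) ^ n * c ∈ R`, i.e. `c ^ 2 * (D f) ^ n ∈ R` for all `n`.  So `R[D f]` is a
submodule of the cyclic `R`-module `c⁻² R`, finitely generated since `R` is Noetherian, and `D f`
is integral (`isIntegral_of_smul_mem_submodule` / `IsIntegral.of_mem_of_fg`). -/
theorem seidenberg (R : Subalgebra ℂ L) [IsNoetherianRing R]
    (hfrac : ∀ z : L, ∃ p ∈ R, ∃ q ∈ R, q ≠ 0 ∧ q * z = p) (D : Derivation ℂ L L)
    (hD : ∀ z ∈ R, D z ∈ R) (f : L) (hf : IsIntegral R f) : IsIntegral R (D f) := by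
  obtain ⟨c, hcR, hc0, hc⟩ := exists_denom_of_fg R hfrac _ hf.fg_adjoin_singleton
  have hc' : ∀ j : ℕ, c * f ^ j ∈ R := fun j =>
    hc _ (pow_mem (Algebra.subset_adjoin (Set.mem_singleton f)) j)
  set d : Module.End ℂ L := D.toLinearMap with hd
  have hdn : ∀ n : ℕ, ∀ z ∈ R, (d ^ n) z ∈ R := by
    intro n
    induction n with
    | zero => intro z hz; simpa using hz
    | succ n ih =>
      intro z hz
      rw [pow_succ', Module.End.mul_apply]
      exact hD _ (ih z hz)
  have h1 : adR (LinearMap.mulLeft ℂ f) d = LinearMap.mulLeft ℂ (D f) := by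
    ext z
    simp only [adR, hd, LinearMap.sub_apply, Module.End.mul_apply, LinearMap.mulLeft_apply,
      Derivation.coeFn_coe, Derivation.leibniz, smul_eq_mul]
    ring
  have h2 : adR (LinearMap.mulLeft ℂ f) (LinearMap.mulLeft ℂ (D f)) = 0 := by
    ext z
    simp only [adR, LinearMap.sub_apply, Module.End.mul_apply, LinearMap.mulLeft_apply,
      LinearMap.zero_apply]
    ring
  have hpow : ∀ (n : ℕ) (z : L), ((LinearMap.mulLeft ℂ (D f)) ^ n) z = D f ^ n * z := by
    intro n
    induction n with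
    | zero => intro z; simp
    | succ n ih =>
      intro z
      rw [pow_succ', Module.End.mul_apply, ih, LinearMap.mulLeft_apply]; ring
  have h3 : ∀ n : ℕ, c * c * D f ^ n ∈ R := by
    intro n
    have h4 := adR_iter_mem R f c hc' (d ^ n) (hdn n) n 0 0
    rw [(adR_iter_pow h1 h2 n).2, Module.End.mul_apply, hpow, Module.End.natCast_apply] at h4
    have hn : ((n.factorial : ℕ) : ℂ) ≠ 0 := Nat.cast_ne_zero.2 n.factorial_ne_zero
    have h5 := R.smul_mem h4 ((n.factorial : ℕ) : ℂ)⁻¹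
    have h6 : ((n.factorial : ℕ) : ℂ)⁻¹ • (c * f ^ 0 * n.factorial • (D f ^ n * (c * f ^ 0))) =
        c * c * D f ^ n := by
      rw [← Nat.cast_smul_eq_nsmul ℂ, mul_smul_comm, smul_smul, inv_mul_cancel₀ hn, one_smul]
      ring
    rwa [h6] at h5
  have hle : Subalgebra.toSubmodule (adjoin R ({D f} : Set L)) ≤
      Submodule.span R {(c * c)⁻¹} := by
    rw [Algebra.adjoin_eq_span, Submodule.span_le]
    intro z hz
    obtain ⟨n, rfl⟩ := Submonoid.mem_closure_singleton.1 hz
    refine Submodule.mem_span_singleton.2 ⟨⟨_, h3 n⟩, ?_⟩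
    rw [Subalgebra.smul_def, smul_eq_mul]
    field_simp
  exact IsIntegral.of_mem_of_fg _ (Submodule.FG.of_le (Submodule.fg_span_singleton _) hle) _
    (Algebra.subset_adjoin (Set.mem_singleton _))

omit [Algebra ℂ L] in
/-- A root of a monic polynomial with coefficients in the image of `A` is integral over `A`. -/
theorem isIntegral_of_coeff_mem {A : Type} [CommRing A] [Algebra A L] (P : Polynomial L)
    (hP : P.Monic) (hc : ∀ i, P.coeff i ∈ Set.range (algebraMap A L)) (f : L)
    (hf : P.eval f = 0) : IsIntegral A f := by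
  obtain ⟨Q, hQ, -, hQm⟩ := Polynomial.lifts_and_natDegree_eq_and_monic
    ((Polynomial.lifts_iff_coeff_lifts (f := algebraMap A L) P).2 hc) hP
  refine ⟨Q, hQm, ?_⟩
  rw [Polynomial.eval₂_eq_eval_map, hQ, hf]

/-- An element integral over a subalgebra contained in a valuation subring lies in it. -/
theorem mem_of_isIntegral_of_le (R : Subalgebra ℂ L) (W : ValuationSubring L)
    (hRW : ∀ z ∈ R, z ∈ W) (z : L) (hz : IsIntegral R z) : z ∈ W := by
  obtain ⟨P, hPm, hP⟩ := hz
  have h : IsIntegral W z := by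
    refine isIntegral_of_coeff_mem (P.map (algebraMap R L)) (hPm.map _) (fun i => ?_) z ?_
    · rw [Polynomial.coeff_map]
      exact ⟨⟨_, hRW _ (P.coeff i).2⟩, rfl⟩
    · rw [← Polynomial.eval₂_eq_eval_map]; exact hP
  obtain ⟨y, rfl⟩ := IsIntegrallyClosed.algebraMap_eq_of_integral h
  exact y.2

/-- Finitely many elements of `locAt S W` have a common denominator. -/
theorem exists_common_denom {S : Set L} {W : ValuationSubring L} (T : Set L) (hT : T.Finite)
    (hTl : ∀ t ∈ T, t ∈ locAt S W) :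
    ∃ q ∈ adjoin ℂ S, W.valuation q = 1 ∧ ∀ t ∈ T, q * t ∈ adjoin ℂ S := by
  induction T, hT using Set.Finite.induction_on with
  | empty => exact ⟨1, one_mem _, by simp, by simp⟩
  | @insert a T _ _ ih =>
    obtain ⟨q, hq, hq1, h⟩ := ih fun t ht => hTl t (Set.mem_insert_of_mem _ ht)
    obtain ⟨p', hp', q', hq', hq1', h'⟩ := hTl a (Set.mem_insert _ _)
    refine ⟨q * q', mul_mem hq hq', by simp [hq1, hq1'], ?_⟩
    rintro t (rfl | ht)
    · rw [mul_assoc, h']; exact mul_mem hq hp'
    · rw [mul_comm q q', mul_assoc]; exact mul_mem hq' (h t ht)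

/-- **Chart lemma.**  Let `q` be the product of the denominators of the finitely many `D s`;
`R = ℂ[S ∪ {q⁻¹}]` is finitely generated (Noetherian), contained in `W`, preserved by `D`.  If `f`
is integral over `locAt S W` then `q' * f` is integral over `ℂ[S]` for a unit `q' ∈ ℂ[S]` of `W`
(clear the denominators of the coefficients of an integral equation), so `D (q' * f)` is integral
over `R`, hence in `W` (valuation rings are integrally closed), `f ∈ W`, `D q' ∈ W`, and
`q' * D f = D (q' * f) - f * D q'`. -/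
theorem chart {S : Set L} (hS : S.Finite) (hfrac : IsFrac S) {W : ValuationSubring L}
    (hW : Over S W) (D : Derivation ℂ L L) (hD : ∀ s ∈ S, D s ∈ locAt S W)
    (f : L) (hf : IsIntegral (locAt S W) f) : D f ∈ W := by
  obtain ⟨P, hPm, hP⟩ := hf
  set P' : Polynomial L := P.map (algebraMap (locAt S W) L) with hP'
  have hfin : (D '' S ∪ ((P'.coeffs : Finset L) : Set L)).Finite :=
    (hS.image _).union (Finset.finite_toSet _)
  obtain ⟨q, hq, hq1, hqT⟩ := exists_common_denom (S := S) (W := W) _ hfin (by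
    rintro t (⟨s, hs, rfl⟩ | ht)
    · exact hD s hs
    · obtain ⟨n, -, rfl⟩ := Polynomial.mem_coeffs_iff.1 (Finset.mem_coe.1 ht)
      rw [hP', Polynomial.coeff_map]
      exact (P.coeff n).2)
  have hq0 : q ≠ 0 := by
    rintro rfl
    simp at hq1
  set R : Subalgebra ℂ L := adjoin ℂ (insert q⁻¹ S) with hR
  have hSR : adjoin ℂ S ≤ R := Algebra.adjoin_mono (Set.subset_insert _ _)
  have hqi : q⁻¹ ∈ R := Algebra.subset_adjoin (Set.mem_insert _ _)
  have hT : ∀ t ∈ D '' S ∪ ((P'.coeffs : Finset L) : Set L), t ∈ R := by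
    intro t ht
    have : t = q⁻¹ * (q * t) := by field_simp
    rw [this]
    exact mul_mem hqi (hSR (hqT t ht))
  have : IsNoetherianRing R := by
    refine isNoetherianRing_of_fg ?_
    exact Subalgebra.fg_def.2 ⟨_, hS.insert _, rfl⟩
  have hDS : ∀ z ∈ adjoin ℂ S, D z ∈ R :=
    deriv_mem_of_adjoin S R (fun s hs => hSR (Algebra.subset_adjoin hs)) D
      fun s hs => hT _ (Or.inl ⟨s, hs, rfl⟩)
  have hDR : ∀ z ∈ R, D z ∈ R := by
    refine deriv_mem_of_adjoin _ R Algebra.subset_adjoin D ?_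
    rintro s (rfl | hs)
    · rw [Derivation.leibniz_inv, smul_eq_mul]
      exact mul_mem (neg_mem (pow_mem hqi 2)) (hDS q hq)
    · exact hDS s (Algebra.subset_adjoin hs)
  have hfR : IsIntegral R f := by
    refine isIntegral_of_coeff_mem P' (hPm.map _) (fun i => ?_) f ?_
    · by_cases h0 : P'.coeff i = 0
      · exact ⟨0, by rw [h0, map_zero]⟩
      · exact ⟨⟨_, hT _ (Or.inr (Finset.mem_coe.2 (Polynomial.coeff_mem_coeffs h0)))⟩, rfl⟩
    · rw [hP', ← Polynomial.eval₂_eq_eval_map]; exact hP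
  have hRW : ∀ z ∈ R, z ∈ W := by
    intro z hz
    refine locAt_le hW z ?_
    refine (adjoin_le ?_ : R ≤ locAt S W) hz
    rintro s (rfl | hs)
    · exact ⟨1, one_mem _, q, hq, hq1, mul_inv_cancel₀ hq0⟩
    · exact adjoin_le_locAt S W (Algebra.subset_adjoin hs)
  refine mem_of_isIntegral_of_le R W hRW _ (seidenberg R ?_ D hDR f hfR)
  intro z
  obtain ⟨p, hp, q', hq', h0, h⟩ := hfrac z
  exact ⟨p, hSR hp, q', hSR hq', h0, h⟩

end Crest.Agent.R278
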