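import Crest.Agent.R278.Hat
import Crest.Agent.R278.Reg

/-!
# The derivations, and their vanishing at the singular point
-/

set_option autoImplicit false

namespace Crest.Agent.R278

open Algebra E

variable {L : Type} [Field L] [Algebra ℂ L]

/-- Euler's identity (`simp [EuE, FE, k0E, k2E, pd]; ring`). -/
theorem ev_Eu (v : ℕ → L) : ev v EuE =
    v 0 * ev v (pd 0 FE) + v 1 * ev v (pd 1 FE) + v 2 * ev v (pd 2 FE) := by
  simp only [EuE, FE, k0E, k2E, pd, ev_hor, ev_add, ev_c, Int.ofNat_eq_natCast, Int.cast_negSucc,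
    ↓reduceIte, OfNat.ofNat_ne_zero, OfNat.ofNat_ne_one, OfNat.zero_ne_ofNat,
    OfNat.one_ne_ofNat, one_ne_zero, zero_ne_one]
  push_cast
  ring

/-- Choose `D` with `s * v 0 ^ 2 * D t = T 1 * v 0 - v 1 * T 0` and
`s * v 1 ^ 2 * D x = T 2 * v 1 - v 2 * T 1`.  With `δ i = s * D (v i) - T i` one gets `δ 1 = t δ 0`,
`δ 2 = x δ 1`; differentiating `F = 0` (`E.deriv_ev`) and subtracting `id_F` gives
`δ 0 * ev v EuE = 0`.  Then `spec_of`. -/
theorem exists_spec {v : ℕ → L} (hc : Ctx v) {x t s : L}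
    (hex : ∀ a b : L, ∃ D : Derivation ℂ L L, D x = a ∧ D t = b)
    (h1 : v 1 = t * v 0) (h2 : v 2 = x * v 1) (h0 : v 1 ≠ 0) (hs : s ≠ 0) (hE : ev v EuE ≠ 0) :
    ∃ D : Derivation ℂ L L, Spec D s v := by
  have h00 : v 0 ≠ 0 := fun h => h0 (by rw [h1, h, mul_zero])
  obtain ⟨D, hx, ht⟩ := hex ((ev v (TE 2) * v 1 - v 2 * ev v (TE 1)) / (s * v 1 ^ 2))
    ((ev v (TE 1) * v 0 - v 1 * ev v (TE 0)) / (s * v 0 ^ 2))
  rw [eq_div_iff (mul_ne_zero hs (pow_ne_zero 2 h0))] at hx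
  rw [eq_div_iff (mul_ne_zero hs (pow_ne_zero 2 h00))] at ht
  have d1 : D (v 1) = t * D (v 0) + v 0 * D t := by
    conv_lhs => rw [h1, Derivation.leibniz, smul_eq_mul, smul_eq_mul]
  have d2 : D (v 2) = x * D (v 1) + v 1 * D x := by
    conv_lhs => rw [h2, Derivation.leibniz, smul_eq_mul, smul_eq_mul]
  have e1 : s * D (v 1) - ev v (TE 1) = t * (s * D (v 0) - ev v (TE 0)) := by
    refine mul_left_cancel₀ h00 ?_
    rw [d1]
    linear_combination ht - ev v (TE 0) * h1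
  have e2 : s * D (v 2) - ev v (TE 2) = x * (s * D (v 1) - ev v (TE 1)) := by
    refine mul_left_cancel₀ h0 ?_
    rw [d2]
    linear_combination hx - ev v (TE 1) * h2
  have f1 := deriv_ev D v FE (by decide)
  rw [hc.hF, map_zero] at f1
  have f2 := id_F hc
  simp only [thE, ev_add, ev_mul] at f2
  have e0 : s * D (v 0) - ev v (TE 0) = 0 := by
    refine mul_left_cancel₀ hE ?_
    rw [ev_Eu, h2, h1]
    linear_combination (-(v 0 * s)) * f1 - v 0 * f2 - v 0 * ev v (pd 1 FE) * e1 -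
      v 0 * ev v (pd 2 FE) * e2 - v 0 * ev v (pd 2 FE) * x * e1
  rw [e0, mul_zero] at e1
  rw [e1, mul_zero] at e2
  exact ⟨D, spec_of hc (sub_eq_zero.1 e0) (sub_eq_zero.1 e1) (sub_eq_zero.1 e2)⟩

/-- `D` raises the weight by `2`.  With `T̂₀ = ev vh (hat 8 (TE 0))`, `T̂₁ = ev vh (hat 9 (TE 1))`,
`T̂₂ = ev vh (hat 9 (TE 2))` (`E.ev_hat`, `wt_T0`, …) and `D' = (t ^ 2)⁻¹ • D`:
`ρ α D' t = t (T̂₁ - T̂₀)`, `ρ D' α = T̂₀ - 4 (T̂₁ - T̂₀)`, `ρ α D' x = T̂₂ - x T̂₁`. -/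
theorem hat_deriv {S : Set L} {V : ValuationSubring L} {v vh : ℕ → L} {x t α ρ : L}
    (ht : t ≠ 0) (hv : ∀ i < 7, v i = vh 7 ^ wt i * vh i) (h7 : vh 7 = t) (h0 : vh 0 = α)
    (h1 : vh 1 = α) (h2 : vh 2 = α * x) (hm : ∀ i, vh i ∈ locAt S V) (hx : x ∈ locAt S V)
    (hα : V.valuation α = 1) (hρ : ρ ∈ locAt S V) (hρ1 : V.valuation ρ = 1)
    {D : Derivation ℂ L L} (hD : Spec D (t ^ 2 * ρ) v) :
    ((t ^ 2)⁻¹ • D) x ∈ locAt S V ∧ ((t ^ 2)⁻¹ • D) t ∈ locAt S V ∧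
      ((t ^ 2)⁻¹ • D) α ∈ locAt S V := by
  have hα0 : α ≠ 0 := fun h => by rw [h, map_zero] at hα; exact zero_ne_one hα
  have hρ0 : ρ ≠ 0 := fun h => by rw [h, map_zero] at hρ1; exact zero_ne_one hρ1
  have hαi : α⁻¹ ∈ locAt S V := inv_mem_locAt (h0 ▸ hm 0) hα
  have hρi : ρ⁻¹ ∈ locAt S V := inv_mem_locAt hρ hρ1
  have htm : t ∈ locAt S V := h7 ▸ hm 7
  have v0 : v 0 = t ^ 4 * α := by rw [hv 0 (by norm_num), h7, h0]; rfl
  have v1 : v 1 = t * v 0 := by rw [v0, hv 1 (by norm_num), h7, h1, show wt 1 = 5 from rfl]; ring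
  have v2 : v 2 = x * v 1 := by
    rw [v1, v0, hv 2 (by norm_num), h7, h2, show wt 2 = 5 from rfl]; ring
  have s0 := hD 0 (by norm_num)
  have s1 := hD 1 (by norm_num)
  have s2 := hD 2 (by norm_num)
  rw [ev_hat hv _ _ wt_T0, h7] at s0
  rw [ev_hat hv _ _ wt_T1, h7] at s1
  rw [ev_hat hv _ _ wt_T2, h7] at s2
  have m0 := ev_mem (locAt S V) hm (hat 8 (TE 0))
  have m1 := ev_mem (locAt S V) hm (hat 9 (TE 1))
  have m2 := ev_mem (locAt S V) hm (hat 9 (TE 2))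
  generalize ev vh (hat 8 (TE 0)) = T0 at s0 m0
  generalize ev vh (hat 9 (TE 1)) = T1 at s1 m1
  generalize ev vh (hat 9 (TE 2)) = T2 at s2 m2
  have d0 : D (v 0) = t ^ 4 * D α + α * (4 * t ^ 3 * D t) := by
    rw [v0, Derivation.leibniz, Derivation.leibniz_pow]
    simp only [smul_eq_mul, nsmul_eq_mul]
    push_cast; ring
  have d1 : D (v 1) = t * D (v 0) + v 0 * D t := by
    conv_lhs => rw [v1, Derivation.leibniz, smul_eq_mul, smul_eq_mul]
  have d2 : D (v 2) = x * D (v 1) + v 1 * D x := by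
    conv_lhs => rw [v2, Derivation.leibniz, smul_eq_mul, smul_eq_mul]
  have et : ρ * α * D t = t ^ 3 * (T1 - T0) := by
    refine mul_left_cancel₀ (pow_ne_zero 6 ht) ?_
    rw [d1, v0] at s1
    rw [v0] at s0
    linear_combination s1 - t * s0
  have eα : ρ * D α = t ^ 2 * (T0 - 4 * (T1 - T0)) := by
    refine mul_left_cancel₀ (pow_ne_zero 6 ht) ?_
    rw [d0] at s0
    linear_combination s0 - 4 * t ^ 5 * et
  have ex : ρ * α * D x = t ^ 2 * (T2 - x * T1) := by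
    refine mul_left_cancel₀ (pow_ne_zero 7 ht) ?_
    rw [d2] at s2
    linear_combination s2 - x * s1 - t ^ 2 * ρ * D x * v1 - t ^ 3 * ρ * D x * v0
  have h4 : (4 : L) ∈ locAt S V := by exact_mod_cast natCast_mem (locAt S V) 4
  simp only [Derivation.smul_apply, smul_eq_mul]
  refine ⟨?_, ?_, ?_⟩
  · have : (t ^ 2)⁻¹ * D x = ρ⁻¹ * α⁻¹ * (T2 - x * T1) := by
      field_simp; linear_combination ex
    rw [this]
    exact mul_mem (mul_mem hρi hαi) (sub_mem m2 (mul_mem hx m1))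
  · have : (t ^ 2)⁻¹ * D t = ρ⁻¹ * α⁻¹ * (t * (T1 - T0)) := by
      field_simp; linear_combination et
    rw [this]
    exact mul_mem (mul_mem hρi hαi) (mul_mem htm (sub_mem m1 m0))
  · have : (t ^ 2)⁻¹ * D α = ρ⁻¹ * (T0 - 4 * (T1 - T0)) := by
      field_simp; linear_combination eα
    rw [this]
    exact mul_mem hρi (sub_mem m0 (mul_mem h4 (sub_mem m1 m0)))

/-- **Everything `core` needs.**  `v = mkEnv x t α`, `s₁ = t ^ 2 * r`,
`s₂ = t ^ 2 * (α * (1 + 3 * t) * r⁻¹)`, `z = (ev v (mul hE epsE))⁻¹`.  `D₁` from `exists_spec` for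
`v, x, s₂`, `D₂` for `fl v, -x, s₁` (`exists_derivation`).  `IsFrac` by `isFrac_of` (`x = w / u`,
`t = u / A`, `α = A ^ 5 / u ^ 4`, `r = s₁ A ^ 2 / u ^ 2`).  The minor at `v 1, v 2` is
`ε * ∂F/∂A`; if all minors vanished then `id_eps0, id_eps1, id_eps2`, `ε ≠ 0`, `a ≠ 0` and `ev_Eu`
would give `ev v EuE = 0`.  With `S' = {r, x, t, α}` all generators lie in `locAt S' V ⊆ V`; by
`hat_deriv` (for `D₂`: `fl v`, `fl (hat7 x t α)`, `-x`) `x, t, α` lie in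
`Gd (locAt S' V) D₁' D₂'` with `Dᵢ' = (t ^ 2)⁻¹ • Dᵢ`, so does `r` (`Model.hat7_gd`, `Model.r_pow`,
`gd_root`); `chart` (with `isIntegral_of_le`) gives `Dᵢ' y ∈ V`, and `Dᵢ y = t ^ 2 * Dᵢ' y`. -/
theorem of_model {x t α r : L} {V : ValuationSubring L} (h : Model x t α r V) :
    ∃ (v : ℕ → L) (s₁ s₂ z : L) (D₁ D₂ : Derivation ℂ L L), Ctx v ∧ s₁ * s₂ = ev v aE ∧
      ev v aE ≠ 0 ∧ s₁ ^ 11 = ev v gE ∧ z * ev v (mul hE epsE) = 1 ∧ Spec D₁ s₂ v ∧
      Spec D₂ s₁ (fl v) ∧ IsFrac (genSet v s₁ s₂ z) ∧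
      (∃ y y' : L, D₁ y * D₂ y' - D₂ y * D₁ y' ≠ 0) ∧ Over (genSet v s₁ s₂ z) V ∧
      ∀ y ∈ nA (genSet v s₁ s₂ z), V.valuation (D₁ y) < 1 ∧ V.valuation (D₂ y) < 1 := by
  have ne_of : ∀ y : L, V.valuation y = 1 → y ≠ 0 := fun y hy h0 => by
    rw [h0, map_zero] at hy; exact zero_ne_one hy
  have ht := h.t_ne
  have hα := ne_of _ h.val_α
  have hr := ne_of _ h.val_r
  have hH := ne_of _ h.val_H
  have hc := h.ctx
  have h3V : (3 : L) ∈ V := by exact_mod_cast natCast_mem V 3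
  have h13 : V.valuation (1 + 3 * t) = 1 := by
    refine val_eq_one_of_sub (z := 1) (map_one _) ?_
    rw [add_sub_cancel_left, map_mul]
    exact mul_lt_one_of_nonneg_of_lt_one_right ((V.valuation_le_one_iff _).2 h3V) zero_le h.ht
  have hρ1 : V.valuation (α * (1 + 3 * t) * r⁻¹) = 1 := by
    rw [map_mul, map_mul, map_inv₀, h.val_α, h13, h.val_r]; simp
  have hv7 := h.mkEnv_eq_hat7
  have hval := h.val_H
  have heu := h.eu_ne
  have hg := h.hr
  have v0 : mkEnv x t α 0 = t ^ 4 * α := rfl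
  have v1 : mkEnv x t α 1 = t ^ 5 * α := rfl
  have v2 : mkEnv x t α 2 = t ^ 5 * (α * x) := rfl
  generalize mkEnv x t α = v at *
  have hv0 : v 0 ≠ 0 := by rw [v0]; exact mul_ne_zero (pow_ne_zero _ ht) hα
  have hv1 : v 1 ≠ 0 := by rw [v1]; exact mul_ne_zero (pow_ne_zero _ ht) hα
  have hs₁ : t ^ 2 * r ≠ 0 := mul_ne_zero (pow_ne_zero _ ht) hr
  have hs₂ : t ^ 2 * (α * (1 + 3 * t) * r⁻¹) ≠ 0 := mul_ne_zero (pow_ne_zero _ ht) (ne_of _ hρ1)
  have hs : t ^ 2 * r * (t ^ 2 * (α * (1 + 3 * t) * r⁻¹)) = ev v aE := by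
    rw [ev_a, v0, v1]; field_simp
  have ha : ev v aE ≠ 0 := hs ▸ mul_ne_zero hs₁ hs₂
  obtain ⟨D₁, hD₁⟩ := exists_spec hc (x := x) (t := t) (exists_derivation h.tr)
    (by rw [v0, v1]; ring) (by rw [v1, v2]; ring) hv1 hs₂ heu.1
  obtain ⟨D₂, hD₂⟩ := exists_spec hc.fl (x := -x) (t := t)
    (fun a b => by
      obtain ⟨D, h1, h2⟩ := exists_derivation h.tr (-a) b
      exact ⟨D, by rw [map_neg, h1, neg_neg], h2⟩)
    (by rw [fl_one, fl_zero, v0, v1]; ring) (by rw [fl_two, fl_one, v1, v2]; ring) hv1 hs₁ heu.2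
  -- the local ring at `V`
  have gen : ∀ s ∈ ({r, x, t, α} : Set L), s ∈ locAt ({r, x, t, α} : Set L) V := fun s hs =>
    adjoin_le_locAt _ _ (subset_adjoin hs)
  have mr := gen r (by simp)
  have mx := gen x (by simp)
  have mt := gen t (by simp)
  have mα := gen α (by simp)
  have hle := locAt_le h.over4
  have g0 : ∀ y ∈ locAt ({r, x, t, α} : Set L) V, y ∈ Gd (locAt ({r, x, t, α} : Set L) V) 0 0 :=
    fun y hy => ⟨hy, zero_mem _, zero_mem _⟩
  have mh : ∀ i, hat7 x t α i ∈ locAt ({r, x, t, α} : Set L) V := fun i =>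
    (h.hat7_gd (g0 x mx) (g0 t mt) (g0 α mα) i).1
  have mv : ∀ i, v i ∈ locAt ({r, x, t, α} : Set L) V := fun i => by
    by_cases hi : i < 7
    · rw [hv7 i hi]; exact mul_mem (pow_mem (mh 7) _) (mh i)
    · obtain ⟨j, rfl⟩ : ∃ j, i = j + 7 := ⟨i - 7, by omega⟩
      rw [hc.h7]; exact zero_mem _
  have h3 : (3 : L) ∈ locAt ({r, x, t, α} : Set L) V := by
    exact_mod_cast natCast_mem (locAt ({r, x, t, α} : Set L) V) 3
  have mρ : α * (1 + 3 * t) * r⁻¹ ∈ locAt ({r, x, t, α} : Set L) V :=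
    mul_mem (mul_mem mα (add_mem (one_mem _) (mul_mem h3 mt))) (inv_mem_locAt mr h.val_r)
  have hgen : ∀ s ∈ genSet v (t ^ 2 * r) (t ^ 2 * (α * (1 + 3 * t) * r⁻¹))
      (ev v (mul hE epsE))⁻¹, s ∈ locAt ({r, x, t, α} : Set L) V := by
    intro s hs
    simp only [genSet, Set.mem_insert_iff, Set.mem_singleton_iff] at hs
    rcases hs with rfl | rfl | rfl | rfl | rfl | rfl | rfl | rfl | rfl | rfl
    · exact mv 0
    · exact mv 1
    · exact mv 2
    · exact mv 3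
    · exact mv 4
    · exact mv 5
    · exact mv 6
    · exact mul_mem (pow_mem mt 2) mr
    · exact mul_mem (pow_mem mt 2) mρ
    · exact inv_mem_locAt (ev_mem _ mv _) hval
  have hadj := adjoin_le (S := locAt ({r, x, t, α} : Set L) V) hgen
  refine ⟨v, t ^ 2 * r, t ^ 2 * (α * (1 + 3 * t) * r⁻¹), (ev v (mul hE epsE))⁻¹, D₁, D₂, hc, hs,
    ha, ?_, inv_mul_cancel₀ hH, hD₁, hD₂, ?_, ?_, fun y hy => hle y (hadj hy), ?_⟩
  · rw [mul_pow, hg]; field_simp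
  · refine isFrac_of h.frac ?_
    set S := genSet v (t ^ 2 * r) (t ^ 2 * (α * (1 + 3 * t) * r⁻¹)) (ev v (mul hE epsE))⁻¹
    have a0 : v 0 ∈ adjoin ℂ S := subset_adjoin (by simp [S, genSet])
    have a1 : v 1 ∈ adjoin ℂ S := subset_adjoin (by simp [S, genSet])
    have a2 : v 2 ∈ adjoin ℂ S := subset_adjoin (by simp [S, genSet])
    have a3 : t ^ 2 * r ∈ adjoin ℂ S := subset_adjoin (by simp [S, genSet])
    intro s hs
    simp only [Set.mem_insert_iff, Set.mem_singleton_iff] at hs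
    rcases hs with rfl | rfl | rfl | rfl
    · exact ⟨_, mul_mem a3 (pow_mem a0 2), _, pow_mem a1 2, pow_ne_zero _ hv1,
        by rw [v0, v1]; ring⟩
    · exact ⟨_, a2, _, a1, hv1, by rw [v1, v2]; ring⟩
    · exact ⟨_, a1, _, a0, hv0, by rw [v0, v1]; ring⟩
    · exact ⟨_, pow_mem a0 5, _, pow_mem a1 4, pow_ne_zero _ hv1, by rw [v0, v1]; ring⟩
  · by_contra hne
    push Not at hne
    have hε : ev v epsE ≠ 0 := fun h0 => hH (by rw [ev_mul, h0, mul_zero])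
    have key : ∀ i < 7, ∀ j < 7,
        ev v (TE i) * ev v (TsE j) - ev v (TsE i) * ev v (TE j) = 0 := by
      intro i hi j hj
      rw [← hD₁ i hi, ← hD₁ j hj, ← hD₂.of_fl i hi, ← hD₂.of_fl j hj]
      linear_combination (t ^ 2 * r * (t ^ 2 * (α * (1 + 3 * t) * r⁻¹))) * hne (v i) (v j)
    have k0 := id_eps0 hc
    have k1 := id_eps1 hc
    have k2 := id_eps2 hc
    rw [key _ (by norm_num) _ (by norm_num)] at k0 k1 k2
    have z0 := ((mul_eq_zero.1 ((mul_eq_zero.1 k0.symm).resolve_right hε)).resolve_left ha)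
    have z1 := ((mul_eq_zero.1 ((mul_eq_zero.1 k1.symm).resolve_right hε)).resolve_left ha)
    have z2 := ((mul_eq_zero.1 ((mul_eq_zero.1 k2.symm).resolve_right hε)).resolve_left ha)
    exact heu.1 (by rw [ev_Eu, z0, z1, z2]; ring)
  · obtain ⟨x1, t1, α1⟩ := hat_deriv ht hv7 rfl rfl rfl rfl mh mx h.val_α mρ hρ1 hD₁
    have hfl : ∀ i < 7, fl v i = fl (hat7 x t α) 7 ^ wt i * fl (hat7 x t α) i := by
      intro i hi
      interval_cases i
      · exact hv7 0 (by norm_num)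
      · exact hv7 1 (by norm_num)
      · rw [fl_two, fl_two, hv7 2 (by norm_num), mul_neg]; rfl
      · exact hv7 5 (by norm_num)
      · exact hv7 6 (by norm_num)
      · exact hv7 3 (by norm_num)
      · exact hv7 4 (by norm_num)
    obtain ⟨x2, t2, α2⟩ := hat_deriv (x := -x) (α := α) ht hfl rfl rfl rfl (mul_neg α x).symm
      (fl_mem _ mh) (neg_mem mx) h.val_α mr h.val_r hD₂
    rw [map_neg, neg_mem_iff] at x2
    have gx : x ∈ Gd _ ((t ^ 2)⁻¹ • D₁) ((t ^ 2)⁻¹ • D₂) := ⟨mx, x1, x2⟩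
    have gt : t ∈ Gd _ ((t ^ 2)⁻¹ • D₁) ((t ^ 2)⁻¹ • D₂) := ⟨mt, t1, t2⟩
    have gα : α ∈ Gd _ ((t ^ 2)⁻¹ • D₁) ((t ^ 2)⁻¹ • D₂) := ⟨mα, α1, α2⟩
    have gr := gd_root (n := 11) (by norm_num) mr h.val_r
      (ev_mem _ (h.hat7_gd gx gt gα) _) h.r_pow
    have gall : ∀ s ∈ ({r, x, t, α} : Set L),
        s ∈ Gd (locAt ({r, x, t, α} : Set L) V) ((t ^ 2)⁻¹ • D₁) ((t ^ 2)⁻¹ • D₂) := by
      intro s hs
      simp only [Set.mem_insert_iff, Set.mem_singleton_iff] at hs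
      rcases hs with rfl | rfl | rfl | rfl
      · exact gr
      · exact gx
      · exact gt
      · exact gα
    have fin : ∀ (D : Derivation ℂ L L) (y : L), ((t ^ 2)⁻¹ • D) y ∈ V →
        V.valuation (D y) < 1 := by
      intro D y hy
      have : D y = (((t ^ 2)⁻¹ • D) y * t) * t := by
        rw [Derivation.smul_apply, smul_eq_mul]; field_simp
      rw [this, map_mul]
      exact mul_lt_one_of_nonneg_of_lt_one_right
        ((V.valuation_le_one_iff _).2 (mul_mem hy (hle t mt))) zero_le h.ht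
    intro y hy
    have hi := isIntegral_of_le hadj (mem_nA.1 hy)
    exact ⟨fin _ _ (chart (Set.toFinite _) h.frac h.over4 _ (fun s hs => (gall s hs).2.1) y hi),
      fin _ _ (chart (Set.toFinite _) h.frac h.over4 _ (fun s hs => (gall s hs).2.2) y hi)⟩

end Crest.Agent.R278
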